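import Mathlib

/-! Scalar integrals for the action inequality. -/

namespace Vale.Agent.P371

open MeasureTheory Set Filter Topology

noncomputable def rho (α y t : ℝ) : ℝ := t ^ (α - 1) * Real.log (1 + y / t)

noncomputable def II (α : ℝ) : ℝ := ∫ t in Ioi (0 : ℝ), rho α 1 t

lemma rho_nonneg (α : ℝ) {y t : ℝ} (hy : 0 ≤ y) (ht : 0 < t) : 0 ≤ rho α y t :=
  mul_nonneg (Real.rpow_nonneg ht.le _) (Real.log_nonneg (by
    have := div_nonneg hy ht.le; linarith))

lemma rho_meas (α : ℝ) : Measurable fun p : ℝ × ℝ => rho α p.1 p.2 := by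
  unfold rho; fun_prop

lemma rho_one_integrable {α : ℝ} (h0 : 0 < α) (h1 : α < 1) :
    IntegrableOn (rho α 1) (Ioi 0) := by
  have hm : Measurable (rho α 1) := by unfold rho; fun_prop
  rw [← Ioc_union_Ioi_eq_Ioi (zero_le_one' ℝ)]
  refine IntegrableOn.union ?_ ?_
  · have hi : IntegrableOn (fun t : ℝ => (2 ^ (α / 2) / (α / 2)) * t ^ (α / 2 - 1)) (Ioc 0 1) :=
      ((intervalIntegral.intervalIntegrable_rpow' (a := 0) (b := 1)
        (by linarith : -1 < α / 2 - 1)).const_mul _).1
    refine hi.mono' hm.aestronglyMeasurable ?_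
    filter_upwards [ae_restrict_mem measurableSet_Ioc] with t ht
    have ht0 := ht.1
    rw [Real.norm_of_nonneg (rho_nonneg α zero_le_one ht0)]
    have e1 : Real.log (1 + 1 / t) ≤ (2 / t) ^ (α / 2) / (α / 2) := by
      refine le_trans (Real.log_le_log (by positivity) ?_)
        (Real.log_le_rpow_div (by positivity) (by positivity))
      rw [le_div_iff₀ ht0]; field_simp; linarith [ht.2]
    unfold rho
    refine (mul_le_mul_of_nonneg_left e1 (Real.rpow_nonneg ht0.le _)).trans (le_of_eq ?_)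
    rw [Real.div_rpow (by norm_num) ht0.le,
      show α / 2 - 1 = (α - 1) - α / 2 by ring, Real.rpow_sub ht0 (α - 1)]
    field_simp
  · have hi : IntegrableOn (fun t : ℝ => t ^ (α - 2)) (Ioi 1) :=
      integrableOn_Ioi_rpow_of_lt (by linarith) one_pos
    refine hi.mono' hm.aestronglyMeasurable ?_
    filter_upwards [ae_restrict_mem measurableSet_Ioi] with t ht
    have ht0 : 0 < t := lt_trans one_pos ht
    rw [Real.norm_of_nonneg (rho_nonneg α zero_le_one ht0)]
    have e1 : Real.log (1 + 1 / t) ≤ 1 / t := by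
      have := Real.log_le_sub_one_of_pos (show 0 < 1 + 1 / t by positivity)
      linarith
    unfold rho
    refine (mul_le_mul_of_nonneg_left e1 (Real.rpow_nonneg ht0.le _)).trans (le_of_eq ?_)
    rw [show α - 2 = (α - 1) - 1 by ring, Real.rpow_sub ht0 (α - 1), Real.rpow_one]
    field_simp

lemma II_pos {α : ℝ} (h0 : 0 < α) (h1 : α < 1) : 0 < II α := by
  unfold II
  rw [setIntegral_pos_iff_support_of_nonneg_ae _ (rho_one_integrable h0 h1)]
  · have : Function.support (rho α 1) ∩ Ioi 0 = Ioi 0 := by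
      refine inter_eq_right.mpr fun t ht => ?_
      have ht0 : 0 < t := ht
      refine (mul_pos (Real.rpow_pos_of_pos ht0 _) (Real.log_pos ?_)).ne'
      have : 0 < 1 / t := by positivity
      linarith
    rw [this]; simp
  · filter_upwards [ae_restrict_mem measurableSet_Ioi] with t ht
    exact rho_nonneg α zero_le_one ht

lemma rho_scale (α : ℝ) {y s : ℝ} (hy : 0 < y) (hs : 0 < s) :
    rho α y (y * s) = y ^ (α - 1) * rho α 1 s := by
  unfold rho
  rw [Real.mul_rpow hy.le hs.le, show y / (y * s) = 1 / s by field_simp]; ring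

lemma rho_integral {α : ℝ} (h0 : 0 < α) (h1 : α < 1) {y : ℝ} (hy : 0 ≤ y) :
    IntegrableOn (rho α y) (Ioi 0) ∧ ∫ t in Ioi (0 : ℝ), rho α y t = II α * y ^ α := by
  rcases hy.eq_or_lt with rfl | hy
  · have : rho α 0 = fun _ => 0 := by funext t; simp [rho]
    rw [this]; simp [h0.ne']
  have e : EqOn (fun s => rho α y (y * s)) (fun s => y ^ (α - 1) * rho α 1 s) (Ioi 0) :=
    fun s hs => rho_scale α hy hs
  constructor
  · have := (integrableOn_Ioi_comp_mul_left_iff (rho α y) 0 hy).mp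
      (IntegrableOn.congr_fun ((rho_one_integrable h0 h1).const_mul _) e.symm measurableSet_Ioi)
    simpa using this
  · have := integral_comp_mul_left_Ioi (rho α y) 0 hy
    rw [setIntegral_congr_fun measurableSet_Ioi e, integral_const_mul, mul_zero,
      smul_eq_mul] at this
    have h2 : ∫ t in Ioi (0 : ℝ), rho α y t = y * (y ^ (α - 1) * II α) := by
      unfold II; rw [this]; field_simp
    rw [h2, Real.rpow_sub hy, Real.rpow_one]; field_simp

lemma fub {α : ℝ} (h0 : 0 < α) (h1 : α < 1) {w : ℝ → ℝ} (hw : Continuous w) {a b : ℝ}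
    (hab : a ≤ b) (hp : ∀ s ∈ Ioc a b, 0 ≤ w s) :
    IntegrableOn (fun t => t ^ (α - 1) * ∫ s in a..b, Real.log (1 + w s / t)) (Ioi 0) ∧
    ∫ t in Ioi (0 : ℝ), t ^ (α - 1) * ∫ s in a..b, Real.log (1 + w s / t) =
      II α * ∫ s in a..b, w s ^ α := by
  have hm : Measurable fun p : ℝ × ℝ => rho α (w p.1) p.2 :=
    (rho_meas α).comp ((hw.measurable.comp measurable_fst).prodMk measurable_snd)
  have hc : Continuous fun s => II α * w s ^ α :=
    continuous_const.mul (hw.rpow_const fun _ => Or.inr h0.le)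
  have hi : Integrable (fun p : ℝ × ℝ => rho α (w p.1) p.2)
      ((volume.restrict (Ioc a b)).prod (volume.restrict (Ioi 0))) := by
    rw [integrable_prod_iff hm.aestronglyMeasurable]
    constructor
    · filter_upwards [ae_restrict_mem measurableSet_Ioc] with s hs
      exact (rho_integral h0 h1 (hp s hs)).1
    · refine ((hc.intervalIntegrable a b).1).congr ?_
      filter_upwards [ae_restrict_mem measurableSet_Ioc] with s hs
      rw [← (rho_integral h0 h1 (hp s hs)).2]
      refine setIntegral_congr_fun measurableSet_Ioi fun t ht => ?_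
      exact (Real.norm_of_nonneg (rho_nonneg α (hp s hs) ht)).symm
  have e : ∀ t, t ^ (α - 1) * ∫ s in a..b, Real.log (1 + w s / t) =
      ∫ s in Ioc a b, rho α (w s) t := by
    intro t
    rw [intervalIntegral.integral_of_le hab, ← integral_const_mul]; rfl
  simp only [e]
  refine ⟨hi.integral_prod_right, ?_⟩
  rw [← integral_integral_swap (f := fun s t => rho α (w s) t) hi,
    ← intervalIntegral.integral_const_mul, intervalIntegral.integral_of_le hab]
  exact setIntegral_congr_fun measurableSet_Ioc fun s hs => (rho_integral h0 h1 (hp s hs)).2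

lemma eta_eq {y t : ℝ} (hy : 0 ≤ y) (ht : 0 < t) :
    ∫ s in (0 : ℝ)..y, Real.log (1 + s / t) =
      (y + t) * Real.log (y + t) - Real.log t * (y + t) - y := by
  have : ∀ s ∈ uIcc 0 y, HasDerivAt
      (fun s => (s + t) * Real.log (s + t) - Real.log t * (s + t) - s) (Real.log (1 + s / t)) s := by
    intro s hs
    rw [uIcc_of_le hy] at hs
    have h1 : 0 < s + t := by linarith [hs.1]
    have h2 := (Real.hasDerivAt_mul_log h1.ne').comp s ((hasDerivAt_id s).add_const t)
    refine ((h2.fun_sub (((hasDerivAt_id s).add_const t).const_mul (Real.log t))).fun_sub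
      (hasDerivAt_id s)).congr_deriv ?_
    rw [show 1 + s / t = (s + t) / t by field_simp; ring, Real.log_div h1.ne' ht.ne']; ring
  rw [intervalIntegral.integral_eq_sub_of_hasDerivAt this]
  · simp; ring
  · refine ContinuousOn.intervalIntegrable fun s hs => ?_
    rw [uIcc_of_le hy] at hs
    have : 0 < 1 + s / t := by have := div_nonneg hs.1 ht.le; linarith
    exact (ContinuousAt.log (f := fun x => 1 + x / t) (by fun_prop) this.ne').continuousWithinAt

lemma eta_le {α : ℝ} (h0 : 0 < α) (h1 : α < 1) {y δ T : ℝ} (hy : 0 ≤ y) (hδ : 0 < δ)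
    (hT : δ ≤ T) : ∫ t in δ..T, t ^ (α - 1) *
      ((y + t) * Real.log (y + t) - Real.log t * (y + t) - y) ≤ II α * (y ^ (α + 1) / (α + 1)) := by
  obtain ⟨hi, he⟩ := fub h0 h1 continuous_id hy fun s hs => hs.1.le
  simp only [id] at hi he
  rw [integral_rpow (Or.inl (by linarith)), Real.zero_rpow (by linarith), sub_zero] at he
  rw [← he, intervalIntegral.integral_of_le hT,
    setIntegral_congr_fun (g := fun t => t ^ (α - 1) * ∫ s in (0 : ℝ)..y, Real.log (1 + s / t))
      measurableSet_Ioc fun t ht => by simp only; rw [eta_eq hy (lt_trans hδ ht.1)]]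
  refine setIntegral_mono_set hi ?_ (Eventually.of_forall fun t ht => lt_trans hδ ht.1)
  filter_upwards [ae_restrict_mem measurableSet_Ioi] with t ht
  have ht0 : 0 < t := ht
  refine mul_nonneg (Real.rpow_nonneg ht0.le _) (intervalIntegral.integral_nonneg hy fun s hs => ?_)
  exact Real.log_nonneg (by have := div_nonneg hs.1 ht0.le; linarith)

noncomputable def phi (k t : ℝ) : ℝ :=
  2 * ((√(k ^ 2 + t) + k) * Real.log (√(k ^ 2 + t) + k) -
    (√(k ^ 2 + t) - k) * Real.log (√(k ^ 2 + t) - k) - (Real.log t + 2) * k)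

lemma lt_sqrt_add {k t : ℝ} (hk : 0 ≤ k) (ht : 0 < t) : k < √(k ^ 2 + t) :=
  Real.lt_sqrt_of_sq_lt (by linarith)

lemma phi_eq {k t : ℝ} (hk : 0 ≤ k) (ht : 0 < t) :
    ∫ s in (-k)..k, Real.log (1 + (k ^ 2 - s ^ 2) / t) = phi k t := by
  have hl := lt_sqrt_add hk ht
  set l := √(k ^ 2 + t) with hl'
  have hl2 : l ^ 2 = k ^ 2 + t := Real.sq_sqrt (by positivity)
  have hkk : -k ≤ k := by linarith
  have : ∀ s ∈ uIcc (-k) k, HasDerivAt
      (fun s => (l + s) * Real.log (l + s) - (l - s) * Real.log (l - s) - (Real.log t + 2) * s)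
      (Real.log (1 + (k ^ 2 - s ^ 2) / t)) s := by
    intro s hs
    rw [uIcc_of_le hkk] at hs
    have h1 : 0 < l + s := by linarith [hs.1]
    have h1' : 0 < l - s := by linarith [hs.2]
    have h2 := (Real.hasDerivAt_mul_log h1.ne').comp s ((hasDerivAt_id s).const_add l)
    have h3 := (Real.hasDerivAt_mul_log h1'.ne').comp s ((hasDerivAt_id s).const_sub l)
    refine ((h2.fun_sub h3).fun_sub
      ((hasDerivAt_id s).const_mul (Real.log t + 2))).congr_deriv ?_
    rw [show 1 + (k ^ 2 - s ^ 2) / t = (l + s) * (l - s) / t by field_simp; linarith,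
      Real.log_div (mul_pos h1 h1').ne' ht.ne', Real.log_mul h1.ne' h1'.ne']; ring
  rw [intervalIntegral.integral_eq_sub_of_hasDerivAt this]
  · simp only [phi, ← hl', sub_neg_eq_add, ← sub_eq_add_neg]; ring
  · refine ContinuousOn.intervalIntegrable fun s hs => ?_
    rw [uIcc_of_le hkk] at hs
    have : 0 < 1 + (k ^ 2 - s ^ 2) / t := by
      have := div_nonneg (show 0 ≤ k ^ 2 - s ^ 2 by nlinarith [hs.1, hs.2]) ht.le; linarith
    exact (ContinuousAt.log (f := fun x => 1 + (k ^ 2 - x ^ 2) / t) (by fun_prop)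
      this.ne').continuousWithinAt

noncomputable def JJ (α : ℝ) : ℝ := ∫ s in (-1 : ℝ)..1, (1 - s ^ 2) ^ α

lemma JJ_scale (α : ℝ) {k : ℝ} (hk : 0 < k) :
    ∫ s in (-k)..k, (k ^ 2 - s ^ 2) ^ α = k ^ (2 * α + 1) * JJ α := by
  have := intervalIntegral.integral_comp_mul_left (a := -1) (b := 1)
    (fun s => (k ^ 2 - s ^ 2) ^ α) hk.ne'
  simp only [mul_neg, mul_one, smul_eq_mul] at this
  have e : ∫ s in (-1 : ℝ)..1, (k ^ 2 - (k * s) ^ 2) ^ α = k ^ (2 * α) * JJ α := by
    unfold JJ
    rw [← intervalIntegral.integral_const_mul]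
    refine intervalIntegral.integral_congr fun s hs => ?_
    rw [uIcc_of_le (by norm_num)] at hs
    rw [show k ^ 2 - (k * s) ^ 2 = k ^ 2 * (1 - s ^ 2) by ring,
      Real.mul_rpow (by positivity) (by nlinarith [hs.1, hs.2]), Real.rpow_mul hk.le]
    simp
  rw [e] at this
  rw [Real.rpow_add hk, Real.rpow_one, mul_comm _ k, mul_assoc, this]; field_simp

lemma phi_lim {α : ℝ} (h0 : 0 < α) (h1 : α < 1) {k : ℝ} (hk : 0 < k) :
    Tendsto (fun j : ℕ => ∫ t in (1 / ((j : ℝ) + 1))..((j : ℝ) + 1), t ^ (α - 1) * phi k t) atTop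
      (𝓝 (II α * (k ^ (2 * α + 1) * JJ α))) := by
  obtain ⟨hi, he⟩ := fub h0 h1 (w := fun s => k ^ 2 - s ^ 2) (by fun_prop)
    (show -k ≤ k by linarith) fun s hs => by nlinarith [hs.1, hs.2]
  have e : EqOn (fun t => t ^ (α - 1) * ∫ s in (-k)..k, Real.log (1 + (k ^ 2 - s ^ 2) / t))
      (fun t => t ^ (α - 1) * phi k t) (Ioi 0) := fun t ht => by
    simp only; rw [phi_eq hk.le ht]
  rw [JJ_scale α hk, setIntegral_congr_fun measurableSet_Ioi e] at he
  replace hi := hi.congr_fun e measurableSet_Ioi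
  have hU : ⋃ j : ℕ, Ioc (1 / ((j : ℝ) + 1)) ((j : ℝ) + 1) = Ioi 0 := by
    ext t
    simp only [mem_iUnion, mem_Ioc, mem_Ioi]
    constructor
    · rintro ⟨j, h, -⟩
      exact lt_trans (by positivity) h
    · intro ht
      obtain ⟨j, hj⟩ := exists_nat_gt (max t (1 / t))
      refine ⟨j, ?_, by linarith [le_max_left t (1 / t)]⟩
      have := lt_of_le_of_lt (le_max_right t (1 / t)) hj
      rw [div_lt_iff₀ ht] at this
      rw [div_lt_iff₀ (by positivity)]; nlinarith
  have := tendsto_setIntegral_of_monotone (μ := volume)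
    (s := fun j : ℕ => Ioc (1 / ((j : ℝ) + 1)) ((j : ℝ) + 1)) (f := fun t => t ^ (α - 1) * phi k t)
    (fun _ => measurableSet_Ioc) (fun i j hij => Ioc_subset_Ioc
      (one_div_le_one_div_of_le (by positivity) (by simpa using hij)) (by simpa using hij))
    (by rwa [hU])
  rw [hU, he] at this
  refine this.congr fun j => ?_
  rw [intervalIntegral.integral_of_le]
  have : (0 : ℝ) ≤ j := Nat.cast_nonneg j
  rw [div_le_iff₀ (by positivity)]; nlinarith

lemma swap_rect {f : ℝ → ℝ → ℝ} {a b c d : ℝ} (hab : a ≤ b) (hcd : c ≤ d)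
    (hf : ContinuousOn (Function.uncurry f) (Icc a b ×ˢ Icc c d)) :
    IntervalIntegrable (fun x => ∫ y in c..d, f x y) volume a b ∧
    IntervalIntegrable (fun y => ∫ x in a..b, f x y) volume c d ∧
    ∫ y in c..d, ∫ x in a..b, f x y = ∫ x in a..b, ∫ y in c..d, f x y := by
  have hi : Integrable (Function.uncurry f)
      ((volume.restrict (Ioc a b)).prod (volume.restrict (Ioc c d))) := by
    rw [Measure.prod_restrict]
    exact (hf.integrableOn_compact (isCompact_Icc.prod isCompact_Icc)).mono_set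
      (prod_mono Ioc_subset_Icc_self Ioc_subset_Icc_self)
  simp only [intervalIntegral.integral_of_le hab, intervalIntegral.integral_of_le hcd,
    intervalIntegrable_iff_integrableOn_Ioc_of_le hab,
    intervalIntegrable_iff_integrableOn_Ioc_of_le hcd]
  exact ⟨hi.integral_prod_left, hi.integral_prod_right, (integral_integral_swap hi).symm⟩

lemma JJ_eq {α : ℝ} (h0 : 0 < α) :
    JJ α = √Real.pi * Real.Gamma (α + 1) / Real.Gamma (α + 3 / 2) := by
  have hb := Complex.Gamma_mul_Gamma_eq_betaIntegral (s := ((α + 1 : ℝ) : ℂ))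
    (t := ((α + 1 : ℝ) : ℂ)) (by simp; linarith) (by simp; linarith)
  have e1 : Complex.betaIntegral ((α + 1 : ℝ) : ℂ) ((α + 1 : ℝ) : ℂ) =
      ((∫ u in (0 : ℝ)..1, u ^ α * (1 - u) ^ α : ℝ) : ℂ) := by
    unfold Complex.betaIntegral
    rw [← intervalIntegral.integral_ofReal]
    refine intervalIntegral.integral_congr fun u hu => ?_
    rw [uIcc_of_le zero_le_one] at hu
    rw [Complex.ofReal_mul, Complex.ofReal_cpow hu.1, Complex.ofReal_cpow (by linarith [hu.2])]
    push_cast; simp
  rw [e1, ← Complex.ofReal_add, Complex.Gamma_ofReal, Complex.Gamma_ofReal] at hb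
  have hb' : Real.Gamma (α + 1) * Real.Gamma (α + 1) =
      Real.Gamma (α + 1 + (α + 1)) * ∫ u in (0 : ℝ)..1, u ^ α * (1 - u) ^ α := by
    exact_mod_cast hb
  have e2 : JJ α = 2 * (4 ^ α * ∫ u in (0 : ℝ)..1, u ^ α * (1 - u) ^ α) := by
    have := intervalIntegral.integral_comp_mul_add (a := 0) (b := 1)
      (fun s : ℝ => (1 - s ^ 2) ^ α) (two_ne_zero) (-1)
    simp only [mul_zero, zero_add, mul_one, smul_eq_mul] at this
    rw [show (2 : ℝ) + -1 = 1 by norm_num] at this
    unfold JJ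
    have e3 : ∫ u in (0 : ℝ)..1, (1 - (2 * u + -1) ^ 2) ^ α =
        4 ^ α * ∫ u in (0 : ℝ)..1, u ^ α * (1 - u) ^ α := by
      rw [← intervalIntegral.integral_const_mul]
      refine intervalIntegral.integral_congr fun u hu => ?_
      rw [uIcc_of_le zero_le_one] at hu
      rw [show 1 - (2 * u + -1) ^ 2 = 4 * (u * (1 - u)) by ring,
        Real.mul_rpow (by norm_num) (mul_nonneg hu.1 (by linarith [hu.2])),
        Real.mul_rpow hu.1 (by linarith [hu.2])]
    rw [← e3, this]; ring
  have hd := Real.Gamma_mul_Gamma_add_half (α + 1)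
  have g1 := Real.Gamma_pos_of_pos (show 0 < α + 1 by linarith)
  have g2 := Real.Gamma_pos_of_pos (show 0 < α + 3 / 2 by linarith)
  have g3 := Real.Gamma_pos_of_pos (show 0 < 2 * (α + 1) by linarith)
  rw [show α + 1 + 1 / 2 = α + 3 / 2 by ring] at hd
  rw [show α + 1 + (α + 1) = 2 * (α + 1) by ring] at hb'
  have e4 : (2 : ℝ) ^ (1 - 2 * (α + 1)) * (2 * 4 ^ α) = 1 := by
    rw [show (4 : ℝ) = 2 ^ (2 : ℝ) by norm_num, ← Real.rpow_mul (by norm_num)]
    nth_rewrite 3 [← Real.rpow_one 2]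
    rw [← Real.rpow_add (by norm_num), ← Real.rpow_add (by norm_num)]
    ring_nf; simp
  rw [e2, eq_div_iff g2.ne']
  refine mul_left_cancel₀ g1.ne' ?_
  set b := ∫ u in (0 : ℝ)..1, u ^ α * (1 - u) ^ α
  calc Real.Gamma (α + 1) * (2 * (4 ^ α * b) * Real.Gamma (α + 3 / 2)) =
        (Real.Gamma (α + 1) * Real.Gamma (α + 3 / 2)) * (2 * 4 ^ α) * b := by ring
    _ = (2 ^ (1 - 2 * (α + 1)) * (2 * 4 ^ α)) * √Real.pi * (Real.Gamma (2 * (α + 1)) * b) := by
        rw [hd]; ring
    _ = _ := by rw [e4, ← hb']; ring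

end Vale.Agent.P371
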