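import Vale.Agent.P371.Trace
import Vale.Agent.P371.Scalar

/-! The matrix action inequality. -/

namespace Vale.Agent.P371

open Matrix Filter Topology MeasureTheory

variable {n : Type*} [Fintype n] [DecidableEq n]

def PS (M : Matrix n n ℝ) : Prop := ∀ v : n → ℝ, 0 ≤ v ⬝ᵥ M *ᵥ v

omit [DecidableEq n] in
lemma conj_apply (O N : Matrix n n ℝ) (i : n) :
    (Oᵀ * N * O) i i = (fun k => O k i) ⬝ᵥ N *ᵥ (fun k => O k i) := by
  simp only [Matrix.mul_apply, dotProduct, mulVec, transpose_apply, Finset.sum_mul, Finset.mul_sum]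
  rw [Finset.sum_comm]
  exact Finset.sum_congr rfl fun _ _ => Finset.sum_congr rfl fun _ _ => by ring

lemma Spec.eig {M O : Matrix n n ℝ} {d : n → ℝ} (h : Spec M O d) (i : n) :
    d i = (fun k => O k i) ⬝ᵥ M *ᵥ (fun k => O k i) := by
  rw [← conj_apply, h.conj, diagonal_apply_eq]

lemma Spec.nonneg {M O : Matrix n n ℝ} {d : n → ℝ} (h : Spec M O d) (hM : PS M) (i : n) :
    0 ≤ d i := h.eig i ▸ hM _

lemma Spec.pos {M N O : Matrix n n ℝ} {d η : n → ℝ} (h : Spec M O d) (hη : ∀ i, 0 < η i)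
    (hN : PS N) (e : M = diagonal η + N) (i : n) : 0 < d i := by
  rw [h.eig i, e, add_mulVec, dotProduct_add]
  refine add_pos_of_pos_of_nonneg ?_ (hN _)
  simp only [dotProduct, mulVec_diagonal]
  obtain ⟨k, hk⟩ : ∃ k, O k i ≠ 0 := by
    by_contra hc
    push Not at hc
    have := col_sq h.oo i
    simp [hc] at this
  refine Finset.sum_pos' (fun k _ => ?_) ⟨k, Finset.mem_univ _, ?_⟩
  · nlinarith [hη k, sq_nonneg (O k i)]
  · nlinarith [hη k, sq_pos_of_ne_zero hk]

lemma Spec.mul {M M' O : Matrix n n ℝ} {d d' : n → ℝ} (h : Spec M O d) (h' : Spec M' O d') :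
    Spec (M * M') O (fun i => d i * d' i) := by
  refine ⟨h.oo, ?_⟩
  rw [h'.eq, ← Matrix.mul_assoc, ← Matrix.mul_assoc, h.mul_O, Matrix.mul_assoc O,
    diagonal_mul_diagonal]

lemma Spec.add_smul {M O : Matrix n n ℝ} {d : n → ℝ} (h : Spec M O d) (t : ℝ) :
    Spec (M + t • 1) O (fun i => d i + t) := by
  refine ⟨h.oo, ?_⟩
  rw [← diagonal_add, Matrix.mul_add, Matrix.add_mul, ← h.eq, ← smul_one_eq_diagonal,
    Matrix.mul_smul, Matrix.mul_one, Matrix.smul_mul, h.oo']

lemma Spec.log_mul {A O : Matrix n n ℝ} {a : n → ℝ} (h : Spec A O a) :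
    P371.fc Real.log A * A = P371.fc xl A ∧ A * P371.fc Real.log A = P371.fc xl A := by
  constructor
  · rw [((h.fc Real.log).mul h).eq, (h.fc xl).eq]; simp only [xl, mul_comm]
  · rw [(h.mul (h.fc Real.log)).eq, (h.fc xl).eq]; simp only [xl]

lemma spec_diagonal (d : n → ℝ) : Spec (diagonal d) 1 d := ⟨by simp, by simp⟩

lemma half_deriv {A M : ℝ → Matrix n n ℝ} {O : Matrix n n ℝ} {a p : n → ℝ} {t : ℝ}
    (h0 : Spec (A t) O a) (ha : ∀ i, 0 < a i) (hp : ∀ i, 0 < p i)
    (hA : ∀ i j, HasDerivAt (fun y => A y i j) (diagonal p i j) t)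
    (hM : ∀ i j, HasDerivAt (fun y => M y i j) (diagonal p i j) t)
    (hs' : ∀ y, (A y)ᵀ = A y) (e : M t = diagonal (fun i => (p i)⁻¹) - A t) :
    ∃ D, HasDerivAt (fun y => trace (fc xl (A y) * M y)) D t ∧
      D ≤ trace (fc Real.log (A t)) + Fintype.card n - trace (A t * diagonal p) := by
  refine ⟨_, trace_fc_mul_hasDerivAt h0 hA hM (Eventually.of_forall hs') continuous_xl
    fun k => (xl_deriv (ha k)).differentiableAt, ?_⟩
  have hf := fiedler h0.oo hp ha
  rw [e, Matrix.mul_sub, Matrix.sub_mul, h0.conj, (h0.fc _).trace_mul, (h0.fc _).trace,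
    h0.trace_mul]
  simp only [Matrix.sub_apply, sub_mul, mul_sub, Finset.sum_sub_distrib]
  have e2 : ∀ l, ∑ k, dslope xl (a l) (a k) * (diagonal a l k * (Oᵀ * diagonal p * O) k l) =
      xl (a l) * (Oᵀ * diagonal p * O) l l + a l * (Oᵀ * diagonal p * O) l l := by
    intro l
    rw [Finset.sum_eq_single l]
    · rw [dslope_same, (xl_deriv (ha l)).deriv, diagonal_apply_eq, xl]; ring
    · intro k _ hk; simp [diagonal_apply_ne _ (Ne.symm hk)]
    · simp
  simp only [e2, Finset.sum_add_distrib] at hf ⊢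
  simp only [Finset.sum_const, Finset.card_univ, nsmul_eq_mul, mul_one] at hf
  linarith

noncomputable def lam (κ : n → ℝ) (t : ℝ) : Matrix n n ℝ := diagonal fun i => √(κ i ^ 2 + t)

noncomputable def ta (κ : n → ℝ) (S : Matrix n n ℝ) : ℝ := trace (diagonal κ * diagonal κ - S * S)

noncomputable def GG (κ : n → ℝ) (S : Matrix n n ℝ) (t : ℝ) : Matrix n n ℝ :=
  fc Real.log (lam κ t + S) + fc Real.log (lam κ t - S) - Real.log t • 1

noncomputable def Phi (κ : n → ℝ) (S : Matrix n n ℝ) (t : ℝ) : ℝ :=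
  trace (fc xl (lam κ t + S)) - trace (fc xl (lam κ t - S)) - (Real.log t + 2) * trace S

noncomputable def psi (κ : n → ℝ) (S : Matrix n n ℝ) (t : ℝ) : ℝ :=
  trace (fc xl (lam κ t + S) * (lam κ t - S)) + trace (fc xl (lam κ t - S) * (lam κ t + S)) -
    Real.log t * (ta κ S + Fintype.card n * t) - ta κ S

noncomputable def EE (q : ℝ) (κ : n → ℝ) (S : Matrix n n ℝ) (t : ℝ) : ℝ :=
  psi κ S t + q * (t * trace (GG κ S t) - ta κ S)

noncomputable def HH (Y : Matrix n n ℝ) (t : ℝ) : ℝ :=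
  trace (fc xl (Y + t • 1)) - Real.log t * trace (Y + t • 1) - trace Y

structure Reg (κ : n → ℝ) (S : Matrix n n ℝ) : Prop where
  pos : ∀ i, 0 < κ i
  sym : Sᵀ = S
  psP : PS (diagonal κ + S)
  psM : PS (diagonal κ - S)

lemma lam_sym (κ : n → ℝ) {S : Matrix n n ℝ} (h : Sᵀ = S) (t : ℝ) :
    (lam κ t + S)ᵀ = lam κ t + S ∧ (lam κ t - S)ᵀ = lam κ t - S := by
  simp [lam, transpose_add, transpose_sub, h]

lemma Reg.posP {κ : n → ℝ} {S : Matrix n n ℝ} (h : Reg κ S) {t : ℝ} (ht : 0 < t)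
    {O : Matrix n n ℝ} {a : n → ℝ} (hs' : Spec (lam κ t + S) O a) (i : n) : 0 < a i := by
  refine hs'.pos (η := fun i => √(κ i ^ 2 + t) - κ i)
    (fun i => sub_pos.mpr (lt_sqrt_add (h.pos i).le ht)) h.psP ?_ i
  rw [← diagonal_sub, lam]; abel

lemma Reg.posM {κ : n → ℝ} {S : Matrix n n ℝ} (h : Reg κ S) {t : ℝ} (ht : 0 < t)
    {O : Matrix n n ℝ} {a : n → ℝ} (hs' : Spec (lam κ t - S) O a) (i : n) : 0 < a i := by
  refine hs'.pos (η := fun i => √(κ i ^ 2 + t) - κ i)
    (fun i => sub_pos.mpr (lt_sqrt_add (h.pos i).le ht)) h.psM ?_ i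
  rw [← diagonal_sub, lam]; abel

lemma lam_sq (κ : n → ℝ) {t : ℝ} (ht : 0 ≤ t) :
    lam κ t * lam κ t = diagonal κ * diagonal κ + t • 1 := by
  rw [lam, diagonal_mul_diagonal, diagonal_mul_diagonal, smul_one_eq_diagonal, diagonal_add]
  congr 1; funext i
  rw [Real.mul_self_sqrt (by positivity)]; ring

lemma jordan (κ : n → ℝ) (S : Matrix n n ℝ) {t : ℝ} (ht : 0 ≤ t) :
    (lam κ t + S) * (lam κ t - S) + (lam κ t - S) * (lam κ t + S) =
      (diagonal κ * diagonal κ - S * S + t • 1) + (diagonal κ * diagonal κ - S * S + t • 1) := by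
  have : (lam κ t + S) * (lam κ t - S) + (lam κ t - S) * (lam κ t + S) =
      (lam κ t * lam κ t - S * S) + (lam κ t * lam κ t - S * S) := by noncomm_ring
  rw [this, lam_sq κ ht]; abel

lemma trace_AB (κ : n → ℝ) (S : Matrix n n ℝ) {t : ℝ} (ht : 0 ≤ t) :
    trace ((lam κ t + S) * (lam κ t - S)) = ta κ S + Fintype.card n * t := by
  have := congrArg trace (jordan κ S ht)
  rw [trace_add, trace_mul_comm (lam κ t - S), trace_add, trace_add, trace_smul, trace_one,
    smul_eq_mul] at this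
  unfold ta; linarith

lemma psi_eq {κ : n → ℝ} {S : Matrix n n ℝ} (h : Sᵀ = S) {t : ℝ} (ht : 0 ≤ t) :
    trace (GG κ S t * (diagonal κ * diagonal κ - S * S)) + t * trace (GG κ S t) =
      psi κ S t + ta κ S := by
  obtain ⟨OA, a, hA⟩ := exists_spec (lam_sym κ h t).1
  obtain ⟨OB, b, hB⟩ := exists_spec (lam_sym κ h t).2
  have e := congrArg (fun X => trace (GG κ S t * X)) (jordan κ S ht)
  have e1 := trace_AB κ S ht
  unfold psi
  set A := lam κ t + S
  set B := lam κ t - S
  have e2 : trace (GG κ S t * (A * B + B * A)) = 2 * (trace (fc xl A * B) + trace (fc xl B * A)) -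
      2 * (Real.log t * trace (A * B)) := by
    have t1 : trace (fc Real.log A * (A * B)) = trace (fc xl A * B) := by
      rw [← Matrix.mul_assoc, hA.log_mul.1]
    have t2 : trace (fc Real.log A * (B * A)) = trace (fc xl A * B) := by
      rw [← Matrix.mul_assoc, trace_mul_comm, ← Matrix.mul_assoc, hA.log_mul.2]
    have t3 : trace (fc Real.log B * (B * A)) = trace (fc xl B * A) := by
      rw [← Matrix.mul_assoc, hB.log_mul.1]
    have t4 : trace (fc Real.log B * (A * B)) = trace (fc xl B * A) := by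
      rw [← Matrix.mul_assoc, trace_mul_comm, ← Matrix.mul_assoc, hB.log_mul.2]
    have t5 := trace_mul_comm B A
    change trace ((fc Real.log A + fc Real.log B - Real.log t • 1) * _) = _
    simp only [Matrix.mul_add, Matrix.add_mul, Matrix.sub_mul, Matrix.smul_mul, Matrix.one_mul,
      trace_add, trace_sub, trace_smul, smul_eq_mul, t1, t2, t3, t4, t5]
    ring
  simp only [e2] at e
  simp only [Matrix.mul_add, trace_add, Matrix.mul_smul, Matrix.mul_one, trace_smul,
    smul_eq_mul] at e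
  rw [← e1]; linarith

lemma Phi_deriv {κ : n → ℝ} {S : ℝ → Matrix n n ℝ} {S' : Matrix n n ℝ} {x t : ℝ}
    (h : Reg κ (S x)) (ht : 0 < t) (hs' : ∀ y, (S y)ᵀ = S y)
    (hd : ∀ i j, HasDerivAt (fun y => S y i j) (S' i j) x) :
    HasDerivAt (fun y => Phi κ (S y) t) (trace (GG κ (S x) t * S')) x := by
  obtain ⟨OA, a, hA⟩ := exists_spec (lam_sym κ h.sym t).1
  obtain ⟨OB, b, hB⟩ := exists_spec (lam_sym κ h.sym t).2
  have h1 := trace_fc_hasDerivAt (A := fun y => lam κ t + S y) (A' := S') hA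
    (fun i j => (hd i j).const_add _) (Eventually.of_forall fun y => (lam_sym κ (hs' y) t).1)
    (g := fun x => Real.log x + 1) continuous_xl fun k => xl_deriv (h.posP ht hA k)
  have h2 := trace_fc_hasDerivAt (A := fun y => lam κ t - S y) (A' := -S') hB
    (fun i j => (hd i j).const_sub _) (Eventually.of_forall fun y => (lam_sym κ (hs' y) t).2)
    (g := fun x => Real.log x + 1) continuous_xl fun k => xl_deriv (h.posM ht hB k)
  have h3 : HasDerivAt (fun y => trace (S y)) (trace S') x :=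
    HasDerivAt.fun_sum fun i _ => hd i i
  refine ((h1.fun_sub h2).fun_sub (h3.const_mul (Real.log t + 2))).congr_deriv ?_
  rw [(hA.fc _).eq, (hB.fc _).eq, ← ((hA.fc Real.log).add_smul 1).eq,
    ← ((hB.fc Real.log).add_smul 1).eq, GG]
  simp only [Matrix.add_mul, Matrix.sub_mul, Matrix.smul_mul, Matrix.one_mul, Matrix.mul_neg,
    trace_add, trace_sub, trace_smul, trace_neg, smul_eq_mul]
  ring

lemma step_x {κ : n → ℝ} {S Y : Matrix n n ℝ} {t q : ℝ} (h : Reg κ S) (ht : 0 < t) (hq : 0 ≤ q)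
    (hY : Yᵀ = Y) (hY' : PS Y) :
    -trace (GG κ S t * (diagonal κ * diagonal κ - S * S - (1 + q) • Y)) ≤
      (1 + q) * HH Y t - EE q κ S t := by
  obtain ⟨OA, a, hA⟩ := exists_spec (lam_sym κ h.sym t).1
  obtain ⟨OB, b, hB⟩ := exists_spec (lam_sym κ h.sym t).2
  obtain ⟨OY, y, hy⟩ := exists_spec hY
  have hz := hy.add_smul t
  have g := gg hA hB hz (h.posP ht hA) (h.posM ht hB)
    fun i => add_pos_of_nonneg_of_pos (hy.nonneg hY' i) ht
  rw [← (hz.fc xl).trace, ← hz.trace, trace_AB κ S ht.le] at g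
  have e := psi_eq (κ := κ) h.sym ht.le
  have e1 : trace (GG κ S t * Y) + t * trace (GG κ S t) =
      trace ((Y + t • 1) * fc Real.log (lam κ t + S)) +
      trace ((Y + t • 1) * fc Real.log (lam κ t - S)) - Real.log t * trace (Y + t • 1) := by
    rw [trace_mul_comm (GG κ S t), GG]
    simp only [Matrix.add_mul, Matrix.mul_add, Matrix.mul_sub, Matrix.smul_mul, Matrix.one_mul,
      Matrix.mul_smul, Matrix.mul_one, trace_add, trace_sub, trace_smul, smul_eq_mul]
    ring
  have e2 : trace (Y + t • (1 : Matrix n n ℝ)) = trace Y + Fintype.card n * t := by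
    rw [trace_add, trace_smul, trace_one, smul_eq_mul, mul_comm]
  have g2 : trace (GG κ S t * Y) + t * trace (GG κ S t) ≤ HH Y t + ta κ S := by
    unfold HH; linarith
  rw [Matrix.mul_sub, Matrix.mul_smul, trace_sub, trace_smul, smul_eq_mul]
  unfold EE
  nlinarith

lemma psi_deriv {κ : n → ℝ} {S : Matrix n n ℝ} {t : ℝ} (h : Reg κ S) (ht : 0 < t) :
    ∃ D, HasDerivAt (psi κ S) D t ∧ t * D ≤ t * trace (GG κ S t) - ta κ S := by
  obtain ⟨OA, a, hA⟩ := exists_spec (lam_sym κ h.sym t).1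
  obtain ⟨OB, b, hB⟩ := exists_spec (lam_sym κ h.sym t).2
  set p : n → ℝ := fun i => 1 / (2 * √(κ i ^ 2 + t)) with hp
  have hl : ∀ i, 0 < √(κ i ^ 2 + t) := fun i => Real.sqrt_pos.mpr (by positivity)
  have hp0 : ∀ i, 0 < p i := fun i => by have := hl i; positivity
  have hL : ∀ i j, HasDerivAt (fun y => lam κ y i j) (diagonal p i j) t := by
    intro i j
    by_cases hij : i = j
    · subst hij
      simp only [lam, diagonal_apply_eq]
      exact ((hasDerivAt_id t).const_add (κ i ^ 2)).sqrt (by positivity)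
    · simp only [lam, diagonal_apply_ne _ hij]; exact hasDerivAt_const _ _
  have hinv : diagonal (fun i => (p i)⁻¹) = lam κ t + lam κ t := by
    rw [lam, diagonal_add]; congr 1; funext i; simp only [hp]; rw [one_div, inv_inv]; ring
  obtain ⟨D1, d1, b1⟩ := half_deriv (A := fun y => lam κ y + S) (M := fun y => lam κ y - S) hA
    (h.posP ht hA) hp0 (fun i j => (hL i j).add_const _) (fun i j => (hL i j).sub_const _)
    (fun y => (lam_sym κ h.sym y).1) (by rw [hinv]; abel)
  obtain ⟨D2, d2, b2⟩ := half_deriv (A := fun y => lam κ y - S) (M := fun y => lam κ y + S) hB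
    (h.posM ht hB) hp0 (fun i j => (hL i j).sub_const _) (fun i j => (hL i j).add_const _)
    (fun y => (lam_sym κ h.sym y).2) (by rw [hinv]; abel)
  have d3 := (Real.hasDerivAt_log ht.ne').fun_mul
    (((hasDerivAt_id t).const_mul (Fintype.card n : ℝ)).const_add (ta κ S))
  refine ⟨_, ((d1.fun_add d2).fun_sub d3).sub_const (ta κ S), ?_⟩
  have e : trace ((lam κ t + S) * diagonal p) + trace ((lam κ t - S) * diagonal p) =
      Fintype.card n := by
    rw [← trace_add, ← Matrix.add_mul, show lam κ t + S + (lam κ t - S) = lam κ t + lam κ t by abel,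
      ← hinv, diagonal_mul_diagonal, trace_diagonal]
    simp [(hp0 _).ne']
  have e2 : trace (GG κ S t) = trace (fc Real.log (lam κ t + S)) +
      trace (fc Real.log (lam κ t - S)) - Real.log t * Fintype.card n := by
    rw [GG, trace_sub, trace_add, trace_smul, trace_one, smul_eq_mul]
  have e3 : t * (t⁻¹ * (ta κ S + Fintype.card n * t)) = ta κ S + Fintype.card n * t := by
    field_simp
  have b3 := mul_le_mul_of_nonneg_left (add_le_add b1 b2) ht.le
  simp only [id, mul_one] at *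
  rw [e2]
  have e4 : t * trace ((lam κ t + S) * diagonal p) + t * trace ((lam κ t - S) * diagonal p) =
    t * Fintype.card n := by rw [← mul_add, e]
  nlinarith

lemma psi_sum {κ : n → ℝ} {S OA OB : Matrix n n ℝ} {a b : n → ℝ} {t : ℝ} (ht : 0 < t)
    (hA : Spec (lam κ t + S) OA a) (hB : Spec (lam κ t - S) OB b) (ha : ∀ i, 0 < a i)
    (hb : ∀ i, 0 < b i) : psi κ S t = ∑ i, ∑ j,
      (a i * b j * Real.log (a i * b j / t) - a i * b j + t) * (OAᵀ * OB) i j ^ 2 := by
  have e1 := trace_AB κ S ht.le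
  have e2 : ta κ S = trace ((lam κ t + S) * (lam κ t - S)) - Fintype.card n * t := by linarith
  have e3 : (Fintype.card n : ℝ) * t = ∑ i, ∑ j, t * (OAᵀ * OB) i j ^ 2 := by
    simp only [← Finset.mul_sum, row_sq (orth_two hA.oo hB.oo)]
    simp [mul_comm]
  unfold psi
  rw [← e1, e2, trace_mul_comm (fc xl (lam κ t - S)), (hA.fc xl).trace_two hB,
    hA.trace_two (hB.fc xl), hA.trace_two hB, e3]
  simp only [Finset.mul_sum, ← Finset.sum_add_distrib, ← Finset.sum_sub_distrib]
  refine Finset.sum_congr rfl fun i _ => Finset.sum_congr rfl fun j _ => ?_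
  rw [Real.log_div (mul_pos (ha i) (hb j)).ne' ht.ne', Real.log_mul (ha i).ne' (hb j).ne', xl, xl]
  ring

lemma psi_nonneg {κ : n → ℝ} {S : Matrix n n ℝ} {t : ℝ} (h : Reg κ S) (ht : 0 < t) :
    0 ≤ psi κ S t := by
  obtain ⟨OA, a, hA⟩ := exists_spec (lam_sym κ h.sym t).1
  obtain ⟨OB, b, hB⟩ := exists_spec (lam_sym κ h.sym t).2
  rw [psi_sum ht hA hB (h.posP ht hA) (h.posM ht hB)]
  refine Finset.sum_nonneg fun i _ => Finset.sum_nonneg fun j _ => mul_nonneg ?_ (sq_nonneg _)
  have hm := mul_pos (h.posP ht hA i) (h.posM ht hB j)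
  set m := a i * b j
  have := Real.one_sub_inv_le_log_of_pos (div_pos hm ht)
  have h2 := mul_le_mul_of_nonneg_left this hm.le
  have : m * (1 - (m / t)⁻¹) = m - t := by field_simp
  linarith

noncomputable def M0 (κ : n → ℝ) : ℝ := (2 * ∑ i, √(κ i ^ 2 + 1)) ^ 2

lemma psi_le {κ : n → ℝ} {S : Matrix n n ℝ} {t s : ℝ} (h : Reg κ S) (ht : 0 < t) (ht1 : t ≤ 1)
    (hs' : 0 < s) : psi κ S t ≤ Fintype.card n * (M0 κ * ((M0 κ / t) ^ s / s) + t) := by
  obtain ⟨OA, a, hA⟩ := exists_spec (lam_sym κ h.sym t).1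
  obtain ⟨OB, b, hB⟩ := exists_spec (lam_sym κ h.sym t).2
  have ha := h.posP ht hA
  have hb := h.posM ht hB
  rw [psi_sum ht hA hB ha hb]
  have e : ∑ i, a i + ∑ i, b i ≤ 2 * ∑ i, √(κ i ^ 2 + 1) := by
    rw [← hA.trace, ← hB.trace, ← trace_add,
      show lam κ t + S + (lam κ t - S) = lam κ t + lam κ t by abel, trace_add, lam, trace_diagonal,
      ← two_mul]
    gcongr
  have sa : 0 ≤ ∑ i, a i := Finset.sum_nonneg fun i _ => (ha i).le
  have sb : 0 ≤ ∑ i, b i := Finset.sum_nonneg fun i _ => (hb i).le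
  have hm : ∀ i j, a i * b j ≤ M0 κ := by
    intro i j
    have e1 := Finset.single_le_sum (fun i _ => (ha i).le) (Finset.mem_univ i)
    have e2 := Finset.single_le_sum (fun i _ => (hb i).le) (Finset.mem_univ j)
    unfold M0; rw [sq]
    exact mul_le_mul (by linarith) (by linarith) (hb j).le (by linarith)
  calc _ ≤ ∑ i, ∑ j, (M0 κ * ((M0 κ / t) ^ s / s) + t) * (OAᵀ * OB) i j ^ 2 := by
        refine Finset.sum_le_sum fun i _ => Finset.sum_le_sum fun j _ =>
          mul_le_mul_of_nonneg_right ?_ (sq_nonneg _)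
        have hm0 := mul_pos (ha i) (hb j)
        have h1 := Real.log_le_rpow_div (div_pos hm0 ht).le hs'
        have h2 : (a i * b j / t) ^ s / s ≤ (M0 κ / t) ^ s / s := by
          have := hm i j
          gcongr
        have h3 : 0 ≤ (M0 κ / t) ^ s / s := by
          have := hm0.le.trans (hm i j)
          positivity
        have h4 := mul_le_mul_of_nonneg_left (h1.trans h2) hm0.le
        have h5 := mul_le_mul_of_nonneg_right (hm i j) h3
        linarith
    _ = _ := by
        simp only [← Finset.mul_sum, row_sq (orth_two hA.oo hB.oo)]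
        simp [mul_comm]

lemma Phi_ends (κ : n → ℝ) (t : ℝ) :
    Phi κ (diagonal κ) t - Phi κ (-diagonal κ) t = ∑ i, phi (κ i) t := by
  unfold Phi
  rw [sub_neg_eq_add, ← sub_eq_add_neg, lam, diagonal_add, diagonal_sub,
    ((spec_diagonal _).fc xl).trace, ((spec_diagonal _).fc xl).trace, trace_neg, trace_diagonal]
  simp only [phi, xl, mul_sub, Finset.sum_sub_distrib, ← Finset.mul_sum]
  ring

end Vale.Agent.P371
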