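import Vale.Agent.P371.Action

/-! The matrix action inequality, integrated. -/

namespace Vale.Agent.P371

open Matrix Filter Topology MeasureTheory Set

variable {n : Type*} [Fintype n] [DecidableEq n]

structure Ric (κ : n → ℝ) (q x0 x1 : ℝ) (S S' Y : ℝ → Matrix n n ℝ) : Prop where
  symS : ∀ x, (S x)ᵀ = S x
  symY : ∀ x, (Y x)ᵀ = Y x
  contY : Continuous Y
  contS' : Continuous S'
  der : ∀ x i j, HasDerivAt (fun y => S y i j) (S' x i j) x
  ode : ∀ x ∈ Icc x0 x1, S' x = diagonal κ * diagonal κ - S x * S x - (1 + q) • Y x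
  psY : ∀ x, PS (Y x)
  reg : ∀ x ∈ Icc x0 x1, Reg κ (S x)
  init : S x0 = diagonal κ
  fin : S x1 = -diagonal κ

omit [Fintype n] in
lemma continuous_lam (κ : n → ℝ) : Continuous (lam κ) := by
  unfold lam; fun_prop

section cont
variable {X : Type*} [TopologicalSpace X] {S : X → Matrix n n ℝ} {τ : X → ℝ} {κ : n → ℝ}

lemma GG_contAt (hS : Continuous S) (hτ : Continuous τ) (hs' : ∀ x, (S x)ᵀ = S x) {x : X}
    (h : Reg κ (S x)) (ht : 0 < τ x) : ContinuousAt (fun y => GG κ (S y) (τ y)) x := by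
  obtain ⟨OA, a, hA⟩ := exists_spec (lam_sym κ h.sym (τ x)).1
  obtain ⟨OB, b, hB⟩ := exists_spec (lam_sym κ h.sym (τ x)).2
  have hl : Continuous fun y => lam κ (τ y) := (continuous_lam κ).comp hτ
  have h1 : ContinuousAt (fun y => fc Real.log (lam κ (τ y) + S y)) x :=
    fc_tendsto hA (hl.add hS).continuousAt
      (Eventually.of_forall fun y => (lam_sym κ (hs' y) _).1)
      fun k => Real.continuousAt_log (h.posP ht hA k).ne'
  have h2 : ContinuousAt (fun y => fc Real.log (lam κ (τ y) - S y)) x :=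
    fc_tendsto hB (hl.sub hS).continuousAt
      (Eventually.of_forall fun y => (lam_sym κ (hs' y) _).2)
      fun k => Real.continuousAt_log (h.posM ht hB k).ne'
  exact (h1.add h2).sub ((hτ.continuousAt.log ht.ne').smul continuousAt_const)

lemma ta_cont (hS : Continuous S) : Continuous fun y => ta κ (S y) := by
  unfold ta; fun_prop

lemma psi_contAt (hS : Continuous S) (hτ : Continuous τ) (hs' : ∀ x, (S x)ᵀ = S x) {x : X}
    (ht : 0 < τ x) : ContinuousAt (fun y => psi κ (S y) (τ y)) x := by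
  have hl : Continuous fun y => lam κ (τ y) := (continuous_lam κ).comp hτ
  have h1 := fc_continuous (hl.add hS) (fun y => (lam_sym κ (hs' y) _).1) continuous_xl
  have h2 := fc_continuous (hl.sub hS) (fun y => (lam_sym κ (hs' y) _).2) continuous_xl
  have h3 := ta_cont (κ := κ) hS
  exact ((((h1.matrix_mul (hl.sub hS)).matrix_trace).add
    ((h2.matrix_mul (hl.add hS)).matrix_trace)).continuousAt.sub
    ((hτ.continuousAt.log ht.ne').mul (h3.add (continuous_const.mul hτ)).continuousAt)).sub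
    h3.continuousAt

lemma EE_contAt (q : ℝ) (hS : Continuous S) (hτ : Continuous τ) (hs' : ∀ x, (S x)ᵀ = S x) {x : X}
    (h : Reg κ (S x)) (ht : 0 < τ x) : ContinuousAt (fun y => EE q κ (S y) (τ y)) x := by
  have h1 : ContinuousAt (fun y => trace (GG κ (S y) (τ y))) x :=
    (continuous_id.matrix_trace.continuousAt).comp (GG_contAt hS hτ hs' h ht)
  exact (psi_contAt hS hτ hs' ht).add (continuousAt_const.mul
    ((hτ.continuousAt.mul h1).sub (ta_cont hS).continuousAt))

lemma HH_contAt (hS : Continuous S) (hτ : Continuous τ) (hs' : ∀ x, (S x)ᵀ = S x) {x : X}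
    (ht : 0 < τ x) : ContinuousAt (fun y => HH (S y) (τ y)) x := by
  have hl : Continuous fun y => S y + τ y • (1 : Matrix n n ℝ) := by fun_prop
  have h1 := fc_continuous hl (fun y => by simp [transpose_add, hs' y]) continuous_xl
  exact (h1.matrix_trace.continuousAt.sub ((hτ.continuousAt.log ht.ne').mul
    hl.matrix_trace.continuousAt)).sub hS.matrix_trace.continuousAt

end cont

lemma rpow_contOn (r : ℝ) {δ T : ℝ} (hδ : 0 < δ) :
    ContinuousOn (fun t : ℝ => t ^ r) (Icc δ T) := fun t ht =>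
  (Real.continuousAt_rpow_const t r (Or.inl (lt_of_lt_of_le hδ ht.1).ne')).continuousWithinAt

lemma step_t {κ : n → ℝ} {S : Matrix n n ℝ} (h : Reg κ S) {α δ T : ℝ} (h0 : 0 < α) (hδ : 0 < δ)
    (hT : δ ≤ T) : -(α⁻¹ * (δ ^ α * psi κ S δ)) ≤ ∫ t in δ..T, t ^ (α - 1) * EE α⁻¹ κ S t := by
  have hpos : ∀ t ∈ Icc δ T, 0 < t := fun t ht => lt_of_lt_of_le hδ ht.1
  choose! D hD using fun t (ht : 0 < t) => psi_deriv h ht
  have hc : ContinuousOn (fun t => α * (t ^ (α - 1) * EE α⁻¹ κ S t)) (Icc δ T) :=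
    continuousOn_const.mul ((rpow_contOn _ hδ).mul fun t ht =>
      (EE_contAt (S := fun _ => S) (τ := id) _ continuous_const continuous_id (fun _ => h.sym) h
        (hpos t ht)).continuousWithinAt)
  have key := intervalIntegral.sub_le_integral_of_hasDeriv_right_of_le
    (g := fun t => t ^ α * psi κ S t) (g' := fun t => α * t ^ (α - 1) * psi κ S t + t ^ α * D t)
    (φ := fun t => α * (t ^ (α - 1) * EE α⁻¹ κ S t)) hT
    ((rpow_contOn _ hδ).mul fun t ht => (hD t (hpos t ht)).1.continuousAt.continuousWithinAt)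
    (fun t ht => ((Real.hasDerivAt_rpow_const (Or.inl (hδ.trans ht.1).ne')).fun_mul
      (hD t (hδ.trans ht.1)).1).hasDerivWithinAt)
    hc.integrableOn_Icc
    (fun t ht => by
      have ht0 := hδ.trans ht.1
      have h1 := mul_le_mul_of_nonneg_left (hD t ht0).2 (Real.rpow_nonneg ht0.le (α - 1))
      have h2 : t ^ α = t ^ (α - 1) * t := by
        rw [Real.rpow_sub ht0, Real.rpow_one]; field_simp
      have h3 : α * (t ^ (α - 1) * EE α⁻¹ κ S t) = α * t ^ (α - 1) * psi κ S t +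
          t ^ (α - 1) * (t * trace (GG κ S t) - ta κ S) := by
        unfold EE; field_simp
      rw [h3, h2]; linarith)
  rw [intervalIntegral.integral_const_mul] at key
  have h1 : 0 ≤ T ^ α * psi κ S T :=
    mul_nonneg (Real.rpow_nonneg (hδ.le.trans hT) _) (psi_nonneg h (lt_of_lt_of_le hδ hT))
  have h2 := mul_le_mul_of_nonneg_left (show -(δ ^ α * psi κ S δ) ≤ α *
    ∫ t in δ..T, t ^ (α - 1) * EE α⁻¹ κ S t by linarith) (inv_pos.mpr h0).le
  rw [← mul_assoc, inv_mul_cancel₀ h0.ne', one_mul] at h2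
  linarith

lemma HH_le {Y : Matrix n n ℝ} (hY : Yᵀ = Y) (hY' : PS Y) {α δ T : ℝ} (h0 : 0 < α) (h1 : α < 1)
    (hδ : 0 < δ) (hT : δ ≤ T) : ∫ t in δ..T, t ^ (α - 1) * HH Y t ≤
      II α * (trace (fc (fun y => y ^ (α + 1)) Y) / (α + 1)) := by
  obtain ⟨O, y, hy⟩ := exists_spec hY
  have e : ∀ t, t ^ (α - 1) * HH Y t = ∑ i, t ^ (α - 1) *
      ((y i + t) * Real.log (y i + t) - Real.log t * (y i + t) - y i) := by
    intro t
    rw [HH, ((hy.add_smul t).fc xl).trace, (hy.add_smul t).trace, hy.trace, ← Finset.mul_sum]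
    simp only [xl, Finset.sum_sub_distrib, Finset.mul_sum]
  simp only [e]
  rw [intervalIntegral.integral_finset_sum, (hy.fc _).trace, Finset.sum_div, Finset.mul_sum]
  · exact Finset.sum_le_sum fun i _ => eta_le h0 h1 (hy.nonneg hY' i) hδ hT
  · intro i _
    refine ContinuousOn.intervalIntegrable_of_Icc hT ((rpow_contOn _ hδ).mul fun t ht => ?_)
    have ht0 := lt_of_lt_of_le hδ ht.1
    have h2 : 0 < y i + t := add_pos_of_nonneg_of_pos (hy.nonneg hY' i) ht0
    refine ContinuousAt.continuousWithinAt ?_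
    have c1 : ContinuousAt (fun t => Real.log (y i + t)) t :=
      ContinuousAt.log (f := fun t => y i + t) (by fun_prop) h2.ne'
    have c2 := Real.continuousAt_log ht0.ne'
    fun_prop

lemma Ric.contS {κ : n → ℝ} {q x0 x1 : ℝ} {S S' Y : ℝ → Matrix n n ℝ} (h : Ric κ q x0 x1 S S' Y) :
    Continuous S := continuous_pi fun i => continuous_pi fun j =>
  continuous_iff_continuousAt.mpr fun x => (h.der x i j).continuousAt

lemma action_trunc {κ : n → ℝ} {α x0 x1 : ℝ} {S S' Y : ℝ → Matrix n n ℝ} (h0 : 0 < α) (h1 : α < 1)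
    (hx : x0 ≤ x1) (h : Ric κ α⁻¹ x0 x1 S S' Y) {δ T : ℝ} (hδ : 0 < δ) (hδ1 : δ ≤ 1) (hT : δ ≤ T) :
    ∑ i, ∫ t in δ..T, t ^ (α - 1) * phi (κ i) t ≤
      II α * (α⁻¹ * ∫ x in x0..x1, trace (fc (fun y => y ^ (α + 1)) (Y x))) + (x1 - x0) *
        (α⁻¹ * (δ ^ α * (Fintype.card n * (M0 κ * ((M0 κ / δ) ^ (α / 2) / (α / 2)) + δ)))) := by
  have hpos : ∀ t ∈ Icc δ T, 0 < t := fun t ht => lt_of_lt_of_le hδ ht.1
  have hκ := (h.reg x0 ⟨le_rfl, hx⟩).pos
  have cE : ∀ x ∈ Icc x0 x1, ∀ t ∈ Icc δ T, ContinuousAt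
      (fun p : ℝ × ℝ => EE α⁻¹ κ (S p.1) p.2) (x, t) := fun x hx' t ht =>
    EE_contAt _ (h.contS.comp continuous_fst) continuous_snd (fun _ => h.symS _) (h.reg x hx')
      (hpos t ht)
  have cH : ∀ x, ∀ t ∈ Icc δ T, ContinuousAt (fun p : ℝ × ℝ => HH (Y p.1) p.2) (x, t) :=
    fun x t ht => HH_contAt (h.contY.comp continuous_fst) continuous_snd (fun _ => h.symY _)
      (hpos t ht)
  obtain ⟨i1, i2, sw⟩ := swap_rect
    (f := fun x t => t ^ (α - 1) * ((1 + α⁻¹) * HH (Y x) t - EE α⁻¹ κ (S x) t)) hx hT (by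
      rintro ⟨x, t⟩ ⟨hx', ht⟩
      refine ContinuousAt.continuousWithinAt ?_
      have c0 : ContinuousAt (fun p : ℝ × ℝ => p.2 ^ (α - 1)) (x, t) :=
        continuousAt_snd.rpow_const (Or.inl (hpos t ht).ne')
      exact c0.mul ((continuousAt_const.mul (cH x t ht)).sub (cE x hx' t ht)))
  have cphi : ∀ i, IntervalIntegrable (fun t => t ^ (α - 1) * phi (κ i) t) volume δ T := by
    intro i
    refine ContinuousOn.intervalIntegrable_of_Icc hT ((rpow_contOn _ hδ).mul fun t ht => ?_)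
    refine ContinuousAt.continuousWithinAt ?_
    have c1 := Real.continuousAt_log (hpos t ht).ne'
    have c2 : Continuous fun t => xl (√(κ i ^ 2 + t) + κ i) := continuous_xl.comp (by fun_prop)
    have c3 : Continuous fun t => xl (√(κ i ^ 2 + t) - κ i) := continuous_xl.comp (by fun_prop)
    exact continuousAt_const.mul ((c2.sub c3).continuousAt.sub
      ((c1.add continuousAt_const).mul continuousAt_const))
  have s1 : ∀ t ∈ Icc δ T, ∑ i, t ^ (α - 1) * phi (κ i) t ≤
      ∫ x in x0..x1, t ^ (α - 1) * ((1 + α⁻¹) * HH (Y x) t - EE α⁻¹ κ (S x) t) := by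
    intro t ht
    have ht0 := hpos t ht
    have hd : ∀ x ∈ Icc x0 x1, HasDerivAt (fun y => -Phi κ (S y) t)
        (-trace (GG κ (S x) t * S' x)) x := fun x hx' =>
      (Phi_deriv (h.reg x hx') ht0 h.symS (h.der x)).fun_neg
    have key := intervalIntegral.sub_le_integral_of_hasDeriv_right_of_le
      (φ := fun x => (1 + α⁻¹) * HH (Y x) t - EE α⁻¹ κ (S x) t) hx
      (fun x hx' => (hd x hx').continuousAt.continuousWithinAt)
      (fun x hx' => (hd x (Ioo_subset_Icc_self hx')).hasDerivWithinAt)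
      (ContinuousOn.integrableOn_Icc fun x hx' => ContinuousAt.continuousWithinAt
        ((continuousAt_const.mul ((cH x t ht).comp (f := fun x => (x, t)) (by fun_prop))).sub
          ((cE x hx' t ht).comp (f := fun x => (x, t)) (by fun_prop))))
      (fun x hx' => by
        rw [h.ode x (Ioo_subset_Icc_self hx')]
        exact step_x (h.reg x (Ioo_subset_Icc_self hx')) ht0 (inv_pos.mpr h0).le (h.symY x)
          (h.psY x))
    rw [h.init, h.fin] at key
    rw [← Finset.mul_sum, intervalIntegral.integral_const_mul, ← Phi_ends]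
    exact mul_le_mul_of_nonneg_left (by linarith) (Real.rpow_nonneg ht0.le _)
  have cY : Continuous fun x => trace (fc (fun y => y ^ (α + 1)) (Y x)) :=
    (fc_continuous h.contY h.symY (Real.continuous_rpow_const (by linarith))).matrix_trace
  set C := α⁻¹ * (δ ^ α * (Fintype.card n * (M0 κ * ((M0 κ / δ) ^ (α / 2) / (α / 2)) + δ)))
  have s2 : ∀ x ∈ Icc x0 x1,
      ∫ t in δ..T, t ^ (α - 1) * ((1 + α⁻¹) * HH (Y x) t - EE α⁻¹ κ (S x) t) ≤
        II α * (α⁻¹ * trace (fc (fun y => y ^ (α + 1)) (Y x))) + C := by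
    intro x hx'
    have j1 : IntervalIntegrable (fun t => t ^ (α - 1) * HH (Y x) t) volume δ T :=
      ContinuousOn.intervalIntegrable_of_Icc hT ((rpow_contOn _ hδ).mul fun t ht =>
        ((cH x t ht).comp (f := fun t => (x, t)) (by fun_prop)).continuousWithinAt)
    have j2 : IntervalIntegrable (fun t => t ^ (α - 1) * EE α⁻¹ κ (S x) t) volume δ T :=
      ContinuousOn.intervalIntegrable_of_Icc hT ((rpow_contOn _ hδ).mul fun t ht =>
        ((cE x hx' t ht).comp (f := fun t => (x, t)) (by fun_prop)).continuousWithinAt)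
    have e : ∀ t, t ^ (α - 1) * ((1 + α⁻¹) * HH (Y x) t - EE α⁻¹ κ (S x) t) =
        (1 + α⁻¹) * (t ^ (α - 1) * HH (Y x) t) - t ^ (α - 1) * EE α⁻¹ κ (S x) t := fun t => by ring
    simp only [e]
    rw [intervalIntegral.integral_sub (j1.const_mul _) j2, intervalIntegral.integral_const_mul]
    have b1 := mul_le_mul_of_nonneg_left (HH_le (h.symY x) (h.psY x) h0 h1 hδ hT)
      (show 0 ≤ 1 + α⁻¹ by positivity)
    have b2 := step_t (h.reg x hx') h0 hδ hT
    have b3 : α⁻¹ * (δ ^ α * psi κ (S x) δ) ≤ C := by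
      have := psi_le (h.reg x hx') hδ hδ1 (show 0 < α / 2 by positivity)
      simp only [C]; gcongr
    have e2 : (1 + α⁻¹) * (II α * (trace (fc (fun y => y ^ (α + 1)) (Y x)) / (α + 1))) =
        II α * (α⁻¹ * trace (fc (fun y => y ^ (α + 1)) (Y x))) := by field_simp
    linarith
  rw [← intervalIntegral.integral_finset_sum fun i _ => cphi i]
  refine (intervalIntegral.integral_mono_on hT ?_ i2 s1).trans ?_
  · have := IntervalIntegrable.sum Finset.univ fun i _ => cphi i
    simpa only [Finset.sum_fn] using this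
  rw [sw]
  refine (intervalIntegral.integral_mono_on hx i1 (Continuous.intervalIntegrable (by fun_prop) _ _)
    s2).trans (le_of_eq ?_)
  rw [intervalIntegral.integral_add (Continuous.intervalIntegrable (by fun_prop) _ _)
    intervalIntegrable_const, intervalIntegral.integral_const_mul,
    intervalIntegral.integral_const_mul, intervalIntegral.integral_const, smul_eq_mul]

theorem action {κ : n → ℝ} {α x0 x1 : ℝ} {S S' Y : ℝ → Matrix n n ℝ} (h0 : 0 < α) (h1 : α < 1)
    (hx : x0 ≤ x1) (h : Ric κ α⁻¹ x0 x1 S S' Y) :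
    JJ α * ∑ i, κ i ^ (2 * α + 1) ≤
      α⁻¹ * ∫ x in x0..x1, trace (fc (fun y => y ^ (α + 1)) (Y x)) := by
  have hκ := (h.reg x0 ⟨le_rfl, hx⟩).pos
  have l1 := tendsto_finset_sum Finset.univ fun i _ => phi_lim h0 h1 (hκ i)
  have hM : 0 ≤ M0 κ := sq_nonneg _
  have l0 : Tendsto (fun j : ℕ => 1 / ((j : ℝ) + 1)) atTop (𝓝 0) :=
    tendsto_one_div_add_atTop_nhds_zero_nat
  have l2 : Tendsto (fun j : ℕ => (1 / ((j : ℝ) + 1)) ^ α * (Fintype.card n *
      (M0 κ * ((M0 κ / (1 / ((j : ℝ) + 1))) ^ (α / 2) / (α / 2)) + 1 / ((j : ℝ) + 1)))) atTop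
      (𝓝 0) := by
    have a1 := l0.rpow_const (p := α / 2) (Or.inr (by positivity))
    have a2 := l0.rpow_const (p := α) (Or.inr h0.le)
    rw [Real.zero_rpow (by positivity)] at a1 a2
    have := ((a1.const_mul (M0 κ * (M0 κ ^ (α / 2) / (α / 2)))).add (a2.mul l0)).const_mul
      (Fintype.card n : ℝ)
    simp only [mul_zero, add_zero] at this
    refine this.congr fun j => ?_
    have hδ : 0 < 1 / ((j : ℝ) + 1) := by positivity
    set δ := 1 / ((j : ℝ) + 1)
    have e : δ ^ α = δ ^ (α / 2) * δ ^ (α / 2) := by rw [← Real.rpow_add hδ]; ring_nf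
    have := Real.rpow_pos_of_pos hδ (α / 2)
    rw [Real.div_rpow hM hδ.le, e]; field_simp
  have l3 := ((l2.const_mul α⁻¹).const_mul (x1 - x0)).const_add
    (II α * (α⁻¹ * ∫ x in x0..x1, trace (fc (fun y => y ^ (α + 1)) (Y x))))
  have key := le_of_tendsto_of_tendsto' l1 l3 fun j => by
    have : (0 : ℝ) ≤ j := Nat.cast_nonneg j
    refine action_trunc h0 h1 hx h (by positivity) ?_ ?_
    · rw [div_le_iff₀ (by positivity)]; linarith
    · rw [div_le_iff₀ (by positivity)]; nlinarith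
  simp only [mul_zero, add_zero, ← Finset.mul_sum, ← Finset.sum_mul] at key
  rw [mul_comm]
  exact le_of_mul_le_mul_left key (II_pos h0 h1)

end Vale.Agent.P371
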