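import Mathlib

/-! Mod two cochains on lists, prism operators and iterated lattice integration. -/

namespace Vale.Agent.P371

open Finset

abbrev Co (V : Type*) := List V → ZMod 2

variable {V : Type*}

lemma Co.add_self (a : Co V) : a + a = 0 := by
  funext l; exact CharTwo.add_self_eq_zero _

def dl0 : Co V → List V → ZMod 2
  | _, [] => 0
  | ω, a :: l => ω l + dl0 (fun x => ω (a :: x)) l

def pr0 (g h : V → V) : Co V → List V → ZMod 2
  | _, [] => 0
  | ω, a :: l => ω (g a :: h a :: l.map h) + pr0 g h (fun x => ω (g a :: x)) l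

lemma dl0_add (ω η : Co V) (l : List V) :
    dl0 (fun x => ω x + η x) l = dl0 ω l + dl0 η l := by
  induction l generalizing ω η with
  | nil => simp [dl0]
  | cons a l ih => simp only [dl0, ih]; ring

lemma pr0_add (g h : V → V) (ω η : Co V) (l : List V) :
    pr0 g h (fun x => ω x + η x) l = pr0 g h ω l + pr0 g h η l := by
  induction l generalizing ω η with
  | nil => simp [pr0]
  | cons a l ih => simp only [pr0, ih]; ring

lemma dl0_map (f : V → V) (ω : Co V) (l : List V) :
    dl0 ω (l.map f) = dl0 (fun x => ω (x.map f)) l := by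
  induction l generalizing ω with
  | nil => simp [dl0]
  | cons a l ih => simp only [List.map_cons, dl0, ih]

lemma pr0_map (g h f : V → V) (ω : Co V) (l : List V) :
    pr0 g h ω (l.map f) = pr0 (g ∘ f) (h ∘ f) ω l := by
  induction l generalizing ω with
  | nil => simp [pr0]
  | cons a l ih => simp only [List.map_cons, pr0, ih, List.map_map, Function.comp_apply]

lemma pr0_pb (g h f : V → V) (ω : Co V) (l : List V) :
    pr0 g h (fun x => ω (x.map f)) l = pr0 (f ∘ g) (f ∘ h) ω l := by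
  induction l generalizing ω with
  | nil => simp [pr0]
  | cons a l ih =>
    simp only [pr0, List.map_cons, List.map_map, Function.comp_apply]
    rw [← ih (fun x => ω (f (g a) :: x))]

lemma prism0 (g h : V → V) (ω : Co V) (l : List V) :
    pr0 g h (dl0 ω) l + dl0 (pr0 g h ω) l = ω (l.map g) + ω (l.map h) := by
  induction l generalizing ω with
  | nil => simp [pr0, dl0, CharTwo.add_self_eq_zero]
  | cons a l ih =>
    have e := ih fun x => ω (g a :: x)
    simp only [pr0, dl0, pr0_add, dl0_add, dl0_map, List.map_cons]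
    have t : (2 : ZMod 2) = 0 := rfl
    linear_combination e + (dl0 (fun x => ω (g a :: h a :: List.map h x)) l + pr0 g h ω l +
      ω (g a :: List.map h l)) * t

lemma pr0_vanish (g h : V → V) (ω : Co V) (l : List V)
    (H : ∀ l' : List V, l'.length = l.length + 1 →
      (∀ x ∈ l', ∃ y ∈ l, x = g y ∨ x = h y) → ω l' = 0) : pr0 g h ω l = 0 := by
  induction l generalizing ω with
  | nil => rfl
  | cons a l ih =>
    rw [pr0, H, ih, add_zero]
    · intro l' h1 h2
      refine H _ (by simp [h1]) ?_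
      intro x hx
      rcases List.mem_cons.mp hx with rfl | hx
      · exact ⟨a, by simp, Or.inl rfl⟩
      · obtain ⟨y, hy, e⟩ := h2 x hx
        exact ⟨y, List.mem_cons_of_mem _ hy, e⟩
    · simp
    · intro x hx
      simp only [List.mem_cons, List.mem_map] at hx
      rcases hx with rfl | rfl | ⟨y, hy, rfl⟩
      · exact ⟨a, by simp, Or.inl rfl⟩
      · exact ⟨a, by simp, Or.inr rfl⟩
      · exact ⟨y, List.mem_cons_of_mem _ hy, Or.inr rfl⟩

lemma dl0_eq (ω : Co V) (l : List V) : dl0 ω l = ∑ i ∈ range l.length, ω (l.eraseIdx i) := by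
  induction l generalizing ω with
  | nil => simp [dl0]
  | cons a l ih => rw [dl0, ih, List.length_cons, Finset.sum_range_succ', add_comm]; simp

def dl : Co V →+ Co V := AddMonoidHom.mk' dl0 fun ω η => funext (dl0_add ω η)

def pr (g h : V → V) : Co V →+ Co V :=
  AddMonoidHom.mk' (pr0 g h) fun ω η => funext (pr0_add g h ω η)

def pb (f : V → V) : Co V →+ Co V := AddMonoidHom.mk' (fun ω l => ω (l.map f)) fun _ _ => rfl

lemma prism (g h : V → V) (ω : Co V) : pr g h (dl ω) = dl (pr g h ω) + (pb g ω + pb h ω) := by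
  funext l
  have := prism0 g h ω l
  change pr0 g h (dl0 ω) l = dl0 (pr0 g h ω) l + (ω (l.map g) + ω (l.map h))
  rw [← this, add_comm (pr0 g h _ l), ← add_assoc, CharTwo.add_self_eq_zero, zero_add]

lemma pb_pr (g h f : V → V) (ω : Co V) : pb f (pr g h ω) = pr (g ∘ f) (h ∘ f) ω :=
  funext (pr0_map g h f ω)

lemma pr_pb (g h f : V → V) (ω : Co V) : pr g h (pb f ω) = pr (f ∘ g) (f ∘ h) ω :=
  funext (pr0_pb g h f ω)

section lattice

variable {C : Type*} [DecidableEq C] (M : C → ℕ) (Sg : C → Finset ℤ)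

def st (c : C) (α : ℤ) : (C → ℤ) → (C → ℤ) := fun v => Function.update v c α

def Ih (c : C) (s : ℤ) : Co (C → ℤ) →+ Co (C → ℤ) :=
  ∑ k ∈ range (M c), pr (st c (s * k)) (st c (s * (k + 1 : ℕ)))

def Ic (c : C) : Co (C → ℤ) →+ Co (C → ℤ) := ∑ s ∈ Sg c, Ih M c s

def ends (c : C) : Co (C → ℤ) →+ Co (C → ℤ) := ∑ s ∈ Sg c, (pb (st c 0) + pb (st c (s * M c)))

def TT : List C → Co (C → ℤ) →+ Co (C → ℤ)
  | [] => AddMonoidHom.id _
  | c :: cs => (Ic M Sg c).comp (TT cs)

lemma telescope (a : ℕ → Co V) (m : ℕ) : ∑ k ∈ range m, (a k + a (k + 1)) = a 0 + a m := by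
  induction m with
  | zero => simp [Co.add_self]
  | succ m ih => rw [Finset.sum_range_succ, ih, add_assoc, ← add_assoc (a m), Co.add_self, zero_add]

lemma Ic_dl (c : C) (ω : Co (C → ℤ)) :
    Ic M Sg c (dl ω) = dl (Ic M Sg c ω) + ends M Sg c ω := by
  simp only [Ic, Ih, ends, AddMonoidHom.finset_sum_apply, map_sum, ← Finset.sum_add_distrib,
    prism, AddMonoidHom.add_apply]
  refine Finset.sum_congr rfl fun s _ => ?_
  rw [Finset.sum_add_distrib, telescope (fun k => pb (st c (s * k)) ω)]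
  simp

lemma st_comm {c c' : C} (h : c ≠ c') (α β : ℤ) : st c α ∘ st c' β = st c' β ∘ st c α := by
  funext v; exact (Function.update_comm h α β v).symm

lemma pb_Ic {c c' : C} (h : c ≠ c') (α : ℤ) (ω : Co (C → ℤ)) :
    pb (st c α) (Ic M Sg c' ω) = Ic M Sg c' (pb (st c α) ω) := by
  simp only [Ic, Ih, AddMonoidHom.finset_sum_apply, map_sum, pb_pr, pr_pb, st_comm h]

lemma pb_TT {c : C} {cs : List C} (h : c ∉ cs) (α : ℤ) (ω : Co (C → ℤ)) :
    pb (st c α) (TT M Sg cs ω) = TT M Sg cs (pb (st c α) ω) := by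
  induction cs with
  | nil => rfl
  | cons c' cs ih =>
    simp only [List.mem_cons, not_or] at h
    simp only [TT, AddMonoidHom.comp_apply]
    rw [pb_Ic M Sg h.1, ih h.2]

lemma TT_dl {cs : List C} (h : cs.Nodup) (ω : Co (C → ℤ)) :
    TT M Sg cs (dl ω) = dl (TT M Sg cs ω) +
      ∑ c ∈ cs.toFinset, TT M Sg (cs.erase c) (ends M Sg c ω) := by
  induction cs with
  | nil => simp [TT]
  | cons c cs ih =>
    rw [List.nodup_cons] at h
    simp only [TT, AddMonoidHom.comp_apply]
    rw [ih h.2, map_add, Ic_dl, List.toFinset_cons, Finset.sum_insert (by simpa using h.1),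
      List.erase_cons_head, add_assoc, map_sum]
    congr 2
    · simp only [ends, AddMonoidHom.finset_sum_apply, map_sum, AddMonoidHom.add_apply, map_add,
        pb_TT M Sg h.1]
    · refine Finset.sum_congr rfl fun c' hc' => ?_
      have : c ≠ c' := fun e => h.1 (e ▸ List.mem_toFinset.mp hc')
      rw [List.erase_cons_tail (by simpa using this)]; rfl

lemma TT_dl' {c0 : C} {cs : List C} (h : (c0 :: cs).Nodup) (ω : Co (C → ℤ)) :
    ∃ L : C → List C, (∀ c c', c' ∈ cs → c' ≠ c → c' ∈ L c) ∧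
      TT M Sg (c0 :: cs) (dl ω) = dl (TT M Sg (c0 :: cs) ω) + (TT M Sg cs (ends M Sg c0 ω) +
        ∑ c ∈ cs.toFinset, TT M Sg (L c) (ends M Sg c ω)) := by
  refine ⟨fun c => (c0 :: cs).erase c, fun c c' h1 h2 =>
    (List.mem_erase_of_ne h2).mpr (List.mem_cons_of_mem _ h1), ?_⟩
  rw [TT_dl M Sg h, List.toFinset_cons, Finset.sum_insert
    (by simpa using (List.nodup_cons.mp h).1), List.erase_cons_head]

def Inv (l : List (C → ℤ)) : Prop := ∀ u ∈ l, ∀ v ∈ l, ∀ c,
  |u c - v c| ≤ 1 ∧ 0 ≤ u c * v c ∧ ∃ s ∈ Sg c, ∃ k : ℕ, k ≤ M c ∧ u c = s * k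

variable {M Sg}

lemma Inv.step (hS : ∀ c, ∀ s ∈ Sg c, s = 1 ∨ s = -1) {l l' : List (C → ℤ)} (h : Inv M Sg l)
    {c : C} {s : ℤ} (hs : s ∈ Sg c) {k k' : ℕ} (hk : k ≤ k') (hk1 : k' ≤ k + 1) (hk2 : k' ≤ M c)
    (H : ∀ x ∈ l', ∃ y ∈ l, x = st c (s * k) y ∨ x = st c (s * k') y) : Inv M Sg l' := by
  intro u hu v hv c'
  obtain ⟨u0, hu0, eu⟩ := H u hu
  obtain ⟨v0, hv0, ev⟩ := H v hv
  by_cases hc : c' = c
  · subst hc
    have h1 : (k : ℤ) ≤ k' := by exact_mod_cast hk
    have h2 : (k' : ℤ) ≤ k + 1 := by exact_mod_cast hk1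
    have h3 : (0 : ℤ) ≤ k := Nat.cast_nonneg k
    refine ⟨?_, ?_, s, hs, ?_⟩
    · rcases hS _ s hs with rfl | rfl <;> rcases eu with rfl | rfl <;> rcases ev with rfl | rfl <;>
        simp only [st, Function.update_self] <;> rw [abs_le] <;> constructor <;> linarith
    · rcases hS _ s hs with rfl | rfl <;> rcases eu with rfl | rfl <;> rcases ev with rfl | rfl <;>
        simp only [st, Function.update_self] <;> nlinarith
    · rcases eu with rfl | rfl
      · exact ⟨k, hk.trans hk2, by simp [st]⟩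
      · exact ⟨k', hk2, by simp [st]⟩
  · have e1 : u c' = u0 c' := by rcases eu with rfl | rfl <;> simp [st, hc]
    have e2 : v c' = v0 c' := by rcases ev with rfl | rfl <;> simp [st, hc]
    rw [e1, e2]; exact h u0 hu0 v0 hv0 c'

lemma TT_vanish (hS : ∀ c, ∀ s ∈ Sg c, s = 1 ∨ s = -1) (cs : List C) (ω : Co (C → ℤ))
    {l : List (C → ℤ)} (h : Inv M Sg l)
    (H : ∀ l', Inv M Sg l' → l'.length = l.length + cs.length → ω l' = 0) :
    TT M Sg cs ω l = 0 := by
  induction cs generalizing l with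
  | nil => exact H l h rfl
  | cons c cs ih =>
    simp only [TT, AddMonoidHom.comp_apply, Ic, Ih, AddMonoidHom.finset_sum_apply,
      Finset.sum_apply]
    refine Finset.sum_eq_zero fun s hs => Finset.sum_eq_zero fun k hk => ?_
    refine pr0_vanish _ _ _ _ fun l' h1 h2 => ih ?_ fun l'' h3 h4 => H l'' h3 ?_
    · exact h.step hS hs (Nat.le_succ k) le_rfl (Finset.mem_range.mp hk) h2
    · rw [h4, h1, List.length_cons]; ring

lemma Inv.map_st (hS : ∀ c, ∀ s ∈ Sg c, s = 1 ∨ s = -1) {l : List (C → ℤ)} (h : Inv M Sg l)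
    {c : C} {s : ℤ} (hs : s ∈ Sg c) {k : ℕ} (hk : k ≤ M c) : Inv M Sg (l.map (st c (s * k))) :=
  h.step hS hs le_rfl (Nat.le_succ k) hk fun x hx => by
    obtain ⟨y, hy, rfl⟩ := List.mem_map.mp hx
    exact ⟨y, hy, Or.inl rfl⟩

def fl (N : C → Prop) [DecidablePred N] (v : C → ℤ) : C → ℤ := fun c => if N c then -v c else v c

lemma fl_st (N : C → Prop) [DecidablePred N] (c : C) (α : ℤ) :
    st c (if N c then -α else α) ∘ fl N = fl N ∘ st c α := by
  funext v c'
  by_cases h : c' = c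
  · subst h; simp [st, fl]
  · simp [st, fl, h]

lemma fl_Ih (N : C → Prop) [DecidablePred N] (c : C) (s : ℤ) (ω : Co (C → ℤ)) :
    pb (fl N) (Ih M c (if N c then -s else s) ω) = Ih M c s (pb (fl N) ω) := by
  simp only [Ih, AddMonoidHom.finset_sum_apply, map_sum, pb_pr, pr_pb, ← fl_st]
  split_ifs <;> simp only [neg_mul]

lemma fl_Ic {N : C → Prop} [DecidablePred N] (hN : ∀ c, N c → Sg c = {1, -1}) (c : C)
    (ω : Co (C → ℤ)) : pb (fl N) (Ic M Sg c ω) = Ic M Sg c (pb (fl N) ω) := by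
  simp only [Ic, AddMonoidHom.finset_sum_apply, map_sum, ← fl_Ih]
  by_cases h : N c
  · simp only [h, if_true, hN c h]
    rw [Finset.sum_pair (by norm_num), Finset.sum_pair (by norm_num), neg_neg, add_comm]
  · simp only [h, if_false]

lemma fl_TT {N : C → Prop} [DecidablePred N] (hN : ∀ c, N c → Sg c = {1, -1}) (cs : List C)
    {ω : Co (C → ℤ)} (hω : pb (fl N) ω = ω) : pb (fl N) (TT M Sg cs ω) = TT M Sg cs ω := by
  induction cs with
  | nil => exact hω
  | cons c cs ih => simp only [TT, AddMonoidHom.comp_apply]; rw [fl_Ic hN, ih]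

lemma TT_symm {N : C → Prop} [DecidablePred N] (hN : ∀ c, N c → Sg c = {1, -1}) {cs : List C}
    {c0 : C} (h0 : N c0) (hc : c0 ∈ cs) {ω : Co (C → ℤ)} (hω : pb (fl N) ω = ω) :
    TT M Sg cs ω [0] = 0 := by
  have key : ∃ Ω, TT M Sg cs ω = Ω + pb (fl N) Ω := by
    induction cs with
    | nil => simp at hc
    | cons c cs ih =>
      simp only [TT, AddMonoidHom.comp_apply]
      by_cases h : c0 = c
      · subst h
        refine ⟨Ih M c0 (-1) (TT M Sg cs ω), ?_⟩
        have := fl_Ih (M := M) N c0 1 (TT M Sg cs ω)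
        rw [if_pos h0, fl_TT hN cs hω] at this
        rw [this, Ic, hN c0 h0, Finset.sum_pair (by norm_num), add_comm]; rfl
      · obtain ⟨Ω, e⟩ := ih ((List.mem_cons.mp hc).resolve_left h)
        exact ⟨Ic M Sg c Ω, by rw [e, map_add, fl_Ic hN]⟩
  obtain ⟨Ω, e⟩ := key
  have : fl N 0 = 0 := by funext c; simp [fl]
  rw [e]
  change Ω [0] + Ω [fl N 0] = 0
  rw [this, CharTwo.add_self_eq_zero]

end lattice

end Vale.Agent.P371
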