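import Vale.Agent.P371.H1

/-! The real core inequality. -/

namespace Vale.Agent.P371

open Matrix Filter Topology MeasureTheory Set

variable {n : Type*} [Fintype n] [DecidableEq n]

noncomputable def MI (μ : Measure ℝ) (P : ℝ → Matrix n n ℝ) : Matrix n n ℝ :=
  Matrix.of fun k l => ∫ x, P x k l ∂μ

omit [DecidableEq n] in
lemma quad_int {μ : Measure ℝ} {P : ℝ → Matrix n n ℝ} (hP : ∀ k l, Integrable (fun x => P x k l) μ)
    (a : n → ℝ) : Integrable (fun x => a ⬝ᵥ P x *ᵥ a) μ ∧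
      ∫ x, a ⬝ᵥ P x *ᵥ a ∂μ = a ⬝ᵥ MI μ P *ᵥ a := by
  have h1 : ∀ k, Integrable (fun x => a k * ∑ l, P x k l * a l) μ := fun k =>
    (integrable_finsetSum _ fun l _ => (hP k l).mul_const _).const_mul _
  simp only [dotProduct, mulVec, MI, of_apply]
  refine ⟨integrable_finsetSum _ fun k _ => h1 k, ?_⟩
  rw [integral_finsetSum _ fun k _ => h1 k]
  refine Finset.sum_congr rfl fun k _ => ?_
  rw [integral_const_mul, integral_finsetSum _ fun l _ => (hP k l).mul_const _]
  simp only [integral_mul_const]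

omit [DecidableEq n] in
lemma tail_small {P : ℝ → Matrix n n ℝ} (hP : ∀ k l, Integrable fun x => P x k l) {δ : ℝ}
    (hδ : 0 < δ) : ∀ᶠ R in atTop, ∀ a : n → ℝ,
      |a ⬝ᵥ MI volume P *ᵥ a - a ⬝ᵥ MI (volume.restrict (Ioc (-R) R)) P *ᵥ a| ≤ δ * (a ⬝ᵥ a) := by
  have h1 : Tendsto (fun R : ℝ => MI volume P - MI (volume.restrict (Ioc (-R) R)) P) atTop
      (𝓝 (MI volume P - MI volume P)) := by
    refine tendsto_const_nhds.sub (tendsto_pi_nhds.mpr fun k => tendsto_pi_nhds.mpr fun l => ?_)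
    refine (intervalIntegral_tendsto_integral (hP k l) tendsto_neg_atTop_atBot
      tendsto_id).congr' ?_
    filter_upwards [eventually_ge_atTop 0] with R hR
    exact intervalIntegral.integral_of_le (by simpa using hR)
  have h2 := (continuous_l1.tendsto _).comp h1
  have h3 : l1 (MI volume P - MI volume P) = 0 := by simp [l1]
  rw [h3] at h2
  filter_upwards [h2.eventually (gt_mem_nhds hδ)] with R hR a
  rw [← dotProduct_sub, ← sub_mulVec]
  refine (quad_le _ a).trans (mul_le_mul_of_nonneg_right hR.le ?_)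
  exact Finset.sum_nonneg fun i _ => mul_self_nonneg _

omit [DecidableEq n] in
lemma trace_conj (A P : Matrix n n ℝ) : trace (A * P * Aᵀ) = ∑ j, A j ⬝ᵥ P *ᵥ A j := by
  refine Finset.sum_congr rfl fun j _ => ?_
  have := conj_apply Aᵀ P j
  rw [transpose_transpose] at this
  exact this

variable {ι : Type*} [Fintype ι]

def gram (u : n → ι → ℝ → ℝ) (x : ℝ) : Matrix n n ℝ :=
  Matrix.of fun k l => ∑ c, u k c x * u l c x

omit [DecidableEq n] in
lemma gram_quad (u : n → ι → ℝ → ℝ) (x : ℝ) (a b : n → ℝ) :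
    a ⬝ᵥ gram u x *ᵥ b = ∑ c, (∑ k, a k * u k c x) * ∑ k, b k * u k c x := by
  simp only [Finset.sum_mul_sum]
  simp only [dotProduct, mulVec, gram, of_apply, Finset.sum_mul, Finset.mul_sum]
  rw [Finset.sum_comm (s := Finset.univ (α := ι))]
  refine Finset.sum_congr rfl fun k _ => ?_
  rw [Finset.sum_comm (s := Finset.univ (α := ι))]
  exact Finset.sum_congr rfl fun l _ => Finset.sum_congr rfl fun c _ => by ring

omit [Fintype n] [DecidableEq n] in
lemma gram_int {u : n → ι → ℝ → ℝ} (hu : ∀ k c, MemLp (u k c) 2 volume) (k l : n) :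
    Integrable fun x => gram u x k l :=
  integrable_finsetSum _ fun c _ => (hu k c).integrable_mul (hu l c)

omit [DecidableEq n] in
lemma gram_gr {u : n → ι → ℝ → ℝ} (hu : ∀ k c, Continuous (u k c)) : Gr (gram u) where
  cont := by
    refine continuous_pi fun k => continuous_pi fun l => ?_
    simp only [gram, of_apply]; fun_prop
  sym x := by ext k l; simp [gram, mul_comm]
  ps x v := by rw [gram_quad]; exact Finset.sum_nonneg fun c _ => mul_self_nonneg _

omit [DecidableEq n] in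
lemma gram_trace (u : n → ι → ℝ → ℝ) (x : ℝ) (A Y : Matrix n n ℝ) :
    ∑ c, (fun j => ∑ k, A j k * u k c x) ⬝ᵥ Y *ᵥ (fun j => ∑ k, A j k * u k c x) =
      trace (Y * (A * gram u x * Aᵀ)) := by
  have e : ∀ i j, (A * gram u x * Aᵀ) j i = ∑ c, (∑ k, A j k * u k c x) * ∑ k, A i k * u k c x := by
    intro i j
    rw [← gram_quad, Matrix.mul_assoc, Matrix.mul_apply]
    rfl
  simp only [trace, diag_apply, Matrix.mul_apply (M := Y), e]
  have e2 : ∀ (V : ι → n → ℝ), ∑ c, V c ⬝ᵥ Y *ᵥ V c = ∑ i, ∑ j, Y i j * ∑ c, V c j * V c i := by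
    intro V
    simp only [dotProduct, mulVec, Finset.mul_sum]
    rw [Finset.sum_comm]
    refine Finset.sum_congr rfl fun i _ => ?_
    rw [Finset.sum_comm]
    exact Finset.sum_congr rfl fun j _ => Finset.sum_congr rfl fun c _ => by ring
  exact e2 fun c j => ∑ k, A j k * u k c x

lemma core_eps [LinearOrder n] {α : ℝ} (h0 : 0 < α) (h1 : α < 1) {κ κ' : n → ℝ} {ε : ℝ}
    (hε : 0 < ε) (hκ' : ∀ i, 0 < κ' i) (hκ : ∀ k l, k ≤ l → κ' l ^ 2 + ε ≤ κ k ^ 2)
    {u u' : n → ι → ℝ → ℝ} (hu : ∀ k c, RH (u k c) (u' k c)) {Q : ℝ → Matrix n n ℝ}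
    (hQ : ∀ k l, Integrable fun x => Q x k l) {w : ℝ → ℝ} (hw : Integrable w)
    (hw0 : ∀ x, 0 ≤ w x)
    (hY : ∀ x A, trace (A * Q x * Aᵀ) ≤
      w x + trace (fc (fun t => t ^ (α⁻¹ + 1)) (A * gram u x * Aᵀ)))
    (hΓ : MI volume (gram u) = 1)
    (hE : MI volume (gram u') = MI volume Q - diagonal fun k => κ k ^ 2) :
    JJ α * ∑ i, κ' i ^ (2 * α + 1) ≤ ∫ x, w x := by
  have iΓ := gram_int fun k c => (hu k c).l2
  have iΓ' := gram_int fun k c => (hu k c).l2'
  obtain ⟨R, ⟨t1, t2⟩, hR⟩ := (((tail_small iΓ one_half_pos).and (tail_small hQ hε)).and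
    (eventually_ge_atTop 0)).exists
  have hab : -R ≤ R := by linarith
  have gr := gram_gr fun k c => (hu k c).acd.cont
  have hq : 1 ≤ α⁻¹ := (one_le_inv₀ h0).mpr h1.le
  have tr_int : ∀ {P : ℝ → Matrix n n ℝ}, (∀ k l, Integrable fun x => P x k l) →
      ∀ A : Matrix n n ℝ,
      IntervalIntegrable (fun x => trace (A * P x * Aᵀ)) volume (-R) R ∧
      ∫ x in (-R)..R, trace (A * P x * Aᵀ) =
        ∑ j, A j ⬝ᵥ MI (volume.restrict (Ioc (-R) R)) P *ᵥ A j := by
    intro P hP A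
    simp only [trace_conj]
    refine ⟨(integrable_finsetSum _ fun j _ => (quad_int hP _).1).intervalIntegrable, ?_⟩
    rw [intervalIntegral.integral_of_le hab]
    refine (integral_finsetSum _ fun j _ => (quad_int hP (A j)).1.integrableOn).trans ?_
    exact Finset.sum_congr rfl fun j _ => (quad_int (fun k l => (hP k l).integrableOn) _).2
  obtain ⟨A, S, S', hA, hric⟩ := shoot hκ' hq hab gr fun A => by
    rw [(tr_int iΓ A).2, hs, Finset.sum_div]
    refine Finset.sum_le_sum fun j _ => ?_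
    have := (abs_le.mp (t1 (A j))).2
    rw [hΓ, one_mulVec] at this
    have e : A j ⬝ᵥ A j = ∑ k, A j k ^ 2 := by simp [dotProduct, sq]
    rw [← e]; linarith
  set T : ℝ → ℝ := fun x => trace (fc (fun t => t ^ (α⁻¹ + 1)) (A * gram u x * Aᵀ)) with hT
  have hTc : Continuous T := Continuous.matrix_trace (gr.contY1 (by linarith) A)
  have act := action h0 h1 hab hric
  have e1 : ∀ x, trace (fc (fun y => y ^ (α + 1)) (YY α⁻¹ (gram u) A x)) = T x := by
    intro x
    obtain ⟨O, d, hd⟩ := exists_spec (gr.symV A x)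
    rw [hT, YY, ((hd.fc _).fc _).trace]
    simp only [(hd.fc _).trace]
    refine Finset.sum_congr rfl fun i _ => ?_
    rw [← Real.rpow_mul (hd.nonneg ((gr.ps x).conj _) i)]
    congr 1; field_simp; ring
  have e2 : ∀ x, trace (YY α⁻¹ (gram u) A x * (A * gram u x * Aᵀ)) = T x := by
    intro x
    obtain ⟨O, d, hd⟩ := exists_spec (gr.symV A x)
    rw [hT, YY, ((hd.fc _).mul hd).trace]
    simp only [(hd.fc _).trace]
    refine Finset.sum_congr rfl fun i _ => ?_
    rw [Real.rpow_add_one' (hd.nonneg ((gr.ps x).conj _) i) (by linarith)]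
  simp only [e1] at act
  have hv : ∀ c j, RH (fun x => ∑ k, A j k * u k c x) fun x => ∑ k, A j k * u' k c x :=
    fun c j => RH.lin (fun k => hu k c) _
  have kin := Finset.sum_le_sum fun c (_ : c ∈ Finset.univ) => kinetic hric hab (hv c)
  have hcv : ∀ c, Continuous fun x => (fun j => ∑ k, A j k * u k c x) ⬝ᵥ
      YY α⁻¹ (gram u) A x *ᵥ (fun j => ∑ k, A j k * u k c x) := by
    intro c
    have h1 := hric.contY
    have h2 : ∀ k, Continuous (u k c) := fun k => (hu k c).acd.cont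
    simp only [dotProduct, mulVec]
    fun_prop
  rw [← Finset.mul_sum, ← intervalIntegral.integral_finsetSum fun c _ =>
    (hcv c).intervalIntegrable _ _, Finset.sum_comm] at kin
  simp only [gram_trace, e2] at kin
  have row : ∀ j, ∑ c, ∫ x, ((∑ k, A j k * u' k c x) ^ 2 + κ' j ^ 2 * (∑ k, A j k * u k c x) ^ 2) ≤
      A j ⬝ᵥ MI (volume.restrict (Ioc (-R) R)) Q *ᵥ A j := by
    intro j
    rw [← integral_finsetSum _ fun c _ => (hv c j).intF _]
    have e3 : ∀ x, ∑ c, ((∑ k, A j k * u' k c x) ^ 2 + κ' j ^ 2 * (∑ k, A j k * u k c x) ^ 2) =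
        A j ⬝ᵥ gram u' x *ᵥ A j + κ' j ^ 2 * (A j ⬝ᵥ gram u x *ᵥ A j) := by
      intro x
      simp only [gram_quad, Finset.sum_add_distrib, ← sq]
      rw [Finset.mul_sum]
    simp only [e3]
    rw [integral_add (quad_int iΓ' _).1 ((quad_int iΓ _).1.const_mul _), integral_const_mul,
      (quad_int iΓ' _).2, (quad_int iΓ _).2, hE, hΓ, one_mulVec, sub_mulVec, dotProduct_sub]
    have t3 := (abs_le.mp (t2 (A j))).2
    have t4 : (κ' j ^ 2 + ε) * (A j ⬝ᵥ A j) ≤ A j ⬝ᵥ (diagonal fun k => κ k ^ 2) *ᵥ A j := by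
      simp only [dotProduct, mulVec_diagonal, Finset.mul_sum]
      refine Finset.sum_le_sum fun k _ => ?_
      rcases le_or_gt k j with h | h
      · nlinarith [mul_le_mul_of_nonneg_right (hκ k j h) (mul_self_nonneg (A j k))]
      · simp [hA j k h]
    linarith
  have kin2 := kin.trans (Finset.sum_le_sum fun j _ => row j)
  rw [← (tr_int hQ A).2] at kin2
  have y1 := intervalIntegral.integral_mono_on hab (tr_int hQ A).1
    (hw.intervalIntegrable.add (hTc.intervalIntegrable _ _)) fun x _ => hY x A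
  rw [intervalIntegral.integral_add hw.intervalIntegrable (hTc.intervalIntegrable _ _)] at y1
  have y2 : ∫ x in (-R)..R, w x ≤ ∫ x, w x := by
    rw [intervalIntegral.integral_of_le hab]
    exact setIntegral_le_integral hw (Eventually.of_forall hw0)
  linarith

theorem core [LinearOrder n] {α : ℝ} (h0 : 0 < α) (h1 : α < 1) {κ : n → ℝ}
    (hκ : ∀ i, 0 < κ i) (anti : ∀ k l, k ≤ l → κ l ≤ κ k)
    {u u' : n → ι → ℝ → ℝ} (hu : ∀ k c, RH (u k c) (u' k c)) {Q : ℝ → Matrix n n ℝ}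
    (hQ : ∀ k l, Integrable fun x => Q x k l) {w : ℝ → ℝ} (hw : Integrable w)
    (hw0 : ∀ x, 0 ≤ w x)
    (hY : ∀ x A, trace (A * Q x * Aᵀ) ≤
      w x + trace (fc (fun t => t ^ (α⁻¹ + 1)) (A * gram u x * Aᵀ)))
    (hΓ : MI volume (gram u) = 1)
    (hE : MI volume (gram u') = MI volume Q - diagonal fun k => κ k ^ 2) :
    JJ α * ∑ i, κ i ^ (2 * α + 1) ≤ ∫ x, w x := by
  have hc : Continuous fun ε : ℝ => JJ α * ∑ i, √(κ i ^ 2 - ε) ^ (2 * α + 1) :=
    continuous_const.mul (continuous_finsetSum _ fun i _ =>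
      (Real.continuous_rpow_const (by linarith)).comp (by fun_prop))
  have ht := (hc.tendsto 0).mono_left (nhdsWithin_le_nhds (s := Ioi 0))
  simp only [sub_zero, Real.sqrt_sq (hκ _).le] at ht
  refine le_of_tendsto ht ?_
  have ev : ∀ᶠ ε in 𝓝[>] (0 : ℝ), ∀ i, ε < κ i ^ 2 :=
    eventually_all.mpr fun i => nhdsWithin_le_nhds (gt_mem_nhds (pow_pos (hκ i) 2))
  filter_upwards [ev, self_mem_nhdsWithin] with ε h2 h3
  refine core_eps h0 h1 h3 (fun i => Real.sqrt_pos.mpr (sub_pos.mpr (h2 i))) (fun k l hkl => ?_)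
    hu hQ hw hw0 hY hΓ hE
  rw [Real.sq_sqrt (sub_pos.mpr (h2 l)).le]
  have := pow_le_pow_left₀ (hκ l).le (anti k l hkl) 2
  linarith

end Vale.Agent.P371
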