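import Mathlib

/-! Definitions for the one-dimensional Lieb-Thirring constants. -/

namespace Vale.Agent.P371

open Matrix MeasureTheory
open scoped ComplexOrder ENNReal

variable {m : ℕ}

/-- `ψ` lies in `H¹(ℝ; ℂ^m)` (absolutely continuous representative) with derivative `ψ'`. -/
structure IsH1 (ψ ψ' : ℝ → Fin m → ℂ) : Prop where
  memLp : MemLp ψ 2 volume
  memLp_deriv : MemLp ψ' 2 volume
  ftc : ∀ x y, ψ y - ψ x = ∫ t in x..y, ψ' t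

/-- `tr (A ^ p)`, the power taken by the continuous functional calculus. -/
noncomputable def trPow (p : ℝ) (A : Matrix (Fin m) (Fin m) ℂ) : ℝ :=
  (cfc (fun t : ℝ => t ^ p) A).trace.re

/-- Measurable, positive semidefinite, with `∫ tr W ^ (γ + 1/2) < ∞`. -/
structure IsPotential (γ : ℝ) (W : ℝ → Matrix (Fin m) (Fin m) ℂ) : Prop where
  meas : ∀ i j, Measurable fun x => W x i j
  posSemidef : ∀ x, (W x).PosSemidef
  integrable : Integrable fun x => trPow (γ + 1 / 2) (W x)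

/-- `H_W ψ = E ψ` for the operator of the form `∫ |ψ'|² - ∫ ⟨ψ, W ψ⟩` on `H¹`. -/
def IsEigen (W : ℝ → Matrix (Fin m) (Fin m) ℂ) (E : ℝ) (ψ : ℝ → Fin m → ℂ) : Prop :=
  ∃ ψ', IsH1 ψ ψ' ∧ ∀ φ φ', IsH1 φ φ' →
    (∫ x, star (φ' x) ⬝ᵥ ψ' x) - (∫ x, star (φ x) ⬝ᵥ (W x *ᵥ ψ x)) =
      (E : ℂ) * ∫ x, star (φ x) ⬝ᵥ ψ x

/-- `Tr (H_W)_-^γ`: the sum of `|E|^γ` over the negative eigenvalues with multiplicity, as the
supremum over finite orthonormal systems of eigenfunctions. -/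
noncomputable def rieszMean (γ : ℝ) (W : ℝ → Matrix (Fin m) (Fin m) ℂ) : ℝ≥0∞ :=
  ⨆ (N : ℕ) (E : Fin N → ℝ) (ψ : Fin N → ℝ → Fin m → ℂ)
    (_ : ∀ j, E j < 0 ∧ IsEigen W (E j) (ψ j))
    (_ : ∀ j k, ∫ x, star (ψ j x) ⬝ᵥ ψ k x = if j = k then 1 else 0),
    ENNReal.ofReal (∑ j, |E j| ^ γ)

/-- The Lieb-Thirring constant `L_γ(m)`. -/
noncomputable def LT (γ : ℝ) (m : ℕ) : ℝ≥0∞ :=
  ⨆ (W : ℝ → Matrix (Fin m) (Fin m) ℂ) (_ : IsPotential γ W) (_ : ¬ W =ᵐ[volume] 0),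
    rieszMean γ W / ENNReal.ofReal (∫ x, trPow (γ + 1 / 2) (W x))

end Vale.Agent.P371
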