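import Vale.Agent.P371.Cochain

/-! A generic point lies in exactly one lattice simplex; parity of good facets. -/

namespace Vale.Agent.P371

open Finset NNReal

lemma cone_map {E E' : Type*} [AddCommGroup E] [Module ℝ E] [AddCommGroup E'] [Module ℝ E']
    (f : E →ₗ[ℝ] E') {A : Set E} {B : Submodule ℝ≥0 E'} (h : ∀ p ∈ A, f p ∈ B) {z : E}
    (hz : z ∈ Submodule.span ℝ≥0 A) : f z ∈ B := by
  induction hz using Submodule.span_induction with
  | mem p hp => exact h p hp
  | zero => simp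
  | add p q _ _ h1 h2 => rw [map_add]; exact B.add_mem h1 h2
  | smul a p _ h1 => rw [NNReal.smul_def, map_smul, ← NNReal.smul_def]; exact B.smul_mem a h1

lemma cone_nonneg {E : Type*} [AddCommGroup E] [Module ℝ E] (f : E →ₗ[ℝ] ℝ) {A : Set E}
    (h : ∀ p ∈ A, 0 ≤ f p) {z : E} (hz : z ∈ Submodule.span ℝ≥0 A) : 0 ≤ f z := by
  induction hz using Submodule.span_induction with
  | mem p hp => exact h p hp
  | zero => simp
  | add p q _ _ h1 h2 => rw [map_add]; exact add_nonneg h1 h2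
  | smul a p _ h1 => rw [NNReal.smul_def, map_smul]; exact mul_nonneg a.2 h1

lemma hull_iff {κ E : Type*} [DecidableEq κ] [AddCommGroup E] [Module ℝ E] (T : Finset κ)
    (u : κ → E) (y : E) : y ∈ convexHull ℝ (u '' (T : Set κ)) ↔
      ∃ w : κ → ℝ, (∀ k, 0 ≤ w k) ∧ ∑ k ∈ T, w k = 1 ∧ ∑ k ∈ T, w k • u k = y := by
  constructor
  · intro h
    refine convexHull_min (t := {y | ∃ w : κ → ℝ, (∀ k, 0 ≤ w k) ∧ ∑ k ∈ T, w k = 1 ∧
      ∑ k ∈ T, w k • u k = y}) ?_ ?_ h
    · rintro _ ⟨k, hk, rfl⟩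
      have hk : k ∈ T := hk
      refine ⟨fun j => if j = k then 1 else 0, fun j => by positivity, by simp [hk], ?_⟩
      simp [ite_smul, hk]
    · rintro _ ⟨w, h1, h2, rfl⟩ _ ⟨w', h1', h2', rfl⟩ a b ha hb hab
      refine ⟨fun k => a * w k + b * w' k,
        fun k => add_nonneg (mul_nonneg ha (h1 k)) (mul_nonneg hb (h1' k)), ?_, ?_⟩
      · simp [Finset.sum_add_distrib, ← Finset.mul_sum, h2, h2', hab]
      · simp [add_smul, Finset.sum_add_distrib, mul_smul, Finset.smul_sum]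
  · rintro ⟨w, h1, h2, rfl⟩
    exact (convex_convexHull ℝ _).sum_mem (fun k _ => h1 k) h2
      fun k hk => subset_convexHull ℝ _ ⟨k, hk, rfl⟩

lemma hull_iff_cone {κ E : Type*} [DecidableEq κ] [AddCommGroup E] [Module ℝ E] (T : Finset κ)
    (u : κ → E) (y : E) : y ∈ convexHull ℝ (u '' (T : Set κ)) ↔
      ((1 : ℝ), y) ∈ Submodule.span ℝ≥0 ((fun k => ((1 : ℝ), u k)) '' (T : Set κ)) := by
  rw [hull_iff, Submodule.mem_span_image_finset_iff_exists_fun']
  constructor
  · rintro ⟨w, h1, h2, h3⟩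
    refine ⟨fun k => ⟨w k, h1 k⟩, Prod.ext ?_ ?_⟩
    · rw [Prod.fst_sum]
      exact (Finset.sum_congr rfl fun k _ => mul_one (w k)).trans h2
    · rw [Prod.snd_sum]; exact h3
  · rintro ⟨w, h⟩
    refine ⟨fun k => w k, fun k => (w k).2, ?_, ?_⟩
    · simpa [Prod.fst_sum, NNReal.smul_def] using congrArg Prod.fst h
    · simpa [Prod.snd_sum, NNReal.smul_def] using congrArg Prod.snd h

section ev

variable {C : Type*} [DecidableEq C] {M : C → ℕ} {Sg : C → Finset ℤ}

def wS (S : Finset C) (v : C → ℝ) : ℝ × (C → ℝ) := (1, fun c => if c ∈ S then v c else 0)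

def cn (S : Finset C) (l : List (C → ℤ)) : Submodule ℝ≥0 (ℝ × (C → ℝ)) :=
  Submodule.span ℝ≥0 ((fun v : C → ℤ => wS S fun c => v c) '' {v | v ∈ l})

def prj (S : Finset C) : ℝ × (C → ℝ) →ₗ[ℝ] ℝ × (C → ℝ) where
  toFun z := (z.1, fun c => if c ∈ S then z.2 c else 0)
  map_add' z z' := by ext c <;> simp; split_ifs <;> simp
  map_smul' a z := by ext c <;> simp

def lft (c : C) (β : ℝ) : ℝ × (C → ℝ) →ₗ[ℝ] ℝ × (C → ℝ) where
  toFun z := (z.1, Function.update z.2 c (β * z.1))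
  map_add' z z' := by
    ext c'
    · simp
    · by_cases h : c' = c
      · subst h; simp; ring
      · simp [h]
  map_smul' a z := by
    ext c'
    · simp
    · by_cases h : c' = c
      · subst h; simp; ring
      · simp [h]

def cf (c : C) (β γ : ℝ) : ℝ × (C → ℝ) →ₗ[ℝ] ℝ where
  toFun z := β * z.1 + γ * z.2 c
  map_add' z z' := by simp; ring
  map_smul' a z := by simp; ring

lemma prj_wS {S : Finset C} {c : C} (hc : c ∉ S) (v : C → ℝ) :
    prj S (wS (insert c S) v) = wS S v := by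
  ext c' <;> simp [prj, wS]
  split_ifs <;> simp_all

lemma prj_wS_st {S : Finset C} {c : C} (hc : c ∉ S) (α : ℤ) (v : C → ℤ) :
    prj S (wS (insert c S) fun c' => st c α v c') = wS S fun c' => v c' := by
  rw [prj_wS hc]
  ext c' <;> simp [wS]
  split_ifs with h
  · have : c' ≠ c := fun e => hc (e ▸ h)
    simp [st, this]
  · rfl

lemma lft_wS {S : Finset C} {c : C} (β : ℝ) (v v' : C → ℝ) (h1 : v' c = β)
    (h2 : ∀ c', c' ≠ c → v' c' = v c') : lft c β (wS S v) = wS (insert c S) v' := by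
  ext c'
  · simp [lft, wS]
  · by_cases h : c' = c
    · subst h; simp [lft, wS, h1]
    · simp [lft, wS, h, h2 c' h]

lemma cn_cons (S : Finset C) (a : C → ℤ) (l : List (C → ℤ)) (z : ℝ × (C → ℝ)) :
    z ∈ cn S (a :: l) ↔ ∃ a0 : ℝ, 0 ≤ a0 ∧ ∃ z' ∈ cn S l, z = a0 • (wS S fun c => a c) + z' := by
  have : {v | v ∈ a :: l} = insert a {v | v ∈ l} := by ext v; simp
  rw [cn, this, Set.image_insert_eq, Submodule.mem_span_insert]
  constructor
  · rintro ⟨a0, z', h1, h2⟩
    exact ⟨a0, a0.2, z', h1, h2⟩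
  · rintro ⟨a0, h0, z', h1, h2⟩
    exact ⟨⟨a0, h0⟩, z', h1, h2⟩

open Classical in
noncomputable def eta (x : C → ℝ) (S : Finset C) : Co (C → ℤ) :=
  fun l => if wS S x ∈ cn S l then 1 else 0

lemma cn_prj {S : Finset C} {c : C} (hc : c ∉ S) {α β : ℤ} {l l' : List (C → ℤ)}
    (H : ∀ v ∈ l', ∃ y ∈ l, v = st c α y ∨ v = st c β y) {z : ℝ × (C → ℝ)}
    (hz : z ∈ cn (insert c S) l') : prj S z ∈ cn S l := by
  refine cone_map (prj S) ?_ hz
  rintro _ ⟨v, hv, rfl⟩
  obtain ⟨y, hy, rfl | rfl⟩ := H v hv <;> rw [prj_wS_st hc] <;>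
    exact Submodule.subset_span ⟨y, hy, rfl⟩

lemma cn_cf {S : Finset C} {c : C} {l' : List (C → ℤ)} {β γ : ℝ}
    (H : ∀ v ∈ l', 0 ≤ β + γ * v c) {z : ℝ × (C → ℝ)}
    (hz : z ∈ cn (insert c S) l') : 0 ≤ β * z.1 + γ * z.2 c := by
  refine cone_nonneg (cf c β γ) ?_ hz
  rintro _ ⟨v, hv, rfl⟩
  simpa [cf, wS] using H v hv

lemma ev_coord {S : Finset C} {c : C} {x : C → ℝ} {a : C → ℤ} {α : ℤ} {a0 : ℝ} {z : ℝ × (C → ℝ)}
    (e : wS (insert c S) x = a0 • (wS (insert c S) fun c' => st c α a c') + z) :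
    1 = a0 + z.1 ∧ x c = a0 * α + z.2 c := by
  have e1 := congrArg Prod.fst e
  have e2 := congrFun (congrArg Prod.snd e) c
  simp only [wS, Prod.fst_add, Prod.smul_fst, smul_eq_mul, mul_one] at e1
  simp [wS, st] at e2
  exact ⟨e1, e2⟩

lemma ev_down {S : Finset C} {c : C} (hc : c ∉ S) {x : C → ℝ} {a : C → ℤ} {α β : ℤ}
    {l' b : List (C → ℤ)} (H : ∀ v ∈ l', ∃ y ∈ b, v = st c α y ∨ v = st c β y) {a0 : ℝ}
    {z : ℝ × (C → ℝ)} (hz : z ∈ cn (insert c S) l')
    (e : wS (insert c S) x = a0 • (wS (insert c S) fun c' => st c α a c') + z) :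
    prj S z ∈ cn S b ∧ wS S x = a0 • (wS S fun c' => a c') + prj S z := by
  refine ⟨cn_prj hc H hz, ?_⟩
  have := congrArg (prj S) e
  rwa [map_add, map_smul, prj_wS hc, prj_wS_st hc] at this

lemma ev_first {S : Finset C} {c : C} {x : C → ℝ} {a : C → ℤ} {l : List (C → ℤ)} {s : ℤ}
    (hs : s = 1 ∨ s = -1) {k m : ℕ} {θ : ℝ} (t0 : 0 < θ) (t1 : θ < 1) (hx : x c = m + θ)
    {a0 : ℝ} (h0 : 0 ≤ a0) {z : ℝ × (C → ℝ)} (hz : z ∈ cn (insert c S)
      (st c (s * (k + 1 : ℕ)) a :: l.map (st c (s * (k + 1 : ℕ)))))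
    (e : wS (insert c S) x = a0 • (wS (insert c S) fun c' => st c (s * k) a c') + z) :
    s = 1 ∧ k = m ∧ a0 = 1 - θ := by
  have hk0 : (0 : ℝ) ≤ k := Nat.cast_nonneg _
  have hm0 : (0 : ℝ) ≤ m := Nat.cast_nonneg _
  obtain ⟨e1, e2⟩ := ev_coord e
  rw [hx] at e2
  have hv : ∀ v ∈ st c (s * (k + 1 : ℕ)) a :: l.map (st c (s * (k + 1 : ℕ))),
      (v c : ℝ) = s * (k + 1) := by
    intro v hv
    rw [← List.map_cons, List.mem_map] at hv
    obtain ⟨y, -, rfl⟩ := hv
    simp [st]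
  have b0 := cn_cf (β := 1) (γ := 0) (fun v _ => by simp) hz
  have b1 := cn_cf (β := s * (k + 1)) (γ := -1) (fun v h => by rw [hv v h]; simp) hz
  have b2 := cn_cf (β := -(s * (k + 1))) (γ := 1) (fun v h => by rw [hv v h]; simp) hz
  have ez : z.1 = 1 - a0 := by linarith
  rw [ez] at b0 b1 b2
  rcases hs with rfl | rfl
  · push_cast at b1 b2 e2
    have e3 : (m : ℝ) + θ = k + 1 - a0 := by nlinarith
    have : k = m := by
      have i1 : (k : ℝ) < m + 1 := by linarith
      have i2 : (m : ℝ) < k + 1 := by linarith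
      have j1 : k < m + 1 := by exact_mod_cast i1
      have j2 : m < k + 1 := by exact_mod_cast i2
      omega
    refine ⟨rfl, this, ?_⟩
    rw [this] at e3; linarith
  · push_cast at b1 b2 e2
    exfalso; nlinarith

lemma ev_second {S : Finset C} {c : C} {x : C → ℝ} {a : C → ℤ} {l l' : List (C → ℤ)} {s : ℤ}
    (hs : s = 1 ∨ s = -1) {k m : ℕ} {θ : ℝ} (t0 : 0 < θ) (t1 : θ < 1) (hx : x c = m + θ)
    (H : ∀ v ∈ l', ∃ y ∈ l, v = st c (s * k) y ∨ v = st c (s * (k + 1 : ℕ)) y)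
    {a0 : ℝ} (h0 : 1 - θ < a0) {z : ℝ × (C → ℝ)} (hz : z ∈ cn (insert c S) l')
    (e : wS (insert c S) x = a0 • (wS (insert c S) fun c' => st c (s * k) a c') + z) : False := by
  have hk0 : (0 : ℝ) ≤ k := Nat.cast_nonneg _
  have hm0 : (0 : ℝ) ≤ m := Nat.cast_nonneg _
  obtain ⟨e1, e2⟩ := ev_coord e
  rw [hx] at e2
  have hv : ∀ v ∈ l', (v c : ℝ) = s * k ∨ (v c : ℝ) = s * (k + 1) := by
    intro v hv
    obtain ⟨y, -, rfl | rfl⟩ := H v hv <;> simp [st]
  have b0 := cn_cf (β := 1) (γ := 0) (fun v _ => by simp) hz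
  have ez : z.1 = 1 - a0 := by linarith
  rcases hs with rfl | rfl
  · have b1 := cn_cf (β := k + 1) (γ := -1)
      (fun v h => by rcases hv v h with e | e <;> rw [e] <;> simp) hz
    have b2 := cn_cf (β := -k) (γ := 1)
      (fun v h => by rcases hv v h with e | e <;> rw [e] <;> simp) hz
    rw [ez] at b0 b1 b2
    push_cast at e2
    have i1 : (k : ℝ) < m + 1 := by nlinarith
    have i2 : (m : ℝ) < k := by nlinarith
    have j1 : k < m + 1 := by exact_mod_cast i1
    have j2 : m < k := by exact_mod_cast i2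
    omega
  · have b1 := cn_cf (β := 0) (γ := -1)
      (fun v h => by rcases hv v h with e | e <;> rw [e] <;> push_cast <;> linarith) hz
    push_cast at e2
    nlinarith

lemma ev_lift {S : Finset C} {c : C} {x : C → ℝ} {a : C → ℤ} {l : List (C → ℤ)} {m : ℕ} {θ : ℝ}
    (t1 : θ < 1) (hx : x c = m + θ) {a0 : ℝ} (h0 : 1 - θ < a0) {z : ℝ × (C → ℝ)} (hz : z ∈ cn S l)
    (e : wS S x = a0 • (wS S fun c => a c) + z) :
    wS (insert c S) x ∈ cn (insert c S) (st c (1 * m) a ::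
      st c (1 * (m + 1 : ℕ)) a :: l.map (st c (1 * (m + 1 : ℕ)))) := by
  refine (cn_cons _ _ _ _).mpr ⟨1 - θ, by linarith, _,
    (cn_cons _ _ _ _).mpr ⟨a0 - (1 - θ), by linarith, lft c (m + 1) z, ?_, rfl⟩, ?_⟩
  · refine cone_map (lft c (m + 1)) ?_ hz
    rintro _ ⟨v, hv, rfl⟩
    rw [lft_wS _ _ (fun c' => st c (1 * (m + 1 : ℕ)) v c') (by simp [st])
      (fun c' h => by simp [st, h])]
    exact Submodule.subset_span ⟨_, List.mem_map.mpr ⟨v, hv, rfl⟩, rfl⟩
  · have e1 := congrArg Prod.fst e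
    simp only [wS, Prod.fst_add, Prod.smul_fst, smul_eq_mul, mul_one] at e1
    ext c'
    · simp [wS, lft]; linarith
    · by_cases h : c' = c
      · subst h
        have : z.1 = 1 - a0 := by linarith
        simp [wS, lft, st, hx, this]
        ring
      · have e2 := congrFun (congrArg Prod.snd e) c'
        by_cases h' : c' ∈ S
        · simp [wS, lft, st, h, h'] at e2 ⊢
          linarith
        · simp [wS, lft, st, h, h'] at e2 ⊢
          linarith

theorem TT_eta (hS : ∀ c, ∀ s ∈ Sg c, s = 1 ∨ s = -1) (h1 : ∀ c, 1 ∈ Sg c) (m : C → ℕ)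
    (θ x : C → ℝ) (hx : ∀ c, x c = m c + θ c) (cs : List C) (hnd : cs.Nodup)
    (hθ : ∀ c ∈ cs, 0 < θ c ∧ θ c < 1 ∧ m c < M c)
    (hso : cs.Pairwise fun c c' => θ c < θ c') (S : Finset C) (hd : ∀ c ∈ cs, c ∉ S)
    (a : C → ℤ) (l : List (C → ℤ)) (μ : ℝ) (hμ : ∀ c ∈ cs, 1 - θ c < μ)
    (FW : ∀ a0 : ℝ, 0 ≤ a0 → ∀ z ∈ cn S l, wS S x = a0 • (wS S fun c => a c) + z → μ ≤ a0) :
    TT M Sg cs (eta x (S ∪ cs.toFinset)) (a :: l) = eta x S (a :: l) := by
  induction cs generalizing S a l μ with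
  | nil => simp [TT]
  | cons c cs ih =>
    classical
    rw [List.nodup_cons] at hnd
    rw [List.pairwise_cons] at hso
    have hc : c ∉ S := hd c (by simp)
    obtain ⟨t0, t1, tm⟩ := hθ c (by simp)
    have hμc := hμ c (by simp)
    have ih' := fun a l μ => ih hnd.2 (fun c' h => hθ c' (List.mem_cons_of_mem _ h)) hso.2
      (insert c S) (fun c' h => by
        rw [Finset.mem_insert, not_or]
        exact ⟨fun e => hnd.1 (e ▸ h), hd c' (List.mem_cons_of_mem _ h)⟩) a l μ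
    have eS : S ∪ (c :: cs).toFinset = insert c S ∪ cs.toFinset := by ext; simp
    have term : ∀ s ∈ Sg c, ∀ k : ℕ,
        pr (st c (s * k)) (st c (s * (k + 1 : ℕ)))
          (TT M Sg cs (eta x (insert c S ∪ cs.toFinset))) (a :: l) =
        if s = 1 then if k = m c then eta x S (a :: l) else 0 else 0 := by
      intro s hs k
      change pr0 _ _ _ _ = _
      rw [pr0, pr0_vanish, add_zero]
      · rw [ih' _ _ (1 - θ c) (fun c' h => by linarith [hso.1 c' h])
          (fun a0 h0 z hz e => (ev_first (hS c s hs) t0 t1 (hx c) h0 hz e).2.2.ge)]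
        have iff : wS (insert c S) x ∈ cn (insert c S) (st c (s * k) a ::
            st c (s * (k + 1 : ℕ)) a :: l.map (st c (s * (k + 1 : ℕ)))) ↔
            s = 1 ∧ k = m c ∧ wS S x ∈ cn S (a :: l) := by
          constructor
          · intro h
            obtain ⟨a0, h0, z, hz, e⟩ := (cn_cons _ _ _ _).mp h
            obtain ⟨f1, f2, -⟩ := ev_first (hS c s hs) t0 t1 (hx c) h0 hz e
            refine ⟨f1, f2, ?_⟩
            rw [← prj_wS hc]
            refine cn_prj hc (α := s * k) (β := s * (k + 1 : ℕ)) ?_ h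
            intro v hv
            simp only [List.mem_cons, List.mem_map] at hv
            rcases hv with rfl | rfl | ⟨y, hy, rfl⟩
            · exact ⟨a, by simp, Or.inl rfl⟩
            · exact ⟨a, by simp, Or.inr rfl⟩
            · exact ⟨y, List.mem_cons_of_mem _ hy, Or.inr rfl⟩
          · rintro ⟨rfl, rfl, h⟩
            obtain ⟨a0, h0, z, hz, e⟩ := (cn_cons _ _ _ _).mp h
            exact ev_lift t1 (hx c) (hμc.trans_le (FW a0 h0 z hz e)) hz e
        unfold eta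
        simp only [iff]
        by_cases q1 : s = 1 <;> by_cases q2 : k = m c <;> simp [q1, q2]
      · intro l' hl' H
        rw [ih' _ _ μ (fun c' h => hμ c' (List.mem_cons_of_mem _ h))
          (fun a0 h0 z hz e => by
            obtain ⟨d1, d2⟩ := ev_down hc H hz e
            exact FW a0 h0 _ d1 d2)]
        unfold eta
        rw [if_neg]
        intro h
        obtain ⟨a0, h0, z, hz, e⟩ := (cn_cons _ _ _ _).mp h
        obtain ⟨d1, d2⟩ := ev_down hc H hz e
        exact ev_second (hS c s hs) t0 t1 (hx c) H (hμc.trans_le (FW a0 h0 _ d1 d2)) hz e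
    rw [eS]
    simp only [TT, AddMonoidHom.comp_apply, Ic, Ih, AddMonoidHom.finset_sum_apply,
      Finset.sum_apply]
    rw [Finset.sum_congr rfl fun s hs => Finset.sum_congr rfl fun k _ => term s hs k]
    simp [Finset.sum_ite_eq', h1 c, tm]

end ev

open Classical in
lemma two_good {E : Type*} [AddCommGroup E] [Module ℝ E] [FiniteDimensional ℝ E] {N : ℕ}
    (hN : N = Module.finrank ℝ E + 2) (u : Fin N → E)
    (gen : ∀ T : Finset (Fin N), T.card ≤ Module.finrank ℝ E → 0 ∉ convexHull ℝ (u '' T)) :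
    Even (Finset.univ.filter fun i : Fin N =>
      (0 : E) ∈ convexHull ℝ (u '' (Finset.univ.erase i : Finset _))).card := by
  have good : ∀ i, (0 : E) ∈ convexHull ℝ (u '' (Finset.univ.erase i : Finset _)) ↔
      ∃ w : Fin N → ℝ, (∀ k, 0 ≤ w k) ∧ w i = 0 ∧ w ≠ 0 ∧ ∑ k, w k • u k = 0 := by
    intro i
    rw [hull_iff]
    constructor
    · rintro ⟨w, h1, h2, h3⟩
      refine ⟨Function.update w i 0, fun k => ?_, by simp, fun h => ?_, ?_⟩
      · by_cases h : k = i
        · subst h; simp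
        · simp [h, h1 k]
      · have : ∑ k ∈ Finset.univ.erase i, w k = 0 := Finset.sum_eq_zero fun k hk => by
          have := congrFun h k
          simpa [(Finset.mem_erase.mp hk).1] using this
        linarith
      · rw [← Finset.sum_erase_add _ _ (Finset.mem_univ i), ← h3]
        simp only [Function.update_self, zero_smul, add_zero]
        exact Finset.sum_congr rfl fun k hk => by simp [(Finset.mem_erase.mp hk).1]
    · rintro ⟨w, h1, h2, h3, h4⟩
      have hp : 0 < ∑ k, w k := by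
        obtain ⟨k, hk⟩ := Function.ne_iff.mp h3
        exact Finset.sum_pos' (fun k _ => h1 k) ⟨k, Finset.mem_univ _, (h1 k).lt_of_ne' hk⟩
      refine ⟨fun k => (∑ k, w k)⁻¹ * w k, fun k => mul_nonneg (inv_pos.mpr hp).le (h1 k), ?_, ?_⟩
      · rw [Finset.sum_erase _ (by simp [h2]), ← Finset.mul_sum, inv_mul_cancel₀ hp.ne']
      · rw [Finset.sum_erase _ (by simp [h2])]
        simp only [mul_smul, ← Finset.smul_sum, h4, smul_zero]
  have gen2 : ∀ (w : Fin N → ℝ) (i j : Fin N), i ≠ j → (∀ k, 0 ≤ w k) → w i = 0 → w j = 0 →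
      ∑ k, w k • u k = 0 → w = 0 := by
    intro w i j hij h1 h2 h3 h4
    by_contra h
    have hp : 0 < ∑ k, w k := by
      obtain ⟨k, hk⟩ := Function.ne_iff.mp h
      exact Finset.sum_pos' (fun k _ => h1 k) ⟨k, Finset.mem_univ _, (h1 k).lt_of_ne' hk⟩
    refine gen ((Finset.univ.erase i).erase j) ?_ ((hull_iff _ _ _).mpr
      ⟨fun k => (∑ k, w k)⁻¹ * w k, fun k => mul_nonneg (inv_pos.mpr hp).le (h1 k), ?_, ?_⟩)
    · rw [Finset.card_erase_of_mem (by simp [hij.symm]), Finset.card_erase_of_mem (by simp)]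
      simp [hN]
    · rw [Finset.sum_erase _ (by simp [h3]), Finset.sum_erase _ (by simp [h2]), ← Finset.mul_sum,
        inv_mul_cancel₀ hp.ne']
    · rw [Finset.sum_erase _ (by simp [h3]), Finset.sum_erase _ (by simp [h2])]
      simp only [mul_smul, ← Finset.smul_sum, h4, smul_zero]
  simp only [good]
  by_cases hex : ∃ i, ∃ w : Fin N → ℝ, (∀ k, 0 ≤ w k) ∧ w i = 0 ∧ w ≠ 0 ∧ ∑ k, w k • u k = 0
  swap
  · rw [Finset.filter_eq_empty_iff.mpr fun i _ h => hex ⟨i, h⟩]; simp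
  obtain ⟨i, w, w1, w2, w3, w4⟩ := hex
  have wpos : ∀ k, k ≠ i → 0 < w k := fun k hk =>
    (w1 k).lt_of_ne' fun h => w3 (gen2 w i k hk.symm w1 w2 h w4)
  have hne : (Finset.univ.erase i).Nonempty := by
    rw [← Finset.card_pos, Finset.card_erase_of_mem (by simp)]; simp [hN]
  have shift : ∀ μ : Fin N → ℝ, 0 ≤ μ i → ∑ k, μ k • u k = 0 → ∃ j, j ≠ i ∧ ∃ s : ℝ,
      (∀ k, 0 ≤ μ k + s * w k) ∧ μ j + s * w j = 0 ∧ ∑ k, (μ k + s * w k) • u k = 0 := by
    intro μ h0 h1
    obtain ⟨j, hj, hmax⟩ := Finset.exists_max_image _ (fun k => -μ k / w k) hne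
    have hj' := (Finset.mem_erase.mp hj).1
    refine ⟨j, hj', -μ j / w j, fun k => ?_, ?_, ?_⟩
    · by_cases hk : k = i
      · rw [hk, w2]; simpa using h0
      · have := hmax k (by simp [hk])
        rw [div_le_iff₀ (wpos k hk)] at this; linarith
    · have := wpos j hj'; field_simp; ring
    · simp only [add_smul, mul_smul, Finset.sum_add_distrib, ← Finset.smul_sum, h1, w4]; simp
  have uniq : ∀ μ : Fin N → ℝ, μ i = 0 → ∑ k, μ k • u k = 0 → ∃ s : ℝ, ∀ k, μ k + s * w k = 0 := by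
    intro μ h0 h1
    obtain ⟨j, hj, s, a1, a2, a3⟩ := shift μ h0.ge h1
    exact ⟨s, congrFun (gen2 _ i j hj.symm a1 (by simp [h0, w2]) a2 a3)⟩
  obtain ⟨k0, hk0⟩ := hne
  have hk0' := (Finset.mem_erase.mp hk0).1
  obtain ⟨μ, m1, m2⟩ : ∃ μ : Fin N → ℝ, μ i = 1 ∧ ∑ k, μ k • u k = 0 := by
    have hdep : ¬ LinearIndependent ℝ fun k : (Finset.univ.erase k0 : Finset _) => u k := by
      intro h
      have := h.fintype_card_le_finrank
      simp [hN] at this
    obtain ⟨g, g1, k1, g2⟩ := Fintype.not_linearIndependent_iff.mp hdep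
    set ν : Fin N → ℝ := fun k => if h : k ∈ Finset.univ.erase k0 then g ⟨k, h⟩ else 0 with hν
    have n0 : ν k0 = 0 := by simp [hν]
    have n1 : ∑ k, ν k • u k = 0 := by
      rw [← Finset.sum_erase (a := k0) _ (by simp [n0]), ← Finset.sum_coe_sort, ← g1]
      exact Finset.sum_congr rfl fun k _ => by simp only [hν, k.2, dif_pos]
    have n2 : ν i ≠ 0 := by
      intro h
      obtain ⟨s, hs⟩ := uniq ν h n1
      have := hs k0
      rw [n0, zero_add] at this
      have s0 : s = 0 := (mul_eq_zero.mp this).resolve_right (wpos k0 hk0').ne'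
      have := hs k1
      simp only [s0, zero_mul, add_zero, hν, k1.2, dif_pos] at this
      exact g2 this
    exact ⟨fun k => (ν i)⁻¹ * ν k, inv_mul_cancel₀ n2,
      by simp only [mul_smul, ← Finset.smul_sum, n1, smul_zero]⟩
  obtain ⟨j, hj, s, a1, a2, a3⟩ := shift μ (by rw [m1]; norm_num) m2
  have ai : μ i + s * w i = 1 := by rw [m1, w2]; ring
  have : (Finset.univ.filter fun i : Fin N => ∃ w : Fin N → ℝ, (∀ k, 0 ≤ w k) ∧ w i = 0 ∧ w ≠ 0 ∧
      ∑ k, w k • u k = 0) = {i, j} := by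
    ext j'
    simp only [Finset.mem_filter, Finset.mem_univ, true_and, Finset.mem_insert,
      Finset.mem_singleton]
    constructor
    · rintro ⟨ν, n1, n2, n3, n4⟩
      by_contra hc
      push Not at hc
      have ni : 0 < ν i := (n1 i).lt_of_ne' fun h => n3 (gen2 ν i j' hc.1.symm n1 h n2 n4)
      obtain ⟨t, ht⟩ := uniq (fun k => ν k - ν i * (μ k + s * w k)) (by simp only [ai]; ring)
        (by simp only [sub_smul, mul_smul, Finset.sum_sub_distrib, ← Finset.smul_sum, n4, a3]; simp)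
      have t1 := ht j
      have t2 := ht j'
      simp only [a2, n2] at t1 t2
      have p1 := wpos j hj
      have p2 := wpos j' hc.1
      have p3 := mul_nonneg ni.le (a1 j')
      have t0 : t = 0 := by nlinarith [n1 j]
      rw [t0] at t1
      exact n3 (gen2 ν j j' (Ne.symm hc.2) n1 (by linarith) n2 n4)
    · rintro (rfl | rfl)
      · exact ⟨w, w1, w2, w3, w4⟩
      · exact ⟨_, a1, a2, fun h => by simpa [ai] using congrFun h i, a3⟩
  rw [this, Finset.card_pair hj.symm]; exact even_two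

end Vale.Agent.P371
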