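import Mathlib

/-! Functional calculus for real symmetric matrices: continuity and derivative. -/

namespace Vale.Agent.P371

open Matrix Filter Topology Finset

variable {n : Type*} [Fintype n] [DecidableEq n]

structure Spec (M O : Matrix n n ℝ) (d : n → ℝ) : Prop where
  oo : Oᵀ * O = 1
  eq : M = O * diagonal d * Oᵀ

lemma Spec.oo' {M O : Matrix n n ℝ} {d : n → ℝ} (h : Spec M O d) : O * Oᵀ = 1 :=
  mul_eq_one_comm.mp h.oo

lemma exists_spec {M : Matrix n n ℝ} (h : Mᵀ = M) : ∃ O d, Spec M O d := by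
  have hM : M.IsHermitian := by
    unfold Matrix.IsHermitian; rw [conjTranspose_eq_transpose_of_trivial]; exact h
  refine ⟨(hM.eigenvectorUnitary : Matrix n n ℝ), hM.eigenvalues, ?_, ?_⟩
  · have := (Matrix.mem_unitaryGroup_iff' (A := (hM.eigenvectorUnitary : Matrix n n ℝ))).mp
      hM.eigenvectorUnitary.2
    rwa [star_eq_conjTranspose, conjTranspose_eq_transpose_of_trivial] at this
  · have := hM.spectral_theorem
    rw [Unitary.conjStarAlgAut_apply, star_eq_conjTranspose,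
      conjTranspose_eq_transpose_of_trivial] at this
    simpa using this

lemma Spec.symm {M O : Matrix n n ℝ} {d : n → ℝ} (h : Spec M O d) : Mᵀ = M := by
  rw [h.eq]; simp [transpose_mul, Matrix.mul_assoc]

lemma Spec.conj {M O : Matrix n n ℝ} {d : n → ℝ} (h : Spec M O d) : Oᵀ * M * O = diagonal d := by
  rw [h.eq]
  calc _ = (Oᵀ * O) * diagonal d * (Oᵀ * O) := by simp only [Matrix.mul_assoc]
    _ = _ := by rw [h.oo]; simp

lemma Spec.mul_O {M O : Matrix n n ℝ} {d : n → ℝ} (h : Spec M O d) : M * O = O * diagonal d := by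
  rw [h.eq]; simp only [Matrix.mul_assoc]; rw [h.oo]; simp

lemma Spec.O_mul {M O : Matrix n n ℝ} {d : n → ℝ} (h : Spec M O d) :
    Oᵀ * M = diagonal d * Oᵀ := by
  rw [h.eq]; simp only [← Matrix.mul_assoc]; rw [h.oo]; simp

lemma Spec.two {M O M' O' : Matrix n n ℝ} {d d' : n → ℝ} (h : Spec M O d) (h' : Spec M' O' d')
    (i j : n) : (Oᵀ * (M - M') * O') i j = (d i - d' j) * (Oᵀ * O') i j := by
  rw [Matrix.mul_sub, Matrix.sub_mul, h.O_mul, Matrix.mul_assoc Oᵀ M', h'.mul_O,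
    Matrix.mul_assoc, ← Matrix.mul_assoc Oᵀ, Matrix.sub_apply, diagonal_mul, mul_diagonal]
  ring

open Classical in
noncomputable def fc (f : ℝ → ℝ) (M : Matrix n n ℝ) : Matrix n n ℝ :=
  if h : ∃ p : Matrix n n ℝ × (n → ℝ), Spec M p.1 p.2 then
    h.choose.1 * diagonal (fun i => f (h.choose.2 i)) * h.choose.1ᵀ else 0

lemma Spec.fc {M O : Matrix n n ℝ} {d : n → ℝ} (h : Spec M O d) (f : ℝ → ℝ) :
    Spec (fc f M) O (fun i => f (d i)) := by
  have hex : ∃ p : Matrix n n ℝ × (n → ℝ), Spec M p.1 p.2 := ⟨(O, d), h⟩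
  refine ⟨h.oo, ?_⟩
  have h1 := hex.choose_spec
  set O1 := hex.choose.1
  set d1 := hex.choose.2
  have e : P371.fc f M = O1 * diagonal (fun i => f (d1 i)) * O1ᵀ := by
    unfold P371.fc; rw [dif_pos hex]
  have hs1 : Spec (P371.fc f M) O1 (fun i => f (d1 i)) := ⟨h1.oo, e⟩
  have hs2 : Spec (O * diagonal (fun i => f (d i)) * Oᵀ) O (fun i => f (d i)) := ⟨h.oo, rfl⟩
  have hz : O1ᵀ * (P371.fc f M - O * diagonal (fun i => f (d i)) * Oᵀ) * O = 0 := by
    ext i j
    rw [hs1.two hs2]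
    have := h1.two h i j
    simp only [sub_self, Matrix.mul_zero, Matrix.zero_mul, Matrix.zero_apply] at this
    rcases mul_eq_zero.mp this.symm with h0 | h0
    · rw [sub_eq_zero.mp h0]; simp
    · rw [h0]; simp
  have : O1 * (O1ᵀ * (P371.fc f M - O * diagonal (fun i => f (d i)) * Oᵀ) * O) * Oᵀ = 0 := by
    rw [hz]; simp
  rw [← Matrix.mul_assoc, ← Matrix.mul_assoc, h1.oo', Matrix.one_mul, Matrix.mul_assoc, h.oo',
    Matrix.mul_one] at this
  exact sub_eq_zero.mp this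

lemma Spec.trace_mul {M O : Matrix n n ℝ} {d : n → ℝ} (h : Spec M O d) (N : Matrix n n ℝ) :
    trace (M * N) = ∑ i, d i * (Oᵀ * N * O) i i := by
  rw [h.eq, Matrix.mul_assoc, Matrix.mul_assoc, trace_mul_comm, Matrix.mul_assoc]
  simp [trace, diagonal_mul, Matrix.mul_assoc]

lemma Spec.trace {M O : Matrix n n ℝ} {d : n → ℝ} (h : Spec M O d) : trace M = ∑ i, d i := by
  have := h.trace_mul 1
  simpa [h.oo] using this

lemma Spec.trace_two {M O M' O' : Matrix n n ℝ} {d d' : n → ℝ} (h : Spec M O d)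
    (h' : Spec M' O' d') :
    Matrix.trace (M * M') = ∑ i, ∑ j, d i * d' j * (Oᵀ * O') i j ^ 2 := by
  rw [h.trace_mul]
  refine Finset.sum_congr rfl fun i _ => ?_
  have : Oᵀ * M' * O = (Oᵀ * O') * diagonal d' * (Oᵀ * O')ᵀ := by
    rw [h'.eq]; simp [Matrix.mul_assoc]
  rw [this, Matrix.mul_apply, Finset.mul_sum]
  refine Finset.sum_congr rfl fun j _ => ?_
  rw [mul_diagonal, transpose_apply]; ring

lemma row_sq {U : Matrix n n ℝ} (h : U * Uᵀ = 1) (i : n) : ∑ j, U i j ^ 2 = 1 := by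
  have := congrFun (congrFun h i) i
  simpa [Matrix.mul_apply, sq] using this

lemma col_sq {U : Matrix n n ℝ} (h : Uᵀ * U = 1) (j : n) : ∑ i, U i j ^ 2 = 1 := by
  have := congrFun (congrFun h j) j
  simpa [Matrix.mul_apply, sq] using this

lemma orth_two {O O' : Matrix n n ℝ} (h : Oᵀ * O = 1) (h' : O'ᵀ * O' = 1) :
    (Oᵀ * O') * (Oᵀ * O')ᵀ = 1 := by
  rw [transpose_mul, transpose_transpose, Matrix.mul_assoc, ← Matrix.mul_assoc O',
    mul_eq_one_comm.mp h', Matrix.one_mul, h]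

def hs (X : Matrix n n ℝ) : ℝ := ∑ i, ∑ j, X i j ^ 2

omit [DecidableEq n] in
lemma hs_eq (X : Matrix n n ℝ) : hs X = trace (X * Xᵀ) := by
  simp [hs, trace, Matrix.mul_apply, sq]

lemma hs_conj {O O' : Matrix n n ℝ} (h : Oᵀ * O = 1) (h' : O'ᵀ * O' = 1) (X : Matrix n n ℝ) :
    hs (Oᵀ * X * O') = hs X := by
  rw [hs_eq, hs_eq]
  simp only [transpose_mul, transpose_transpose, Matrix.mul_assoc]
  rw [← Matrix.mul_assoc O', mul_eq_one_comm.mp h', Matrix.one_mul, trace_mul_comm]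
  simp only [Matrix.mul_assoc]
  rw [mul_eq_one_comm.mp h, Matrix.mul_one]

omit [DecidableEq n] in
lemma sq_le_hs (X : Matrix n n ℝ) (i j : n) : X i j ^ 2 ≤ hs X := by
  refine le_trans ?_ (Finset.single_le_sum (f := fun i => ∑ j, X i j ^ 2)
    (fun i _ => Finset.sum_nonneg fun j _ => sq_nonneg _) (Finset.mem_univ i))
  exact Finset.single_le_sum (f := fun j => X i j ^ 2) (fun j _ => sq_nonneg _) (Finset.mem_univ j)

omit [DecidableEq n] in
lemma hs_nonneg (X : Matrix n n ℝ) : 0 ≤ hs X :=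
  Finset.sum_nonneg fun _ _ => Finset.sum_nonneg fun _ _ => sq_nonneg _

lemma Spec.hs_sub {M O M' O' : Matrix n n ℝ} {d d' : n → ℝ} (h : Spec M O d)
    (h' : Spec M' O' d') : hs (M - M') = ∑ i, ∑ j, (d i - d' j) ^ 2 * (Oᵀ * O') i j ^ 2 := by
  rw [← hs_conj h.oo h'.oo, hs]
  simp only [h.two h', mul_pow]

omit [DecidableEq n] in
lemma continuous_hs : Continuous (hs : Matrix n n ℝ → ℝ) := by
  unfold hs; fun_prop

theorem fc_tendsto {α : Type*} {l : Filter α} {A : α → Matrix n n ℝ} {A0 O : Matrix n n ℝ}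
    {d : n → ℝ} (h0 : Spec A0 O d) (hA : Tendsto A l (𝓝 A0)) (hs' : ∀ᶠ a in l, (A a)ᵀ = A a)
    {f : ℝ → ℝ} (hf : ∀ k, ContinuousAt f (d k)) :
    Tendsto (fun a => fc f (A a)) l (𝓝 (fc f A0)) := by
  have hd : Tendsto (fun a => hs (A a - A0)) l (𝓝 0) := by
    have : Tendsto (fun a => A a - A0) l (𝓝 (A0 - A0)) := hA.sub tendsto_const_nhds
    have h2 := (continuous_hs.tendsto _).comp this
    simpa [hs, Function.comp_def] using h2
  have key : ∀ ε : ℝ, 0 < ε → ε ≤ 1 → ∀ᶠ a in l,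
      hs (fc f (A a) - fc f A0) ≤ (Fintype.card n + 1) * ε ^ 2 := by
    intro ε hε hε1
    have hδ : ∀ᶠ δ in 𝓝[>] (0 : ℝ), ∀ k x, |x - d k| < δ → |f x - f (d k)| < ε := by
      rw [eventually_all]
      intro k
      obtain ⟨δ, hδ, H⟩ := Metric.continuousAt_iff.mp (hf k) ε hε
      filter_upwards [Ioo_mem_nhdsGT hδ] with δ' hδ' x hx
      exact H (lt_trans hx hδ'.2)
    obtain ⟨δ, hδ, hδ0⟩ := (hδ.and self_mem_nhdsWithin).exists
    have hδ0 : 0 < δ := hδ0
    set C : ℝ := ∑ k, |f (d k)| with hC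
    have hCk : ∀ k, |f (d k)| ≤ C := fun k =>
      Finset.single_le_sum (f := fun k => |f (d k)|) (fun _ _ => abs_nonneg _) (Finset.mem_univ k)
    have hC0 : 0 ≤ C := Finset.sum_nonneg fun _ _ => abs_nonneg _
    set D : ℝ := (1 + 2 * C) ^ 2 / δ ^ 2 with hD
    have hD0 : 0 < D := by positivity
    filter_upwards [hs', hd.eventually (gt_mem_nhds (show (0 : ℝ) < δ ^ 2 by positivity)),
      hd.eventually (gt_mem_nhds (show (0 : ℝ) < ε ^ 2 / D by positivity))] with a ha h1 h2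
    obtain ⟨O', d', h'⟩ := exists_spec ha
    have hU := row_sq (orth_two h'.oo h0.oo)
    rw [h'.hs_sub h0] at h1 h2
    have hnear : ∀ j, ∃ k, |d' j - d k| < δ := by
      intro j
      by_contra hc
      push Not at hc
      have : δ ^ 2 ≤ ∑ k, (d' j - d k) ^ 2 * (O'ᵀ * O) j k ^ 2 := by
        calc δ ^ 2 = ∑ k, δ ^ 2 * (O'ᵀ * O) j k ^ 2 := by rw [← Finset.mul_sum, hU, mul_one]
          _ ≤ _ := Finset.sum_le_sum fun k _ => by
              have := hc k
              have h3 : δ ^ 2 ≤ (d' j - d k) ^ 2 := by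
                rw [← sq_abs (d' j - d k)]; exact pow_le_pow_left₀ hδ0.le this 2
              exact mul_le_mul_of_nonneg_right h3 (sq_nonneg _)
      have h4 := Finset.single_le_sum
        (f := fun j => ∑ k, (d' j - d k) ^ 2 * (O'ᵀ * O) j k ^ 2)
        (fun _ _ => Finset.sum_nonneg fun _ _ => by positivity) (Finset.mem_univ j)
      linarith
    have hpt : ∀ j k, (f (d' j) - f (d k)) ^ 2 ≤ ε ^ 2 + D * (d' j - d k) ^ 2 := by
      intro j k
      by_cases hc : |d' j - d k| < δ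
      · have := hδ k _ hc
        have h3 : (f (d' j) - f (d k)) ^ 2 ≤ ε ^ 2 := by
          rw [← sq_abs]; exact pow_le_pow_left₀ (abs_nonneg _) this.le 2
        have : 0 ≤ D * (d' j - d k) ^ 2 := by positivity
        linarith
      · push Not at hc
        obtain ⟨k', hk'⟩ := hnear j
        have h3 := hδ k' _ hk'
        have h4 : |f (d' j) - f (d k)| ≤ 1 + 2 * C := by
          have e1 := hCk k
          have e2 := hCk k'
          rw [abs_le] at *
          rw [abs_lt] at h3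
          constructor <;> linarith [e1.1, e1.2, e2.1, e2.2, h3.1, h3.2]
        have h5 : (f (d' j) - f (d k)) ^ 2 ≤ (1 + 2 * C) ^ 2 := by
          rw [← sq_abs]; exact pow_le_pow_left₀ (abs_nonneg _) h4 2
        have h6 : δ ^ 2 ≤ (d' j - d k) ^ 2 := by
          rw [← sq_abs (d' j - d k)]; exact pow_le_pow_left₀ hδ0.le hc 2
        have h7 : (1 + 2 * C) ^ 2 = D * δ ^ 2 := by rw [hD]; field_simp
        have := mul_le_mul_of_nonneg_left h6 hD0.le
        nlinarith [sq_nonneg ε]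
    rw [(h'.fc f).hs_sub (h0.fc f)]
    have h8 : D * ∑ j, ∑ k, (d' j - d k) ^ 2 * (O'ᵀ * O) j k ^ 2 ≤ ε ^ 2 := by
      rw [lt_div_iff₀ hD0] at h2; linarith
    calc _ ≤ ∑ j, ∑ k, (ε ^ 2 + D * (d' j - d k) ^ 2) * (O'ᵀ * O) j k ^ 2 :=
          Finset.sum_le_sum fun j _ => Finset.sum_le_sum fun k _ =>
            mul_le_mul_of_nonneg_right (hpt j k) (sq_nonneg _)
      _ = ∑ j, ε ^ 2 * ∑ k, (O'ᵀ * O) j k ^ 2 +
            D * ∑ j, ∑ k, (d' j - d k) ^ 2 * (O'ᵀ * O) j k ^ 2 := by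
          simp only [add_mul, Finset.sum_add_distrib, Finset.mul_sum, mul_assoc]
      _ ≤ _ := by
          simp only [hU, mul_one, Finset.sum_const, Finset.card_univ, nsmul_eq_mul]
          linarith
  have key2 : Tendsto (fun a => hs (fc f (A a) - fc f A0)) l (𝓝 0) := by
    rw [Metric.tendsto_nhds]
    intro ε hε
    have hN : (0 : ℝ) < Fintype.card n + 1 := by positivity
    set η : ℝ := min 1 (ε / (2 * (Fintype.card n + 1))) with hη
    have hη0 : 0 < η := lt_min one_pos (by positivity)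
    have hη1 : η ≤ 1 := min_le_left _ _
    have hη2 : η ≤ ε / (2 * (Fintype.card n + 1)) := min_le_right _ _
    filter_upwards [key η hη0 hη1] with a ha
    rw [Real.dist_eq, sub_zero, abs_of_nonneg (hs_nonneg _)]
    rw [le_div_iff₀ (by positivity)] at hη2
    nlinarith
  refine tendsto_pi_nhds.mpr fun i => tendsto_pi_nhds.mpr fun j => ?_
  rw [tendsto_iff_norm_sub_tendsto_zero]
  have h3 := key2.sqrt
  rw [Real.sqrt_zero] at h3
  refine squeeze_zero (fun _ => norm_nonneg _) (fun a => ?_) h3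
  rw [Real.norm_eq_abs]
  exact Real.abs_le_sqrt (sq_le_hs (fc f (A a) - fc f A0) i j)

theorem fc_continuous {X : Type*} [TopologicalSpace X] {A : X → Matrix n n ℝ} (hA : Continuous A)
    (hs' : ∀ a, (A a)ᵀ = A a) {f : ℝ → ℝ} (hf : Continuous f) :
    Continuous fun a => fc f (A a) := by
  refine continuous_iff_continuousAt.mpr fun x => ?_
  obtain ⟨O, d, h⟩ := exists_spec (hs' x)
  exact fc_tendsto h hA.continuousAt (Eventually.of_forall hs') fun _ => hf.continuousAt

/-- Daleckii-Krein -/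
theorem fc_hasDerivAt {A : ℝ → Matrix n n ℝ} {A' O : Matrix n n ℝ} {d : n → ℝ} {x : ℝ}
    (h0 : Spec (A x) O d) (hA : ∀ i j, HasDerivAt (fun y => A y i j) (A' i j) x)
    (hs' : ∀ᶠ y in 𝓝 x, (A y)ᵀ = A y) {f : ℝ → ℝ} (hf : Continuous f)
    (hf' : ∀ k, DifferentiableAt ℝ f (d k)) (i l : n) :
    HasDerivAt (fun y => (fc f (A y) * O) i l) ((fc (dslope f (d l)) (A x) * A' * O) i l) x := by
  have hAc : ContinuousAt A x :=
    continuousAt_pi.mpr fun i => continuousAt_pi.mpr fun j => (hA i j).continuousAt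
  have hφ : ∀ k, ContinuousAt (dslope f (d l)) (d k) := by
    intro k
    by_cases hk : d k = d l
    · rw [hk]; exact continuousAt_dslope_same.mpr (hf' l)
    · exact (continuousAt_dslope_of_ne hk).mpr hf.continuousAt
  have h1 : Tendsto (fun y => fc (dslope f (d l)) (A y)) (𝓝[≠] x)
      (𝓝 (fc (dslope f (d l)) (A x))) :=
    (fc_tendsto h0 hAc hs' hφ).mono_left nhdsWithin_le_nhds
  have h2 : Tendsto (fun y => (y - x)⁻¹ • (A y - A x)) (𝓝[≠] x) (𝓝 A') := by
    refine tendsto_pi_nhds.mpr fun i => tendsto_pi_nhds.mpr fun j => ?_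
    have := hasDerivAt_iff_tendsto_slope.mp (hA i j)
    refine this.congr fun y => ?_
    simp [slope]
  have h3 : Tendsto (fun y => (fc (dslope f (d l)) (A y) * ((y - x)⁻¹ • (A y - A x)) * O) i l)
      (𝓝[≠] x) (𝓝 ((fc (dslope f (d l)) (A x) * A' * O) i l)) := by
    have hc : Continuous fun p : Matrix n n ℝ × Matrix n n ℝ => (p.1 * p.2 * O) i l := by
      fun_prop
    have := (hc.tendsto (fc (dslope f (d l)) (A x), A')).comp (h1.prodMk_nhds h2)
    simpa only [Function.comp_def] using this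
  rw [hasDerivAt_iff_tendsto_slope]
  refine h3.congr' ?_
  filter_upwards [nhdsWithin_le_nhds hs'] with y hy
  obtain ⟨O', d', h'⟩ := exists_spec hy
  have e : ∀ j, (O'ᵀ * (fc (dslope f (d l)) (A y) * (A y - A x) * O)) j l =
      (O'ᵀ * ((fc f (A y) - fc f (A x)) * O)) j l := by
    intro j
    rw [← Matrix.mul_assoc O'ᵀ (fc f (A y) - fc f (A x)), (h'.fc f).two (h0.fc f),
      ← Matrix.mul_assoc, ← Matrix.mul_assoc, (h'.fc _).O_mul, Matrix.mul_assoc (diagonal _),
      Matrix.mul_assoc (diagonal _), diagonal_mul, h'.two h0, ← mul_assoc]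
    congr 1
    have := sub_smul_dslope f (d l) (d' j)
    rw [smul_eq_mul] at this
    rw [← this]; ring
  have e2 : (fc (dslope f (d l)) (A y) * (A y - A x) * O) i l =
      ((fc f (A y) - fc f (A x)) * O) i l := by
    have t : ∀ X : Matrix n n ℝ, X i l = ∑ j, O' i j * (O'ᵀ * X) j l := by
      intro X
      rw [← Matrix.mul_apply, ← Matrix.mul_assoc, h'.oo', Matrix.one_mul]
    rw [t (fc (dslope f (d l)) (A y) * (A y - A x) * O), t ((fc f (A y) - fc f (A x)) * O)]
    simp only [e]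
  rw [Matrix.mul_smul, Matrix.smul_mul, Matrix.smul_apply, e2, Matrix.sub_mul]
  simp [slope]

theorem trace_fc_mul_hasDerivAt {A M : ℝ → Matrix n n ℝ} {A' M' O : Matrix n n ℝ} {d : n → ℝ}
    {x : ℝ} (h0 : Spec (A x) O d) (hA : ∀ i j, HasDerivAt (fun y => A y i j) (A' i j) x)
    (hM : ∀ i j, HasDerivAt (fun y => M y i j) (M' i j) x)
    (hs' : ∀ᶠ y in 𝓝 x, (A y)ᵀ = A y) {f : ℝ → ℝ} (hf : Continuous f)
    (hf' : ∀ k, DifferentiableAt ℝ f (d k)) :
    HasDerivAt (fun y => trace (fc f (A y) * M y))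
      (∑ l, ∑ k, dslope f (d l) (d k) * ((Oᵀ * M x * O) l k * (Oᵀ * A' * O) k l) +
        trace (fc f (A x) * M')) x := by
  have e : ∀ X N : Matrix n n ℝ, trace (X * N) = ∑ l, ∑ i, (X * O) i l * (Oᵀ * N) l i := by
    intro X N
    have : X * N = (X * O) * (Oᵀ * N) := by
      rw [Matrix.mul_assoc, ← Matrix.mul_assoc O, h0.oo', Matrix.one_mul]
    rw [this, Finset.sum_comm]
    simp only [trace, diag_apply, Matrix.mul_apply (M := X * O)]
  have hM2 : ∀ l i, HasDerivAt (fun y => (Oᵀ * M y) l i) ((Oᵀ * M') l i) x := by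
    intro l i
    simp only [Matrix.mul_apply]
    exact HasDerivAt.fun_sum fun k _ => (hM k i).const_mul _
  simp only [e]
  have := HasDerivAt.fun_sum (u := Finset.univ) fun l _ => HasDerivAt.fun_sum (u := Finset.univ)
    fun i _ => (fc_hasDerivAt h0 hA hs' hf hf' i l).fun_mul (hM2 l i)
  refine this.congr_deriv (Eq.symm ?_)
  rw [← Finset.sum_add_distrib]
  refine Finset.sum_congr rfl fun l _ => ?_
  rw [Finset.sum_add_distrib]
  congr 1
  have e2 : ∑ i, (fc (dslope f (d l)) (A x) * A' * O) i l * (Oᵀ * M x) l i =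
      ((Oᵀ * M x) * (fc (dslope f (d l)) (A x) * A' * O)) l l := by
    rw [Matrix.mul_apply]; exact Finset.sum_congr rfl fun i _ => mul_comm _ _
  rw [e2, (h0.fc (dslope f (d l))).eq]
  have e3 : Oᵀ * M x * (O * diagonal (fun i => dslope f (d l) (d i)) * Oᵀ * A' * O) =
      (Oᵀ * M x * O) * (diagonal (fun i => dslope f (d l) (d i)) * (Oᵀ * A' * O)) := by
    simp only [Matrix.mul_assoc]
  rw [e3, Matrix.mul_apply]
  refine Finset.sum_congr rfl fun k _ => ?_
  rw [diagonal_mul]; ring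

theorem trace_fc_hasDerivAt {A : ℝ → Matrix n n ℝ} {A' O : Matrix n n ℝ} {d : n → ℝ}
    {x : ℝ} (h0 : Spec (A x) O d) (hA : ∀ i j, HasDerivAt (fun y => A y i j) (A' i j) x)
    (hs' : ∀ᶠ y in 𝓝 x, (A y)ᵀ = A y) {f g : ℝ → ℝ} (hf : Continuous f)
    (hf' : ∀ k, HasDerivAt f (g (d k)) (d k)) :
    HasDerivAt (fun y => trace (fc f (A y))) (trace (fc g (A x) * A')) x := by
  have := trace_fc_mul_hasDerivAt (M := fun _ => 1) (M' := 0) h0 hA
    (fun i j => hasDerivAt_const _ _) hs' hf fun k => (hf' k).differentiableAt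
  simp only [Matrix.mul_one, Matrix.mul_zero, trace_zero, add_zero, h0.oo] at this
  refine this.congr_deriv (Eq.symm ?_)
  rw [(h0.fc g).trace_mul]
  refine Finset.sum_congr rfl fun l _ => ?_
  rw [Finset.sum_eq_single l]
  · simp [(hf' l).deriv]
  · intro k _ hk; simp [Matrix.one_apply, Ne.symm hk]
  · simp

end Vale.Agent.P371
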