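import Vale.Agent.P371.Model

/-! Equivariant generic labelling. -/

namespace Vale.Agent.P371

open Finset

variable {ι ρ : Type*} [Fintype ι] [DecidableEq ι] [Fintype ρ] [LinearOrder ρ]

noncomputable def sgr (r : ι → ρ) (v : Option ι → ℤ) (j : ρ) : ℤ :=
  sg0 fun c => if r c = j then v (some c) else 0

noncomputable def nrm (r : ι → ρ) (v : Option ι → ℤ) : ι → ℤ := fun c => sgr r v (r c) * v (some c)

def tau (r col : ι → ρ) (e : ρ → ℤ) : (ι → ℝ) →ₗ[ℝ] (ι → ℝ) where
  toFun y := fun c => (e (r c) : ℝ) * e (col c) * y c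
  map_add' y y' := by funext c; simp; ring
  map_smul' a y := by funext c; simp; ring

def flp (r : ι → ρ) (e : ρ → ℤ) (v : Option ι → ℤ) : Option ι → ℤ
  | none => v none
  | some c => e (r c) * v (some c)

noncomputable def FF (r col : ι → ρ) (dg : ρ → ι) (M1 : ℕ) (θ : ι → ℝ) (f : (ι → ℝ) → ι → ℝ)
    (h : ℝ) (ξ : (ι → ℤ) → ι → ℝ) (v : Option ι → ℤ) : ι → ℝ :=
  if v none = 0 then f (fun c => h * v (some c)) + tau r col (sgr r v) (ξ (nrm r v))
  else Gm r col dg M1 θ v

def Free (r : ι → ρ) (v : Option ι → ℤ) : Prop := ∀ j, ∃ c, r c = j ∧ v (some c) ≠ 0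

omit [Fintype ι] [DecidableEq ι] [Fintype ρ] [LinearOrder ρ] in
lemma tau_tau (r col : ι → ρ) {e : ρ → ℤ} (he : ∀ j, e j = 1 ∨ e j = -1) (y : ι → ℝ) :
    tau r col e (tau r col e y) = y := by
  funext c
  rcases he (r c) with h1 | h1 <;> rcases he (col c) with h2 | h2 <;> simp [tau, h1, h2]

omit [Fintype ι] [DecidableEq ι] [Fintype ρ] in
lemma Free.pm {r : ι → ρ} {v : Option ι → ℤ} (h : Free r v) (j : ρ) :
    sgr r v j = 1 ∨ sgr r v j = -1 := by
  obtain ⟨c, h1, h2⟩ := h j
  refine sg0_pm fun e => h2 ?_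
  simpa [h1] using congrFun e c

omit [Fintype ι] [DecidableEq ι] [Fintype ρ] in
lemma sgr_flp (r : ι → ρ) {e : ρ → ℤ} (he : ∀ j, e j = 1 ∨ e j = -1) (v : Option ι → ℤ) (j : ρ) :
    sgr r (flp r e v) j = e j * sgr r v j := by
  unfold sgr
  rcases he j with h | h
  · rw [h, one_mul]; congr 1; funext c
    split_ifs with hc
    · simp [flp, hc, h]
    · rfl
  · rw [h, neg_one_mul, ← sg0_neg]; congr 1; funext c
    by_cases hc : r c = j <;> simp [flp, hc, h]

omit [Fintype ρ] in
lemma FF_flp {r col : ι → ρ} {dg : ρ → ι} (ht : Tri r col dg) (M1 : ℕ) (θ : ι → ℝ)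
    {f : (ι → ℝ) → ι → ℝ} (heq : ∀ e : ρ → ℤ, (∀ j, e j = 1 ∨ e j = -1) → ∀ x,
      f (fun c => e (r c) * x c) = fun c => (e (r c) : ℝ) * e (col c) * f x c)
    (h : ℝ) (ξ : (ι → ℤ) → ι → ℝ) {e : ρ → ℤ} (he : ∀ j, e j = 1 ∨ e j = -1) (v : Option ι → ℤ) :
    FF r col dg M1 θ f h ξ (flp r e v) = tau r col e (FF r col dg M1 θ f h ξ v) := by
  have e0 : flp r e v none = v none := rfl
  unfold FF
  rw [e0]
  split_ifs with h0
  · have e1 : nrm r (flp r e v) = nrm r v := by
      funext c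
      simp only [nrm, sgr_flp r he, flp]
      rcases he (r c) with h | h <;> simp [h]
    have e2 : (fun c => h * (flp r e v (some c) : ℝ)) =
        fun c => (e (r c) : ℝ) * (h * v (some c)) := by
      funext c; simp only [flp]; push_cast; ring
    rw [e1, e2, heq e he, map_add]
    congr 1
    funext c
    simp only [tau, sgr_flp r he, LinearMap.coe_mk, AddHom.coe_mk]; push_cast; ring
  · funext c
    simp only [tau, Gm, LinearMap.coe_mk, AddHom.coe_mk, flp, ht.hr]
    split_ifs with hc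
    · have : col c = r c := by rw [hc, ht.hc, ht.hr]
      rw [this]
      have e3 : ∀ c', |((e (r c') * v (some c') : ℤ) : ℝ)| = |(v (some c') : ℝ)| := fun c' => by
        rcases he (r c') with h | h <;> simp [h]
      simp only [e3]
      rcases he (r c) with h | h <;> simp [h]
    · rcases he (r c) with h1 | h1 <;> rcases he (col c) with h2 | h2 <;> simp [h1, h2] <;> ring

omit [Fintype ι] [Fintype ρ] in
lemma nrm_inj {r : ι → ρ} {dg : ρ → ι} {Mn : ℕ} {s : Finset (Option ι → ℤ)} (hs : InvF r dg Mn s)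
    {u v : Option ι → ℤ} (hu : u ∈ s) (hv : v ∈ s) (fu : Free r u) (fv : Free r v)
    (h0 : u none = v none) (h : nrm r u = nrm r v) : u = v := by
  funext o
  rcases o with _ | c
  · exact h0
  have e := congrFun h c
  simp only [nrm] at e
  have opp : sgr r u (r c) = -sgr r v (r c) → False := by
    intro ho
    obtain ⟨c', h1, h2⟩ := fv (r c)
    have e' := congrFun h c'
    simp only [nrm, h1, ho] at e'
    have hp := (hs u hu v hv (some c')).2.1
    have : u (some c') = -v (some c') := by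
      rcases fv.pm (r c) with h | h <;> rw [h] at e' <;> linarith
    rw [this] at hp
    exact h2 (by nlinarith)
  rcases fu.pm (r c) with h1 | h1 <;> rcases fv.pm (r c) with h2 | h2
  · rw [h1, h2] at e; linarith
  · exact (opp (by rw [h1, h2]; rfl)).elim
  · exact (opp (by rw [h1, h2])).elim
  · rw [h1, h2] at e; linarith

noncomputable def Box (ι : Type*) [Fintype ι] [DecidableEq ι] (Mn : ℕ) : Finset (Option ι → ℤ) :=
  Fintype.piFinset fun _ => Finset.Icc (-(Mn + 1 : ℤ)) (Mn + 1)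

omit [Fintype ρ] [LinearOrder ρ] in
lemma InvF.box {r : ι → ρ} {dg : ρ → ι} {Mn : ℕ} {s : Finset (Option ι → ℤ)} (hs : InvF r dg Mn s) :
    s ⊆ Box ι Mn := by
  intro v hv
  simp only [Box, Fintype.mem_piFinset, Finset.mem_Icc]
  intro c
  obtain ⟨s', h1, k, h2, e⟩ := (hs v hv v hv c).2.2
  have : k ≤ Mn + 1 := by rcases c with _ | c <;> simp only [MM] at h2 <;> omega
  rcases SG_pm r dg c s' h1 with rfl | rfl <;> omega

lemma span_ne_top {E V : Type*} [AddCommGroup E] [Module ℝ E] [DecidableEq E] (g : V → E)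
    {s : Finset V} (h : s.card < Module.finrank ℝ E) : Submodule.span ℝ (g '' s) ≠ ⊤ := by
  rw [← Finset.coe_image]
  refine (span_lt_top_of_card_lt_finrank ?_).ne
  rw [Finset.toFinset_coe]
  exact lt_of_le_of_lt Finset.card_image_le h

omit [Fintype ρ] [LinearOrder ρ] in
lemma exists_theta (Mn : ℕ) (m : ι → ℝ) : ∃ θ : ι → ℝ, (∀ c, 0 < θ c ∧ θ c < 1) ∧
    (∀ c c', Fintype.equivFin ι c < Fintype.equivFin ι c' → θ c < θ c') ∧
    ∀ s ⊆ Box ι Mn, s.card ≤ Fintype.card ι → ∀ w : (Option ι → ℤ) → ℝ, ∑ v ∈ s, w v = 1 →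
      ¬ ∀ c, ∑ v ∈ s, w v * v (some c) = m c + θ c := by
  classical
  set d := Fintype.card ι
  have hd : (0 : ℝ) < d + 1 := by positivity
  obtain ⟨θ, h1, h2⟩ := avoid
    (((Box ι Mn) ×ˢ (Box ι Mn).powerset).filter fun p => p.2.card < d)
    (fun p => (fun c => (p.1 (some c) : ℝ)) - m)
    (fun p => Submodule.span ℝ ((fun v : Option ι → ℤ => fun c => (v (some c) : ℝ) - p.1 (some c))
      '' p.2))
    (fun p hp => span_ne_top _ (by simpa using (Finset.mem_filter.mp hp).2))
    (fun c => ((Fintype.equivFin ι c : ℕ) + 1) / (d + 1)) (show 0 < 1 / (3 * (d + 1 : ℝ)) by positivity)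
  have h3 : ∀ c, 3 * ((Fintype.equivFin ι c : ℕ) + 1 : ℝ) - 1 < 3 * (d + 1) * θ c ∧
      3 * (d + 1) * θ c < 3 * ((Fintype.equivFin ι c : ℕ) + 1 : ℝ) + 1 := by
    intro c
    have := (norm_le_pi_norm _ c).trans_lt h1
    rw [Pi.sub_apply, Real.norm_eq_abs, abs_lt] at this
    obtain ⟨a1, a2⟩ := this
    have b1 := mul_lt_mul_of_pos_left a1 (show 0 < 3 * (d + 1 : ℝ) by positivity)
    have b2 := mul_lt_mul_of_pos_left a2 (show 0 < 3 * (d + 1 : ℝ) by positivity)
    have e1 : 3 * (d + 1 : ℝ) * (1 / (3 * (d + 1))) = 1 := by field_simp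
    have e2 : 3 * (d + 1 : ℝ) * (((Fintype.equivFin ι c : ℕ) + 1) / (d + 1)) =
      3 * ((Fintype.equivFin ι c : ℕ) + 1) := by field_simp
    constructor <;> nlinarith
  refine ⟨θ, fun c => ?_, fun c c' h => ?_, fun s hs hc w hw h => ?_⟩
  · have a0 : (0 : ℝ) ≤ (Fintype.equivFin ι c : ℕ) := Nat.cast_nonneg _
    have a1 : ((Fintype.equivFin ι c : ℕ) + 1 : ℝ) ≤ d := by
      exact_mod_cast (Fintype.equivFin ι c).2
    obtain ⟨b1, b2⟩ := h3 c
    constructor <;> nlinarith
  · have a1 : ((Fintype.equivFin ι c : ℕ) + 1 : ℝ) ≤ (Fintype.equivFin ι c' : ℕ) := by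
      exact_mod_cast h
    nlinarith [(h3 c).2, (h3 c').1]
  · obtain ⟨v0, hv0⟩ : s.Nonempty := by
      by_contra hn
      rw [Finset.not_nonempty_iff_eq_empty.mp hn] at hw; simp at hw
    refine h2 (v0, s.erase v0) ?_ ?_
    · simp only [Finset.mem_filter, Finset.mem_product, Finset.mem_powerset]
      exact ⟨⟨hs hv0, (Finset.erase_subset _ _).trans hs⟩,
        lt_of_lt_of_le (Finset.card_erase_lt_of_mem hv0) hc⟩
    · have : θ - ((fun c => (v0 (some c) : ℝ)) - m) =
          ∑ v ∈ s.erase v0, w v • fun c => (v (some c) : ℝ) - v0 (some c) := by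
        rw [Finset.sum_erase _ (by ext c; simp)]
        funext c
        simp only [Finset.sum_apply, Pi.smul_apply, smul_eq_mul, mul_sub, Finset.sum_sub_distrib,
          ← Finset.sum_mul, hw, h c, Pi.sub_apply]
        ring
      simp only
      rw [this]
      exact Submodule.sum_mem _ fun v hv =>
        Submodule.smul_mem _ _ (Submodule.subset_span ⟨v, hv, rfl⟩)

omit [Fintype ρ] in
lemma exists_xi (r col : ι → ρ) (dg : ρ → ι) (Mn M1 : ℕ) (θ : ι → ℝ) (f : (ι → ℝ) → ι → ℝ)
    (h : ℝ) {η : ℝ} (hη : 0 < η)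
    (base : ∀ s, InvF r dg Mn s → s.card ≤ Fintype.card ι →
      0 ∉ convexHull ℝ (Gm r col dg M1 θ '' s)) (T : Finset (ι → ℤ)) :
    ∃ ξ : (ι → ℤ) → ι → ℝ, (∀ p, ‖ξ p‖ ≤ η) ∧ ∀ s, InvF r dg Mn s → s.card ≤ Fintype.card ι →
      (∀ v ∈ s, Free r v) → (∀ v ∈ s, v none = 0 → nrm r v ∈ T) →
      0 ∉ convexHull ℝ (FF r col dg M1 θ f h ξ '' s) := by
  classical
  induction T using Finset.induction_on with
  | empty =>
    refine ⟨0, fun p => by simpa using hη.le, fun s h1 h2 _ h4 => ?_⟩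
    rw [Set.image_congr (f := FF r col dg M1 θ f h 0) (g := Gm r col dg M1 θ)
      fun v hv => if_neg fun e => by simpa using h4 v hv e]
    exact base s h1 h2
  | insert p T hp ih =>
    obtain ⟨ξ, b1, b2⟩ := ih
    obtain ⟨y, y1, y2⟩ := avoid
      (((Box ι Mn) ×ˢ (Box ι Mn).powerset).filter fun q => Free r q.1 ∧ q.2.card < Fintype.card ι)
      (fun q => -tau r col (sgr r q.1) (f fun c => h * q.1 (some c)))
      (fun q => (Submodule.span ℝ (FF r col dg M1 θ f h ξ '' q.2)).comap (tau r col (sgr r q.1)))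
      (fun q hq => by
        obtain ⟨q1, q2⟩ := (Finset.mem_filter.mp hq).2
        intro e
        refine span_ne_top (FF r col dg M1 θ f h ξ) (s := q.2) (by simpa using q2) ?_
        refine Submodule.eq_top_iff'.mpr fun z => ?_
        have := Submodule.eq_top_iff'.mp e (tau r col (sgr r q.1) z)
        rwa [Submodule.mem_comap, tau_tau r col q1.pm] at this) 0 hη
    rw [sub_zero] at y1
    refine ⟨Function.update ξ p y, fun p' => ?_, fun s h1 h2 h3 h4 => ?_⟩
    · by_cases e : p' = p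
      · rw [e, Function.update_self]; exact y1.le
      · rw [Function.update_of_ne e]; exact b1 p'
    have same : ∀ v, ¬ (v none = 0 ∧ nrm r v = p) →
        FF r col dg M1 θ f h (Function.update ξ p y) v = FF r col dg M1 θ f h ξ v := by
      intro v hv
      unfold FF
      split_ifs with h0
      · rw [Function.update_of_ne fun e => hv ⟨h0, e⟩]
      · rfl
    have old : ∀ s' ⊆ s, (∀ v ∈ s', ¬ (v none = 0 ∧ nrm r v = p)) →
        0 ∉ convexHull ℝ (FF r col dg M1 θ f h ξ '' s') := fun s' hs' hn =>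
      b2 s' (fun u hu v hv => h1 u (hs' hu) v (hs' hv)) ((Finset.card_le_card hs').trans h2)
        (fun v hv => h3 v (hs' hv)) fun v hv h0 =>
          (Finset.mem_insert.mp (h4 v (hs' hv) h0)).resolve_left fun e => hn v hv ⟨h0, e⟩
    by_cases hex : ∃ v ∈ s, v none = 0 ∧ nrm r v = p
    swap
    · push Not at hex
      rw [Set.image_congr fun v hv => same v fun e => hex v hv e.1 e.2]
      exact old s subset_rfl fun v hv e => hex v hv e.1 e.2
    obtain ⟨v, hv, v0, v1⟩ := hex
    have hn : ∀ u ∈ s.erase v, ¬ (u none = 0 ∧ nrm r u = p) := fun u hu e =>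
      (Finset.mem_erase.mp hu).1 (nrm_inj h1 (Finset.mem_of_mem_erase hu) hv
        (h3 u (Finset.mem_of_mem_erase hu)) (h3 v hv) (e.1.trans v0.symm) (e.2.trans v1.symm))
    intro h0
    obtain ⟨w, w1, w2, w3⟩ := (hull_iff _ _ _).mp h0
    rw [← Finset.add_sum_erase _ _ hv] at w2 w3
    rw [Finset.sum_congr rfl fun u hu => by rw [same u (hn u hu)]] at w3
    by_cases wv : w v = 0
    · rw [wv, zero_add] at w2
      rw [wv, zero_smul, zero_add] at w3
      exact old _ (Finset.erase_subset _ _) hn ((hull_iff _ _ _).mpr ⟨w, w1, w2, w3⟩)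
    · refine y2 (v, s.erase v) ?_ ?_
      · simp only [Finset.mem_filter, Finset.mem_product, Finset.mem_powerset]
        exact ⟨⟨h1.box hv, (Finset.erase_subset _ _).trans h1.box⟩, h3 v hv,
          lt_of_lt_of_le (Finset.card_erase_lt_of_mem hv) h2⟩
      · simp only [Submodule.mem_comap, sub_neg_eq_add, map_add, tau_tau r col (h3 v hv).pm]
        have e : FF r col dg M1 θ f h (Function.update ξ p y) v =
            tau r col (sgr r v) y + f fun c => h * v (some c) := by
          unfold FF; rw [if_pos v0, v1, Function.update_self, add_comm]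
        rw [← e, ← Submodule.smul_mem_iff _ wv, eq_neg_of_add_eq_zero_left w3]
        exact Submodule.neg_mem _ (Submodule.sum_mem _ fun u hu =>
          Submodule.smul_mem _ _ (Submodule.subset_span ⟨u, hu, rfl⟩))

end Vale.Agent.P371
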