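import Vale.Agent.P371.Shoot

/-! Real Sobolev functions on the line and the kinetic inequality. -/

namespace Vale.Agent.P371

open Matrix Filter Topology MeasureTheory Set

structure ACD (f f' : ℝ → ℝ) : Prop where
  ac : ∀ a b, AbsolutelyContinuousOnInterval f a b
  der : ∀ᵐ x, HasDerivAt f (f' x) x

namespace ACD
variable {f f' g g' : ℝ → ℝ}

lemma deriv_ae (h : ACD f f') : deriv f =ᵐ[volume] f' := h.der.mono fun _ hx => hx.deriv

lemma ii (h : ACD f f') (a b : ℝ) : IntervalIntegrable f' volume a b :=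
  (h.ac a b).intervalIntegrable_deriv.congr_ae (ae_restrict_of_ae h.deriv_ae)

lemma ftc (h : ACD f f') (a b : ℝ) : ∫ x in a..b, f' x = f b - f a := by
  rw [← (h.ac a b).integral_deriv_eq_sub]
  exact intervalIntegral.integral_congr_ae (h.deriv_ae.mono fun x hx _ => hx.symm)

lemma cont (h : ACD f f') : Continuous f :=
  continuous_iff_continuousAt.mpr fun x => (h.ac (x - 1) (x + 1)).continuousOn.continuousAt (by
    rw [uIcc_of_le (by linarith)]; exact Icc_mem_nhds (by linarith) (by linarith))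

lemma add (h : ACD f f') (h' : ACD g g') : ACD (fun x => f x + g x) fun x => f' x + g' x :=
  ⟨fun a b => (h.ac a b).add (h'.ac a b), by
    filter_upwards [h.der, h'.der] with x h1 h2 using h1.add h2⟩

lemma mul (h : ACD f f') (h' : ACD g g') :
    ACD (fun x => f x * g x) fun x => f' x * g x + f x * g' x :=
  ⟨fun a b => (h.ac a b).mul (h'.ac a b), by
    filter_upwards [h.der, h'.der] with x h1 h2 using h1.mul h2⟩

lemma const_mul (h : ACD f f') (c : ℝ) : ACD (fun x => c * f x) fun x => c * f' x :=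
  ⟨fun a b => (h.ac a b).const_mul c, by
    filter_upwards [h.der] with x h1 using h1.const_mul c⟩

lemma of_C1 (h : ∀ x, HasDerivAt f (f' x) x) (hc : Continuous f') : ACD f f' := by
  refine ⟨fun a b => ContDiffOn.absolutelyContinuousOnInterval (ContDiff.contDiffOn ?_),
    Eventually.of_forall h⟩
  rw [contDiff_one_iff_deriv]
  refine ⟨fun x => (h x).differentiableAt, ?_⟩
  rwa [show deriv f = f' from funext fun x => (h x).deriv]

lemma sum {ι : Type*} (s : Finset ι) {F F' : ι → ℝ → ℝ} (h : ∀ i, ACD (F i) (F' i)) :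
    ACD (fun x => ∑ i ∈ s, F i x) fun x => ∑ i ∈ s, F' i x := by
  classical
  induction s using Finset.induction_on with
  | empty => simpa using of_C1 (fun x => hasDerivAt_const x (0 : ℝ)) continuous_const
  | insert i s hi ih => simpa [Finset.sum_insert hi] using (h i).add ih

lemma of_ftc (hi : LocallyIntegrable f' volume) (h : ∀ x y, f y - f x = ∫ t in x..y, f' t) :
    ACD f f' := by
  have hii : ∀ a b, IntervalIntegrable f' volume a b := fun a b =>
    (hi.integrableOn_isCompact isCompact_uIcc).intervalIntegrable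
  have e : ∀ c, f = fun y => f c + ∫ t in c..y, f' t := fun c => funext fun y => by
    rw [← h c y]; ring
  refine ⟨fun a b => ?_, ?_⟩
  · rw [e a]
    exact (of_C1 (fun x => hasDerivAt_const x (f a)) continuous_const).ac a b |>.add
      ((hii a b).absolutelyContinuousOnInterval_intervalIntegral left_mem_uIcc)
  · filter_upwards [LocallyIntegrable.ae_hasDerivAt_integral hi] with x hx
    rw [e 0]
    exact (hx 0).const_add _

end ACD

structure RH (f f' : ℝ → ℝ) : Prop where
  acd : ACD f f'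
  l2 : MemLp f 2 volume
  l2' : MemLp f' 2 volume

lemma RH.lin {ι : Type*} [Fintype ι] {F F' : ι → ℝ → ℝ} (h : ∀ i, RH (F i) (F' i)) (c : ι → ℝ) :
    RH (fun x => ∑ i, c i * F i x) fun x => ∑ i, c i * F' i x :=
  ⟨ACD.sum _ fun i => (h i).acd.const_mul _,
    memLp_finsetSum _ fun i _ => (h i).l2.const_mul _,
    memLp_finsetSum _ fun i _ => (h i).l2'.const_mul _⟩

lemma small_right {g : ℝ → ℝ} (hg : Integrable g) {ε : ℝ} (hε : 0 < ε) (b : ℝ) :
    ∃ y, b ≤ y ∧ g y < ε := by
  by_contra hc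
  push Not at hc
  have := (measure_mono (show Ici b ⊆ {a | ε ≤ g a} from hc)).trans_lt (hg.measure_ge_lt_top hε)
  simp at this

lemma small_left {g : ℝ → ℝ} (hg : Integrable g) {ε : ℝ} (hε : 0 < ε) (b : ℝ) :
    ∃ y, y ≤ b ∧ g y < ε := by
  by_contra hc
  push Not at hc
  have := (measure_mono (show Iic b ⊆ {a | ε ≤ g a} from hc)).trans_lt (hg.measure_ge_lt_top hε)
  simp at this

lemma RH.intF {f f' : ℝ → ℝ} (h : RH f f') (κ : ℝ) :
    Integrable fun x => f' x ^ 2 + κ ^ 2 * f x ^ 2 :=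
  h.l2'.integrable_sq.add (h.l2.integrable_sq.const_mul _)

lemma RH.step {f f' : ℝ → ℝ} (h : RH f f') (κ : ℝ) {a b : ℝ} (hab : a ≤ b) :
    κ * (f b ^ 2 - f a ^ 2) ≤ ∫ x in a..b, (f' x ^ 2 + κ ^ 2 * f x ^ 2) := by
  have h1 := (h.acd.mul h.acd).const_mul κ
  have h2 := h1.ftc a b
  have : κ * (f b ^ 2 - f a ^ 2) = κ * (f b * f b) - κ * (f a * f a) := by ring
  rw [this, ← h2]
  exact intervalIntegral.integral_mono_on hab (h1.ii a b) (h.intF κ).intervalIntegrable
    fun x _ => by nlinarith [sq_nonneg (f' x - κ * f x)]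

lemma RH.tail {f f' : ℝ → ℝ} (h : RH f f') {κ : ℝ} (hκ : 0 ≤ κ) {a b : ℝ} (hab : a ≤ b) :
    (∫ x in a..b, (f' x ^ 2 + κ ^ 2 * f x ^ 2)) + κ * f a ^ 2 + κ * f b ^ 2 ≤
      ∫ x, (f' x ^ 2 + κ ^ 2 * f x ^ 2) := by
  refine le_of_forall_pos_le_add fun ε hε => ?_
  have hg := h.l2.integrable_sq.const_mul κ
  obtain ⟨y, hy, hy'⟩ := small_right hg (half_pos hε) b
  obtain ⟨x, hx, hx'⟩ := small_left hg (half_pos hε) a
  have h1 := h.step κ hx
  have h2 := h.step (-κ) hy
  rw [neg_sq] at h2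
  have hi := fun a b => (h.intF κ).intervalIntegrable (a := a) (b := b)
  have h3 := intervalIntegral.integral_add_adjacent_intervals (hi x a) (hi a b)
  have h4 := intervalIntegral.integral_add_adjacent_intervals (hi x b) (hi b y)
  have h5 : ∫ t in x..y, (f' t ^ 2 + κ ^ 2 * f t ^ 2) ≤ ∫ t, (f' t ^ 2 + κ ^ 2 * f t ^ 2) := by
    rw [intervalIntegral.integral_of_le (by linarith)]
    exact setIntegral_le_integral (h.intF κ) (Eventually.of_forall fun t => by positivity)
  linarith

variable {n : Type*} [Fintype n] [DecidableEq n]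

lemma kinetic {κ : n → ℝ} {q a b : ℝ} {S S' Y : ℝ → Matrix n n ℝ} (h : Ric κ q a b S S' Y)
    (hab : a ≤ b) {v v' : n → ℝ → ℝ} (hv : ∀ j, RH (v j) (v' j)) :
    (1 + q) * ∫ x in a..b, (fun j => v j x) ⬝ᵥ Y x *ᵥ (fun j => v j x) ≤
      ∑ j, ∫ x, (v' j x ^ 2 + κ j ^ 2 * v j x ^ 2) := by
  have hκ := (h.reg a ⟨le_rfl, hab⟩).pos
  have hS : ∀ i j, ACD (fun x => S x i j) fun x => S' x i j := fun i j =>
    ACD.of_C1 (fun x => h.der x i j) (by have := h.contS'; fun_prop)
  have hG := ACD.sum Finset.univ fun i => (hv i).acd.mul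
    (ACD.sum Finset.univ fun j => (hS i j).mul (hv j).acd)
  have e := hG.ftc a b
  have hc : Continuous fun x => (fun j => v j x) ⬝ᵥ Y x *ᵥ (fun j => v j x) := by
    have h1 := h.contY
    have h2 : ∀ j, Continuous (v j) := fun j => (hv j).acd.cont
    simp only [dotProduct, mulVec]
    fun_prop
  have hF : IntervalIntegrable (fun x => ∑ j, (v' j x ^ 2 + κ j ^ 2 * v j x ^ 2)) volume a b :=
    (integrable_finsetSum _ fun j _ => (hv j).intF (κ j)).intervalIntegrable
  have key := intervalIntegral.integral_mono_on hab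
    (((hc.intervalIntegrable a b).const_mul (1 + q)).add (hG.ii a b)) hF fun x hx => by
      set u : n → ℝ := fun j => v j x with hu
      set w : n → ℝ := fun j => v' j x with hw
      have e1 : ∑ i, (v' i x * ∑ j, S x i j * v j x +
          v i x * ∑ j, (S' x i j * v j x + S x i j * v' j x)) =
          w ⬝ᵥ S x *ᵥ u + (u ⬝ᵥ S' x *ᵥ u + u ⬝ᵥ S x *ᵥ w) := by
        simp only [dotProduct, mulVec, hu, hw, Finset.sum_add_distrib, mul_add]
      have e2 : ∑ j, (v' j x ^ 2 + κ j ^ 2 * v j x ^ 2) =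
          w ⬝ᵥ w + u ⬝ᵥ (diagonal κ * diagonal κ) *ᵥ u := by
        simp only [diagonal_mul_diagonal, dotProduct, mulVec_diagonal, hu, hw,
          ← Finset.sum_add_distrib]
        exact Finset.sum_congr rfl fun j _ => by ring
      have e3 : u ⬝ᵥ S x *ᵥ w = w ⬝ᵥ S x *ᵥ u := by
        rw [dotProduct_mulVec, ← mulVec_transpose, h.symS, dotProduct_comm]
      have e4 : u ⬝ᵥ (S x * S x) *ᵥ u = (S x *ᵥ u) ⬝ᵥ (S x *ᵥ u) := by
        rw [← mulVec_mulVec, dotProduct_mulVec, ← mulVec_transpose, h.symS]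
      have e5 : 0 ≤ (w - S x *ᵥ u) ⬝ᵥ (w - S x *ᵥ u) :=
        Finset.sum_nonneg fun i _ => mul_self_nonneg _
      rw [sub_dotProduct, dotProduct_sub, dotProduct_sub, dotProduct_comm (S x *ᵥ u) w] at e5
      rw [e1, e2, e3, h.ode x hx, sub_mulVec, sub_mulVec, dotProduct_sub, dotProduct_sub, e4,
        smul_mulVec, dotProduct_smul, smul_eq_mul]
      linarith
  rw [intervalIntegral.integral_add ((hc.intervalIntegrable a b).const_mul (1 + q)) (hG.ii a b),
    e, intervalIntegral.integral_const_mul, intervalIntegral.integral_finsetSum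
      fun j _ => ((hv j).intF (κ j)).intervalIntegrable, h.init, h.fin] at key
  have e6 : ∀ (y : ℝ) (i : n), ∑ j, diagonal κ i j * v j y = κ i * v i y := fun y i => by
    simp [diagonal_apply, Finset.sum_ite_eq]
  simp only [Matrix.neg_apply, neg_mul, Finset.sum_neg_distrib, e6] at key
  have h7 := Finset.sum_le_sum fun j (_ : j ∈ Finset.univ) => (hv j).tail (hκ j).le hab
  simp only [Finset.sum_add_distrib] at h7
  have e8 : ∀ y, ∑ i, v i y * (κ i * v i y) = ∑ i, κ i * v i y ^ 2 := fun y =>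
    Finset.sum_congr rfl fun j _ => by ring
  simp only [mul_neg, Finset.sum_neg_distrib, e8] at key
  linarith

end Vale.Agent.P371
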