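import Vale.Agent.P371.Upper

/-! The lower bound: the Poeschl-Teller potential. -/

namespace Vale.Agent.P371

open Matrix Filter Topology MeasureTheory Set Real
open scoped ComplexOrder

lemma ibp {f f' g g' : ℝ → ℝ} (hg : RH g g') (hf : RH f f') :
    ∫ x, (g' x * f x + g x * f' x) = 0 := by
  have h1 := hg.acd.mul hf.acd
  have i1 : Integrable fun x => g' x * f x + g x * f' x :=
    (hg.l2'.integrable_mul hf.l2).add (hg.l2.integrable_mul hf.l2')
  have i2 : Integrable fun x => g x * f x := hg.l2.integrable_mul hf.l2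
  have t := intervalIntegral_tendsto_integral i1 tendsto_neg_atTop_atBot tendsto_id
  simp only [h1.ftc, id] at t
  refine IntegrableAtFilter.eq_zero_of_tendsto (μ := volume)
    ((i2.sub i2.comp_neg).integrableAtFilter atTop) (fun s hs => ?_) t
  obtain ⟨a, ha⟩ := mem_atTop_sets.mp hs
  exact eq_top_iff.mpr ((le_of_eq (Real.volume_Ici (a := a)).symm).trans (measure_mono ha))

lemma int_cosh {β : ℝ} (hβ : 0 < β) : Integrable fun x => cosh x ^ (-β) := by
  have hc : Continuous fun x => cosh x ^ (-β) :=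
    continuous_cosh.rpow_const fun x => Or.inl (cosh_pos x).ne'
  have key : ∀ x y : ℝ, exp y / 2 ≤ cosh x → ‖cosh x ^ (-β)‖ ≤ 2 ^ β * exp (-β * y) := by
    intro x y h
    rw [Real.norm_of_nonneg (rpow_nonneg (cosh_pos x).le _)]
    refine (rpow_le_rpow_of_nonpos (by positivity) h (by linarith)).trans (le_of_eq ?_)
    rw [div_rpow (exp_pos _).le (by norm_num), ← exp_mul, rpow_neg (by norm_num)]
    field_simp
  rw [← integrableOn_univ, ← Iic_union_Ioi (a := (0 : ℝ))]
  refine IntegrableOn.union ?_ ?_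
  · refine Integrable.mono' ((integrableOn_exp_mul_Iic hβ 0).const_mul (2 ^ β))
      hc.aestronglyMeasurable (Eventually.of_forall fun x => ?_)
    have := key x (-x) (by rw [cosh_eq]; linarith [exp_pos x])
    simpa using this
  · refine Integrable.mono' ((integrableOn_exp_mul_Ioi (neg_neg_of_pos hβ) 0).const_mul (2 ^ β))
      hc.aestronglyMeasurable (Eventually.of_forall fun x => ?_)
    exact key x x (by rw [cosh_eq]; linarith [exp_pos (-x)])

noncomputable def f0 (α x : ℝ) : ℝ := cosh x ^ (-α)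
noncomputable def f1 (α x : ℝ) : ℝ := -α * (sinh x / cosh x) * f0 α x
noncomputable def ww (α x : ℝ) : ℝ := α * (α + 1) * (1 / cosh x ^ 2)
noncomputable def f2 (α x : ℝ) : ℝ := (α ^ 2 - ww α x) * f0 α x

lemma tanh_deriv (x : ℝ) : HasDerivAt (fun y => sinh y / cosh y) (1 / cosh x ^ 2) x := by
  refine ((hasDerivAt_sinh x).div (hasDerivAt_cosh x) (cosh_pos x).ne').congr_deriv ?_
  rw [← cosh_sq_sub_sinh_sq x]; ring

lemma f0_deriv (α x : ℝ) : HasDerivAt (f0 α) (f1 α x) x := by
  refine ((hasDerivAt_cosh x).rpow_const (Or.inl (cosh_pos x).ne')).congr_deriv ?_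
  rw [f1, f0, rpow_sub_one (cosh_pos x).ne']; ring

lemma f1_deriv (α x : ℝ) : HasDerivAt (f1 α) (f2 α x) x := by
  refine (((tanh_deriv x).const_mul (-α)).mul (f0_deriv α x)).congr_deriv ?_
  have h1 := (cosh_pos x).ne'
  have h2 : sinh x ^ 2 = cosh x ^ 2 - 1 := by linarith [cosh_sq_sub_sinh_sq x]
  rw [f2, f1, ww]
  field_simp
  rw [h2]; ring

lemma f0_pos (α x : ℝ) : 0 < f0 α x := rpow_pos_of_pos (cosh_pos x) _

lemma f0_cont (α : ℝ) : Continuous (f0 α) :=
  continuous_iff_continuousAt.mpr fun x => (f0_deriv α x).continuousAt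

lemma f1_cont (α : ℝ) : Continuous (f1 α) :=
  continuous_iff_continuousAt.mpr fun x => (f1_deriv α x).continuousAt

lemma ww_cont (α : ℝ) : Continuous (ww α) :=
  continuous_const.mul (continuous_const.div (by fun_prop) fun x => by positivity)

lemma f2_cont (α : ℝ) : Continuous (f2 α) :=
  (continuous_const.sub (ww_cont α)).mul (f0_cont α)

lemma ww_pos {α : ℝ} (h0 : 0 < α) (x : ℝ) : 0 < ww α x := by unfold ww; positivity

lemma f0_l2 {α : ℝ} (h0 : 0 < α) : MemLp (f0 α) 2 volume := by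
  rw [memLp_two_iff_integrable_sq (f0_cont α).aestronglyMeasurable]
  refine (int_cosh (β := α * 2) (by linarith)).congr (Eventually.of_forall fun x => ?_)
  simp only [f0]
  rw [← rpow_two, ← rpow_mul (cosh_pos x).le, neg_mul]

lemma f1_l2 {α : ℝ} (h0 : 0 < α) : MemLp (f1 α) 2 volume := by
  refine (f0_l2 h0).of_le_mul (c := α) (f1_cont α).aestronglyMeasurable
    (Eventually.of_forall fun x => ?_)
  rw [f1, norm_mul, norm_mul, norm_neg, Real.norm_of_nonneg h0.le, ← tanh_eq_sinh_div_cosh]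
  refine mul_le_mul_of_nonneg_right ?_ (norm_nonneg _)
  exact mul_le_of_le_one_right h0.le (abs_tanh_lt_one x).le

lemma f2_l2 {α : ℝ} (h0 : 0 < α) : MemLp (f2 α) 2 volume := by
  refine (f0_l2 h0).of_le_mul (c := α ^ 2 + α * (α + 1)) (f2_cont α).aestronglyMeasurable
    (Eventually.of_forall fun x => ?_)
  rw [f2, norm_mul]
  refine mul_le_mul_of_nonneg_right ?_ (norm_nonneg _)
  have h1 := ww_pos h0 x
  have h2 : ww α x ≤ α * (α + 1) := by
    refine mul_le_of_le_one_right (by positivity) ?_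
    rw [div_le_one (by positivity)]
    exact one_le_pow₀ (one_le_cosh x)
  rw [Real.norm_eq_abs, abs_le]
  constructor <;> nlinarith [sq_nonneg α]

lemma JJ_cosh {α : ℝ} (h0 : 0 < α) : Integrable (fun x => (1 / cosh x ^ 2) ^ (α + 1)) ∧
    ∫ x, (1 / cosh x ^ 2) ^ (α + 1) = JJ α := by
  have hd : ∀ x ∈ (univ : Set ℝ), HasDerivWithinAt tanh (1 / cosh x ^ 2) univ x := fun x _ => by
    have := tanh_deriv x
    simp only [← tanh_eq_sinh_div_cosh] at this
    exact this.hasDerivWithinAt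
  have e : ∀ x, |1 / cosh x ^ 2| • (1 - tanh x ^ 2) ^ α = (1 / cosh x ^ 2) ^ (α + 1) := by
    intro x
    have h1 := (cosh_pos x).ne'
    have : 1 - tanh x ^ 2 = 1 / cosh x ^ 2 := by
      rw [tanh_eq_sinh_div_cosh]; field_simp; exact cosh_sq_sub_sinh_sq x
    rw [this, abs_of_pos (by positivity), rpow_add_one (by positivity), smul_eq_mul, mul_comm]
  have h1 := integrableOn_image_iff_integrableOn_abs_deriv_smul MeasurableSet.univ hd
    tanh_injective.injOn fun s => (1 - s ^ 2) ^ α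
  have h2 := integral_image_eq_integral_abs_deriv_smul MeasurableSet.univ hd
    tanh_injective.injOn fun s => (1 - s ^ 2) ^ α
  simp only [tanh_bijOn.image_eq, e, integrableOn_univ, Measure.restrict_univ] at h1 h2
  have hc : Continuous fun s : ℝ => (1 - s ^ 2) ^ α :=
    (continuous_rpow_const h0.le).comp (by fun_prop)
  refine ⟨h1.mp (hc.integrableOn_Icc.mono_set Ioo_subset_Icc_self), ?_⟩
  rw [← h2, JJ, intervalIntegral.integral_of_le (by norm_num), integral_Ioc_eq_integral_Ioo]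

variable {m : ℕ}

lemma trPow_single (i : Fin m) {w p : ℝ} (hw : 0 < w) (hp : p ≠ 0) :
    trPow p (diagonal (Pi.single i (w : ℂ))) = w ^ p := by
  have hs : IsSelfAdjoint (diagonal (Pi.single i (w : ℂ)) : Matrix (Fin m) (Fin m) ℂ) := by
    refine isHermitian_diagonal_iff.mpr fun j => ?_
    by_cases h : j = i
    · subst h; simp [IsSelfAdjoint]
    · simp [h]
  rw [trPow, cfc_congr (g := fun t => w ^ (p - 1) * t), cfc_const_mul_id _ _ hs, trace_smul,
    trace_diagonal]
  · simp [rpow_sub_one hw.ne']; field_simp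
  · intro t ht
    have := spectrum.algebraMap_mem ℂ ht
    rw [spectrum_diagonal] at this
    obtain ⟨j, hj⟩ := this
    by_cases h : j = i
    · subst h
      have : w = t := by simpa using hj
      subst this
      simp only [rpow_sub_one hw.ne']; field_simp
    · have : t = 0 := by simpa [h] using hj.symm
      simp [this, hp]

noncomputable def WW (α : ℝ) (i : Fin m) (x : ℝ) : Matrix (Fin m) (Fin m) ℂ :=
  diagonal (Pi.single i (ww α x : ℂ))

lemma WW_trPow {α : ℝ} (h0 : 0 < α) (i : Fin m) (x : ℝ) : trPow (α + 1) (WW α i x) =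
    (α * (α + 1)) ^ (α + 1) * (1 / cosh x ^ 2) ^ (α + 1) := by
  rw [WW, trPow_single i (ww_pos h0 x) (by linarith), ww,
    mul_rpow (by positivity) (by positivity)]

lemma WW_pot {α : ℝ} (h0 : 0 < α) (i : Fin m) : IsPotential (α + 1 / 2) (WW α i) := by
  refine ⟨fun a b => Continuous.measurable ?_, fun x => ?_, ?_⟩
  · have := ww_cont α
    simp only [WW, diagonal_apply, Pi.single_apply]
    split_ifs <;> fun_prop
  · refine posSemidef_diagonal_iff.mpr fun j => ?_
    by_cases h : j = i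
    · subst h; simpa using (ww_pos h0 x).le
    · simp [h]
  · have e : α + 1 / 2 + 1 / 2 = α + 1 := by ring
    simp only [e, WW_trPow h0]
    exact (JJ_cosh h0).1.const_mul _

lemma single_H1 (i : Fin m) {f f' : ℝ → ℝ} (h : RH f f') :
    IsH1 (fun x => (Pi.single i (f x : ℂ) : Fin m → ℂ)) fun x => Pi.single i (f' x : ℂ) := by
  let L : ℝ →L[ℝ] (Fin m → ℂ) :=
    (ContinuousLinearMap.single ℝ (fun _ : Fin m => ℂ) i).comp Complex.ofRealCLM
  refine ⟨L.comp_memLp' h.l2, L.comp_memLp' h.l2', fun x y => ?_⟩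
  have := L.intervalIntegral_comp_comm (h.acd.ii x y)
  rw [h.acd.ftc, map_sub] at this
  exact this.symm

lemma eigen {α : ℝ} (h0 : 0 < α) (i : Fin m) (c : ℝ) :
    IsEigen (WW α i) (-α ^ 2) fun x => Pi.single i ((c * f0 α x : ℝ) : ℂ) := by
  have r0 : RH (fun x => c * f0 α x) fun x => c * f1 α x :=
    ⟨(ACD.of_C1 (f0_deriv α) (f1_cont α)).const_mul c, (f0_l2 h0).const_mul c,
      (f1_l2 h0).const_mul c⟩
  have r1 : RH (fun x => c * f1 α x) fun x => c * f2 α x :=
    ⟨(ACD.of_C1 (f1_deriv α) (f2_cont α)).const_mul c, (f1_l2 h0).const_mul c,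
      (f2_l2 h0).const_mul c⟩
  have hψ := single_H1 i r0
  refine ⟨_, hψ, fun φ φ' hφ => ?_⟩
  have i1 := int_inner hφ.memLp_deriv hψ.memLp_deriv
  have i2 := int_W (by linarith) (WW_pot h0 i) hφ hψ
  have i3 := (int_inner hφ.memLp hψ.memLp).const_mul ((-α ^ 2 : ℝ) : ℂ)
  have i4 := (i1.sub i2).sub i3
  rw [← integral_const_mul, ← integral_sub i1 i2, ← sub_eq_zero]
  refine (integral_sub (i1.sub i2) i3).symm.trans ?_
  apply Complex.ext
  · refine (integral_re i4).symm.trans (Eq.trans ?_ (ibp (hφ.re i) r1))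
    refine integral_congr_ae (Eventually.of_forall fun x => ?_)
    simp [WW, f2, mulVec_diagonal, dotProduct, Pi.single_apply, ← Complex.ofReal_pow]
    ring
  · have := ibp (hφ.im i) r1
    rw [← neg_eq_zero, ← integral_neg] at this
    refine (integral_im i4).symm.trans (Eq.trans ?_ this)
    refine integral_congr_ae (Eventually.of_forall fun x => ?_)
    simp [WW, f2, mulVec_diagonal, dotProduct, Pi.single_apply, ← Complex.ofReal_pow]
    ring

lemma normed {α : ℝ} (h0 : 0 < α) (i : Fin m) : ∃ c : ℝ,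
    ∫ x, star (Pi.single i ((c * f0 α x : ℝ) : ℂ) : Fin m → ℂ) ⬝ᵥ
      Pi.single i ((c * f0 α x : ℝ) : ℂ) = 1 := by
  have hp : 0 < ∫ x, f0 α x ^ 2 :=
    integral_pos_of_integrable_nonneg_nonzero (x := 0) ((f0_cont α).pow 2) (f0_l2 h0).integrable_sq
      (fun x => sq_nonneg _) (pow_pos (f0_pos α 0) 2).ne'
  refine ⟨(√(∫ x, f0 α x ^ 2))⁻¹, ?_⟩
  have e : ∀ c x : ℝ, star (Pi.single i ((c * f0 α x : ℝ) : ℂ) : Fin m → ℂ) ⬝ᵥ
      Pi.single i ((c * f0 α x : ℝ) : ℂ) = ((c ^ 2 * f0 α x ^ 2 : ℝ) : ℂ) := by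
    intro c x
    simp [dotProduct, Pi.single_apply]; ring
  simp only [e]
  rw [integral_complex_ofReal, integral_const_mul, inv_pow, sq_sqrt hp.le, inv_mul_cancel₀ hp.ne']
  simp

lemma JJ_pos {α : ℝ} (h0 : 0 < α) : 0 < JJ α := by
  rw [JJ_eq h0]
  have := Gamma_pos_of_pos (show 0 < α + 1 by linarith)
  have := Gamma_pos_of_pos (show 0 < α + 3 / 2 by linarith)
  positivity

theorem LT_eq {α : ℝ} (h0 : 0 < α) (h1 : α < 1) (hm : 1 ≤ m) :
    LT (α + 1 / 2) m = ENNReal.ofReal (cp α / JJ α) := by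
  have e : α + 1 / 2 + 1 / 2 = α + 1 := by ring
  have hJ := JJ_pos h0
  have hc := cp_pos h0
  refine le_antisymm ?_ ?_
  · refine iSup_le fun W => iSup_le fun hW => iSup_le fun _ => ENNReal.div_le_of_le_mul ?_
    refine iSup_le fun N => iSup_le fun E => iSup_le fun ψ => iSup_le fun hψ => iSup_le fun ho => ?_
    rw [← ENNReal.ofReal_mul (by positivity), e]
    refine ENNReal.ofReal_le_ofReal ?_
    rw [div_mul_eq_mul_div, le_div_iff₀ hJ, mul_comm]
    exact upper h0 h1 hW hψ ho
  · let i : Fin m := ⟨0, hm⟩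
    obtain ⟨c, hc⟩ := normed h0 i
    have hne : ¬ WW α i =ᵐ[volume] 0 := fun h => by
      obtain ⟨x, hx⟩ := h.exists
      have := congrFun (congrFun hx i) i
      simp [WW, (ww_pos h0 x).ne'] at this
    refine le_iSup_of_le (WW α i) (le_iSup_of_le (WW_pot h0 i) (le_iSup_of_le hne ?_))
    have hr : ENNReal.ofReal (α ^ (2 * α + 1)) ≤ rieszMean (α + 1 / 2) (WW α i) := by
      refine le_iSup_of_le 1 (le_iSup_of_le (fun _ => -α ^ 2)
        (le_iSup_of_le (fun _ x => Pi.single i ((c * f0 α x : ℝ) : ℂ))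
        (le_iSup_of_le (fun _ => ⟨neg_neg_of_pos (by positivity), eigen h0 i c⟩)
        (le_iSup_of_le (fun j k => by rw [hc, if_pos (Subsingleton.elim j k)]) (le_of_eq ?_)))))
      congr 1
      rw [Fin.sum_univ_one, abs_neg, abs_of_pos (by positivity), ← rpow_two, ← rpow_mul h0.le]
      congr 1; ring
    refine le_trans (le_of_eq ?_) (ENNReal.div_le_div_right hr _)
    simp only [e, WW_trPow h0]
    rw [integral_const_mul, (JJ_cosh h0).2, ← ENNReal.ofReal_div_of_pos (by positivity)]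
    congr 1
    have a1 : α ^ (2 * α + 1) = α ^ α * α ^ (α + 1) := by
      rw [← rpow_add h0]; congr 1; ring
    rw [cp, a1, mul_rpow h0.le (by positivity), div_rpow h0.le (by positivity),
      rpow_add_one (x := α + 1) (by positivity)]
    field_simp

end Vale.Agent.P371
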