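import Vale.Agent.P371.Eval

/-! The model map and genericity for the equivariant parity lemma. -/

namespace Vale.Agent.P371

open Finset

lemma avoid {E T : Type*} [NormedAddCommGroup E] [NormedSpace ℝ E] [FiniteDimensional ℝ E]
    (I : Finset T) (b : T → E) (U : T → Submodule ℝ E) (hU : ∀ i ∈ I, U i ≠ ⊤) (y0 : E) {ε : ℝ}
    (hε : 0 < ε) : ∃ y, ‖y - y0‖ < ε ∧ ∀ i ∈ I, y - b i ∉ U i := by
  have := FiniteDimensional.complete ℝ E
  have hd : Dense (⋂ i ∈ (I : Set T), {y | y - b i ∉ U i}) := by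
    refine dense_biInter_of_isOpen (fun i _ => ?_) I.countable_toSet fun i hi => ?_
    · exact ((U i).closed_of_finiteDimensional.preimage (by fun_prop :
        Continuous fun y => y - b i)).isOpen_compl
    · have h1 : Dense ((U i : Set E)ᶜ) := by
        rw [← interior_eq_empty_iff_dense_compl]
        by_contra h
        exact hU i hi ((U i).eq_top_of_nonempty_interior' (Set.nonempty_iff_ne_empty.mpr h))
      exact h1.preimage (Homeomorph.subRight (b i)).isOpenMap
  obtain ⟨y, h1, h2⟩ := hd.exists_mem_open Metric.isOpen_ball ⟨y0, Metric.mem_ball_self hε⟩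
  exact ⟨y, by simpa [dist_eq_norm] using h2, fun i hi => Set.mem_iInter₂.mp h1 i hi⟩

lemma not_hull {E V : Type*} [AddCommGroup E] [Module ℝ E] (φ : E →ₗ[ℝ] ℝ) {F : V → E} {s : Set V}
    (h : ∀ v ∈ s, 0 < φ (F v)) : (0 : E) ∉ convexHull ℝ (F '' s) := by
  intro h0
  have := convexHull_min (t := {y | 0 < φ y}) (by rintro _ ⟨v, hv, rfl⟩; exact h v hv)
    (convex_halfSpace_gt φ.isLinear 0) h0
  simp at this

open Classical in
noncomputable def sg0 {ι : Type*} (p : ι → ℤ) : ℤ :=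
  if p = 0 then 0 else if Classical.epsilon (fun q => q = p ∨ q = -p) = p then 1 else -1

lemma sg0_neg {ι : Type*} (p : ι → ℤ) : sg0 (-p) = -sg0 p := by
  by_cases h : p = 0
  · simp [sg0, h]
  have h' : -p ≠ 0 := neg_ne_zero.mpr h
  have e : (fun q => q = -p ∨ q = - -p) = fun q => q = p ∨ q = -p := by
    funext q; rw [neg_neg, or_comm]
  have hne : p ≠ -p := fun e => h (by
    funext c; have := congrFun e c; simp only [Pi.neg_apply] at this; simp; omega)
  have hs := Classical.epsilon_spec (p := fun q => q = p ∨ q = -p) ⟨p, Or.inl rfl⟩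
  unfold sg0
  rw [if_neg h, if_neg h', e]
  rcases hs with hs | hs
  · rw [hs, if_neg hne, if_pos rfl]
  · rw [hs, if_pos rfl, if_neg hne.symm, neg_neg]

lemma sg0_pm {ι : Type*} {p : ι → ℤ} (h : p ≠ 0) : sg0 p = 1 ∨ sg0 p = -1 := by
  simp only [sg0, h, if_false]; split_ifs <;> simp

lemma sg0_abs {ι : Type*} (p : ι → ℤ) : |sg0 p| ≤ 1 := by
  simp only [sg0]; split_ifs <;> simp

variable {ι ρ : Type*} [Fintype ι] [DecidableEq ι] [Fintype ρ] [LinearOrder ρ]

structure Tri (r col : ι → ρ) (dg : ρ → ι) : Prop where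
  hr : ∀ j, r (dg j) = j
  hc : ∀ j, col (dg j) = j
  hlt : ∀ c, c ≠ dg (r c) → col c < r c

def MM (Mn : ℕ) : Option ι → ℕ
  | none => 1
  | some _ => Mn

def SG (r : ι → ρ) (dg : ρ → ι) : Option ι → Finset ℤ
  | none => {1}
  | some c => if c = dg (r c) then {1} else {1, -1}

omit [Fintype ι] [Fintype ρ] [LinearOrder ρ] in
lemma SG_pm (r : ι → ρ) (dg : ρ → ι) : ∀ c, ∀ s ∈ SG r dg c, s = 1 ∨ s = -1 := by
  rintro (_ | c) s hs
  · simp_all [SG]
  · simp only [SG] at hs; split_ifs at hs <;> simp_all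

omit [Fintype ι] [Fintype ρ] [LinearOrder ρ] in
lemma SG_one (r : ι → ρ) (dg : ρ → ι) : ∀ c, 1 ∈ SG r dg c := by
  rintro (_ | c)
  · simp [SG]
  · simp only [SG]; split_ifs <;> simp

def InvF (r : ι → ρ) (dg : ρ → ι) (Mn : ℕ) (s : Finset (Option ι → ℤ)) : Prop :=
  ∀ u ∈ s, ∀ v ∈ s, ∀ c, |u c - v c| ≤ 1 ∧ 0 ≤ u c * v c ∧
    ∃ s ∈ SG r dg c, ∃ k : ℕ, k ≤ MM Mn c ∧ u c = s * k

noncomputable def Gm (r col : ι → ρ) (dg : ρ → ι) (M1 : ℕ) (θ : ι → ℝ) (v : Option ι → ℤ) :
    ι → ℝ := fun c =>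
  if c = dg (r c) then ∑ c' with r c' = r c, (|(v (some c') : ℝ)| - θ c') - M1
  else (Int.sign (v (some (dg (col c)))) : ℝ) *
    (v (some c) - θ c * Int.sign (v (some (dg (r c)))))

lemma abs_avg {V : Type*} {s : Finset V} {w : V → ℝ} (hw : ∀ v, 0 ≤ w v) {a : V → ℤ}
    (h : ∀ u ∈ s, ∀ v ∈ s, 0 ≤ a u * a v) :
    ∑ v ∈ s, w v * |(a v : ℝ)| = |∑ v ∈ s, w v * a v| := by
  by_cases hp : ∃ u ∈ s, 0 < a u
  · obtain ⟨u, hu, hu'⟩ := hp
    have : ∀ v ∈ s, (0 : ℝ) ≤ a v := fun v hv => by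
      have : 0 ≤ a v := by nlinarith [h u hu v hv]
      exact_mod_cast this
    rw [abs_of_nonneg (Finset.sum_nonneg fun v hv => mul_nonneg (hw v) (this v hv))]
    exact Finset.sum_congr rfl fun v hv => by rw [abs_of_nonneg (this v hv)]
  · push Not at hp
    have : ∀ v ∈ s, (a v : ℝ) ≤ 0 := fun v hv => by exact_mod_cast hp v hv
    rw [abs_of_nonpos (Finset.sum_nonpos fun v hv => mul_nonpos_of_nonneg_of_nonpos (hw v)
      (this v hv)), ← Finset.sum_neg_distrib]
    exact Finset.sum_congr rfl fun v hv => by rw [abs_of_nonpos (this v hv)]; ring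

lemma avg_big {V : Type*} {s : Finset V} {w : V → ℝ} (hw : ∀ v, 0 ≤ w v) (h1 : ∑ v ∈ s, w v = 1)
    {a : V → ℤ} (h : ∀ u ∈ s, ∀ v ∈ s, |a u - a v| ≤ 1) (hb : 1 < ∑ v ∈ s, w v * a v) :
    ∀ v ∈ s, Int.sign (a v) = 1 := by
  obtain ⟨u, hu, hu'⟩ : ∃ u ∈ s, 1 < a u := by
    by_contra hc
    push Not at hc
    have : ∑ v ∈ s, w v * a v ≤ ∑ v ∈ s, w v := Finset.sum_le_sum fun v hv => by
      have : (a v : ℝ) ≤ 1 := by exact_mod_cast hc v hv
      nlinarith [hw v]
    linarith
  intro v hv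
  have := abs_le.mp (h u hu v hv)
  exact Int.sign_eq_one_of_pos (by omega)

omit [Fintype ρ] in
lemma model_iff {r col : ι → ρ} {dg : ρ → ι} (ht : Tri r col dg) [Finite ρ] {Mn M1 : ℕ}
    (hM : Fintype.card ι + 2 ≤ M1) {θ : ι → ℝ} (hθ : ∀ c, 0 < θ c ∧ θ c < 1)
    {s : Finset (Option ι → ℤ)} (hs : InvF r dg Mn s) {w : (Option ι → ℤ) → ℝ}
    (hw : ∀ v, 0 ≤ w v) (h1 : ∑ v ∈ s, w v = 1) :
    ∑ v ∈ s, w v • Gm r col dg M1 θ v = 0 ↔
      ∀ c, ∑ v ∈ s, w v * v (some c) = (if c = dg (r c) then M1 else 0 : ℕ) + θ c := by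
  set X : ι → ℝ := fun c => ∑ v ∈ s, w v * v (some c) with hX
  have hM' : (Fintype.card ι : ℝ) + 2 ≤ M1 := by exact_mod_cast hM
  have eD : ∀ j, (∑ v ∈ s, w v • Gm r col dg M1 θ v) (dg j) =
      ∑ c' with r c' = j, (|X c'| - θ c') - M1 := by
    intro j
    simp only [Finset.sum_apply, Pi.smul_apply, smul_eq_mul, Gm, ht.hr, if_true, mul_sub,
      Finset.sum_sub_distrib, Finset.mul_sum, ← Finset.sum_mul, h1, one_mul]
    rw [Finset.sum_comm, Finset.sum_comm (s := s)]
    simp only [← Finset.sum_mul, h1, one_mul, hX]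
    congr 2
    exact Finset.sum_congr rfl fun c' _ => abs_avg hw fun u hu v hv => (hs u hu v hv _).2.1
  have eO : ∀ c, c ≠ dg (r c) → (∀ v ∈ s, Int.sign (v (some (dg (col c)))) = 1) →
      (∑ v ∈ s, w v • Gm r col dg M1 θ v) c =
        X c - θ c * ∑ v ∈ s, w v * Int.sign (v (some (dg (r c)))) := by
    intro c hc h
    simp only [Finset.sum_apply, Pi.smul_apply, smul_eq_mul, Gm, if_neg hc, hX, Finset.mul_sum,
      ← Finset.sum_sub_distrib]
    exact Finset.sum_congr rfl fun v hv => by rw [h v hv]; push_cast; ring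
  have big : ∀ j, 1 < X (dg j) → ∀ v ∈ s, Int.sign (v (some (dg j))) = 1 := fun j h =>
    avg_big hw h1 (fun u hu v hv => (hs u hu v hv _).1) h
  have one : ∀ j, (∀ v ∈ s, Int.sign (v (some (dg j))) = 1) →
      ∑ v ∈ s, w v * Int.sign (v (some (dg j))) = 1 := fun j h => by
    rw [← h1]; exact Finset.sum_congr rfl fun v hv => by rw [h v hv]; simp
  have split : ∀ (g : ι → ℝ) j, ∑ c' with r c' = j, g c' =
      g (dg j) + ∑ c' ∈ (Finset.univ.filter fun c' => r c' = j).erase (dg j), g c' := fun g j =>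
    (Finset.add_sum_erase _ _ (by simp [ht.hr])).symm
  have offd : ∀ j, ∀ c' ∈ (Finset.univ.filter fun c' => r c' = j).erase (dg j),
      r c' = j ∧ c' ≠ dg (r c') := fun j c' h => by
    simp only [Finset.mem_erase, Finset.mem_filter, Finset.mem_univ, true_and] at h
    exact ⟨h.2, by rw [h.2]; exact h.1⟩
  constructor
  · intro h0
    have dnn : ∀ j, 0 ≤ X (dg j) := fun j => Finset.sum_nonneg fun v hv => mul_nonneg (hw v) (by
      obtain ⟨s', hs', k, -, e⟩ := (hs v hv v hv (some (dg j))).2.2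
      simp only [SG, ht.hr, if_true, Finset.mem_singleton] at hs'
      rw [e, hs']; simp)
    have ind : ∀ j, ∀ v ∈ s, Int.sign (v (some (dg j))) = 1 := by
      intro j
      induction j using WellFoundedLT.induction with
      | ind j ih =>
        refine big j ?_
        have e := eD j
        rw [h0, split, abs_of_nonneg (dnn j)] at e
        have : ∑ c' ∈ (Finset.univ.filter fun c' => r c' = j).erase (dg j), (|X c'| - θ c') ≤
            ∑ _c' : ι, (1 : ℝ) := by
          refine (Finset.sum_le_sum (g := fun _ => (1 : ℝ)) fun c' hc' => ?_).trans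
            (Finset.sum_le_sum_of_subset_of_nonneg (Finset.subset_univ _) fun _ _ _ => zero_le_one)
          obtain ⟨o1, o2⟩ := offd j c' hc'
          have e2 := eO c' o2 (ih _ (o1 ▸ ht.hlt c' o2))
          rw [h0, Pi.zero_apply] at e2
          have b1 : |∑ v ∈ s, w v * Int.sign (v (some (dg (r c'))))| ≤ 1 := by
            refine (Finset.abs_sum_le_sum_abs _ _).trans (le_of_le_of_eq
              (Finset.sum_le_sum fun v _ => ?_) h1)
            rw [abs_mul, abs_of_nonneg (hw v)]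
            refine mul_le_of_le_one_right (hw v) ?_
            rcases Int.sign_trichotomy (v (some (dg (r c')))) with h | h | h <;> simp [h]
          have : X c' = θ c' * ∑ v ∈ s, w v * Int.sign (v (some (dg (r c')))) := by linarith
          rw [this, abs_mul, abs_of_pos (hθ c').1]
          nlinarith [hθ c']
        simp only [Finset.sum_const, Finset.card_univ, nsmul_eq_mul, mul_one, Pi.zero_apply] at *
        linarith [(hθ (dg j)).1]
    have off : ∀ c, c ≠ dg (r c) → X c = θ c := fun c hc => by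
      have e2 := eO c hc (ind _)
      rw [h0, one _ (ind _), Pi.zero_apply] at e2; linarith
    intro c
    change X c = _
    split_ifs with hc
    · have e := eD (r c)
      rw [h0, split, abs_of_nonneg (dnn _), Finset.sum_eq_zero, ← hc] at e
      · simp only [Pi.zero_apply] at e; linarith
      · intro c' hc'
        rw [off c' (offd _ c' hc').2, abs_of_pos (hθ c').1, sub_self]
    · rw [off c hc]; simp
  · intro h
    change ∀ c, X c = _ at h
    have ind : ∀ j, ∀ v ∈ s, Int.sign (v (some (dg j))) = 1 := fun j => big j (by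
      rw [h, ht.hr, if_pos rfl]
      have : (0 : ℝ) ≤ Fintype.card ι := Nat.cast_nonneg _
      linarith [(hθ (dg j)).1])
    funext c
    by_cases hc : c = dg (r c)
    · rw [hc, eD, split, Finset.sum_eq_zero, h, ht.hr, if_pos rfl, abs_of_nonneg]
      · simp
      · have := (hθ (dg (r c))).1; positivity
      · intro c' hc'
        rw [h, if_neg (offd _ c' hc').2]
        simp [abs_of_pos (hθ c').1]
    · rw [eO c hc (ind _), one _ (ind _), h, if_neg hc]; simp

end Vale.Agent.P371
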