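import Vale.Agent.P371.Action2
import Vale.Agent.P072.Picard

/-! A truncated matrix Riccati flow. -/

namespace Vale.Agent.P371

open Matrix Filter Topology MeasureTheory Set
open scoped Matrix.Norms.Elementwise

variable {n : Type*} [Fintype n] [DecidableEq n]

lemma gron {θ θ' c : ℝ → ℝ} {a b : ℝ} (hd : ∀ x ∈ Icc a b, HasDerivAt θ (θ' x) x)
    (hc : Continuous c) (h0 : ∀ x, 0 ≤ θ x) (ha : θ a = 0)
    (hb : ∀ x ∈ Icc a b, θ' x ≤ c x * θ x) : ∀ x ∈ Icc a b, θ x = 0 := by
  obtain ⟨C, hC⟩ := (isCompact_Icc (a := a) (b := b)).bddAbove_image hc.continuousOn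
  intro x hx
  have := le_gronwallBound_of_liminf_deriv_right_le (f := θ) (f' := θ') (δ := 0) (K := C) (ε := 0)
    (a := a) (b := b) (fun y hy => (hd y hy).continuousAt.continuousWithinAt)
    (fun y hy r hr => by
      have := (hd y (Ico_subset_Icc_self hy)).hasDerivWithinAt.liminf_right_slope_le hr
      simpa [slope] using this) ha.le
    (fun y hy => by
      have h1 := hb y (Ico_subset_Icc_self hy)
      have h2 : c y ≤ C := hC ⟨y, Ico_subset_Icc_self hy, rfl⟩
      have := mul_le_mul_of_nonneg_right h2 (h0 y)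
      linarith) x hx
  rw [gronwallBound_ε0_δ0] at this
  exact le_antisymm this (h0 x)

def l1 (N : Matrix n n ℝ) : ℝ := ∑ i, ∑ j, |N i j|

omit [DecidableEq n] in
lemma continuous_l1 : Continuous (l1 : Matrix n n ℝ → ℝ) := by
  unfold l1; fun_prop

omit [DecidableEq n] in
lemma quad_le (N : Matrix n n ℝ) (v : n → ℝ) : |v ⬝ᵥ N *ᵥ v| ≤ l1 N * (v ⬝ᵥ v) := by
  have hv : ∀ i, v i ^ 2 ≤ v ⬝ᵥ v := fun i => by
    simp only [dotProduct, ← sq]
    exact Finset.single_le_sum (f := fun i => v i ^ 2) (fun _ _ => sq_nonneg _) (Finset.mem_univ i)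
  have e : v ⬝ᵥ N *ᵥ v = ∑ i, ∑ j, N i j * (v i * v j) := by
    simp only [dotProduct, mulVec, Finset.mul_sum]
    exact Finset.sum_congr rfl fun i _ => Finset.sum_congr rfl fun j _ => by ring
  rw [e, l1, Finset.sum_mul]
  refine (Finset.abs_sum_le_sum_abs _ _).trans (Finset.sum_le_sum fun i _ => ?_)
  rw [Finset.sum_mul]
  refine (Finset.abs_sum_le_sum_abs _ _).trans (Finset.sum_le_sum fun j _ => ?_)
  rw [abs_mul]
  refine mul_le_mul_of_nonneg_left ?_ (abs_nonneg _)
  rw [abs_le]
  constructor <;> nlinarith [hv i, hv j, sq_nonneg (v i + v j), sq_nonneg (v i - v j)]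

lemma Spec.ps {M O : Matrix n n ℝ} {d : n → ℝ} (h : Spec M O d) (hd : ∀ i, 0 ≤ d i) : PS M := by
  intro v
  rw [h.eq, ← mulVec_mulVec, ← mulVec_mulVec, dotProduct_mulVec, ← mulVec_transpose]
  simp only [dotProduct, mulVec_diagonal]
  exact Finset.sum_nonneg fun i _ => by nlinarith [mul_nonneg (hd i) (sq_nonneg ((Oᵀ *ᵥ v) i))]

lemma hasDerivAt_negsq (s : ℝ) : HasDerivAt (fun t : ℝ => min t 0 ^ 2) (2 * min s 0) s := by
  rcases lt_trichotomy s 0 with h | h | h
  · have : HasDerivAt (fun t : ℝ => t ^ 2) (2 * min s 0) s := by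
      rw [min_eq_left h.le]; simpa using hasDerivAt_pow 2 s
    refine this.congr_of_eventuallyEq ?_
    filter_upwards [gt_mem_nhds h] with t ht
    rw [min_eq_left ht.le]
  · subst h
    rw [hasDerivAt_iff_isLittleO_nhds_zero]
    simp only [zero_add, min_self, mul_zero, smul_eq_mul]
    refine Asymptotics.IsBigO.trans_isLittleO (g := fun t : ℝ => t ^ 2) ?_
      (Asymptotics.isLittleO_pow_id (by norm_num))
    refine Asymptotics.IsBigO.of_bound 1 (Eventually.of_forall fun t => ?_)
    rcases le_total t 0 with h | h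
    · simp [min_eq_left h]
    · simp [min_eq_right h, sq_nonneg]
  · have : HasDerivAt (fun _ : ℝ => (0 : ℝ)) (2 * min s 0) s := by
      rw [min_eq_right h.le]; simpa using hasDerivAt_const s (0 : ℝ)
    refine this.congr_of_eventuallyEq ?_
    filter_upwards [lt_mem_nhds h] with t ht
    rw [min_eq_right ht.le]; simp

lemma ps_inv {C C' W N : ℝ → Matrix n n ℝ} {a b : ℝ} (hs' : ∀ x, (C x)ᵀ = C x)
    (hd : ∀ x, HasDerivAt C (C' x) x) (hN : Continuous N) (hW : ∀ x, PS (W x))
    (ode : ∀ x ∈ Icc a b, C' x = W x - (1 / 2 : ℝ) • (N x * C x + (N x * C x)ᵀ))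
    (h0 : C a = 0) : ∀ x ∈ Icc a b, PS (C x) := by
  have key := gron (θ := fun x => trace (fc (fun t => min t 0 ^ 2) (C x)))
    (θ' := fun x => trace (fc (fun t => 2 * min t 0) (C x) * C' x)) (c := fun x => 2 * l1 (N x))
    (a := a) (b := b) (fun x _ => by
      obtain ⟨O, d, h⟩ := exists_spec (hs' x)
      exact trace_fc_hasDerivAt h (fun i j => hasDerivAt_pi.mp (hasDerivAt_pi.mp (hd x) i) j)
        (Eventually.of_forall hs') (by fun_prop) fun k => hasDerivAt_negsq _)
    (continuous_const.mul (continuous_l1.comp hN))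
    (fun x => by
      obtain ⟨O, d, h⟩ := exists_spec (hs' x)
      rw [(h.fc _).trace]
      exact Finset.sum_nonneg fun i _ => sq_nonneg _)
    (by
      have : Spec (C a) 1 (fun _ => 0) := ⟨by simp, by simp [h0]⟩
      rw [(this.fc _).trace]; simp)
    (fun x hx => by
      obtain ⟨O, d, h⟩ := exists_spec (hs' x)
      have hg := h.fc fun t => 2 * min t 0
      have e1 : trace (fc (fun t => 2 * min t 0) (C x) * (N x * C x)ᵀ) =
          trace (C x * fc (fun t => 2 * min t 0) (C x) * N x) := by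
        rw [← trace_transpose, transpose_mul, transpose_transpose, hg.symm, Matrix.mul_assoc,
          trace_mul_comm]
      have e2 : trace (fc (fun t => 2 * min t 0) (C x) * (N x * C x)) =
          trace (C x * fc (fun t => 2 * min t 0) (C x) * N x) := by
        rw [← Matrix.mul_assoc, trace_mul_comm, Matrix.mul_assoc]
      rw [ode x hx, Matrix.mul_sub, Matrix.mul_smul, Matrix.mul_add, trace_sub, trace_smul,
        trace_add, e1, e2, hg.trace_mul, (h.mul hg).trace_mul, (h.fc _).trace, smul_eq_mul,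
        Finset.mul_sum]
      have e3 : ∀ X Y : ℝ, X - 1 / 2 * (Y + Y) = X - Y := fun X Y => by ring
      rw [e3, ← Finset.sum_sub_distrib]
      refine Finset.sum_le_sum fun i _ => ?_
      rw [conj_apply, conj_apply]
      have h1 := hW x fun k => O k i
      have h2 := quad_le (N x) fun k => O k i
      have h3 : (fun k => O k i) ⬝ᵥ (fun k => O k i) = 1 := by
        simpa [dotProduct, sq] using col_sq h.oo i
      rw [h3, mul_one] at h2
      have h4 : d i * (2 * min (d i) 0) = 2 * min (d i) 0 ^ 2 := by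
        rcases le_total (d i) 0 with h | h
        · rw [min_eq_left h]; ring
        · rw [min_eq_right h]; ring
      rw [h4]
      have h5 := mul_nonneg (neg_nonneg.mpr (min_le_right (d i) 0)) h1
      have h6 := mul_le_mul_of_nonneg_left (neg_abs_le ((fun k => O k i) ⬝ᵥ N x *ᵥ fun k => O k i))
        (sq_nonneg (min (d i) 0))
      have h7 := mul_le_mul_of_nonneg_left h2 (sq_nonneg (min (d i) 0))
      nlinarith)
  intro x hx
  obtain ⟨O, d, h⟩ := exists_spec (hs' x)
  have := key x hx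
  rw [(h.fc _).trace, Finset.sum_eq_zero_iff_of_nonneg fun i _ => sq_nonneg _] at this
  refine h.ps fun i => ?_
  have h1 := pow_eq_zero_iff (two_ne_zero) |>.mp (this i (Finset.mem_univ i))
  exact min_eq_right_iff.mp h1

noncomputable def chi (κ : n → ℝ) (B : Matrix n n ℝ) : ℝ :=
  Real.smoothTransition (2 - hs B / ((2 * ∑ i, κ i) ^ 2 + 1))

noncomputable def QQ (κ : n → ℝ) (B : Matrix n n ℝ) : Matrix n n ℝ :=
  (1 / 2 : ℝ) • ((chi κ B • ((2 : ℝ) • diagonal κ - B)) * B +
    ((chi κ B • ((2 : ℝ) • diagonal κ - B)) * B)ᵀ)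

omit [DecidableEq n] in
lemma chi_smooth (κ : n → ℝ) : ContDiff ℝ 1 (chi κ) := by
  unfold chi hs
  refine (Real.smoothTransition.contDiff (n := 1)).comp ?_
  refine contDiff_const.sub (ContDiff.div_const ?_ _)
  refine ContDiff.sum fun i _ => ContDiff.sum fun j _ => ContDiff.pow ?_ 2
  exact contDiff_pi.mp (contDiff_pi.mp contDiff_id i) j

lemma QQ_smooth (κ : n → ℝ) : ContDiff ℝ 1 (QQ κ) := by
  have h : ∀ i j, ContDiff ℝ 1 fun B : Matrix n n ℝ => B i j := fun i j =>
    contDiff_pi.mp (contDiff_pi.mp contDiff_id i) j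
  have h2 : ∀ i j, ContDiff ℝ 1 fun B : Matrix n n ℝ =>
      ((chi κ B • ((2 : ℝ) • diagonal κ - B)) * B) i j := by
    intro i j
    simp only [Matrix.mul_apply, Matrix.smul_apply, Matrix.sub_apply, smul_eq_mul]
    exact ContDiff.sum fun k _ => ((chi_smooth κ).mul (contDiff_const.sub (h _ _))).mul (h _ _)
  refine contDiff_pi.mpr fun i => contDiff_pi.mpr fun j => ?_
  simp only [QQ, Matrix.smul_apply, Matrix.add_apply, transpose_apply, smul_eq_mul]
  exact contDiff_const.mul ((h2 i j).add (h2 j i))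

lemma QQ_supp (κ : n → ℝ) : HasCompactSupport (QQ κ) := by
  set ρ : ℝ := (2 * ∑ i, κ i) ^ 2 + 1 with hρ
  have hρ0 : 0 < ρ := by positivity
  refine HasCompactSupport.intro (isCompact_closedBall (0 : Matrix n n ℝ) √(2 * ρ)) fun B hB => ?_
  have : 2 * ρ ≤ hs B := by
    by_contra hc
    push Not at hc
    apply hB
    rw [mem_closedBall_zero_iff, Matrix.norm_le_iff (Real.sqrt_nonneg _)]
    intro i j
    exact Real.abs_le_sqrt ((sq_le_hs B i j).trans hc.le)
  have h0 : chi κ B = 0 := by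
    refine Real.smoothTransition.zero_of_nonpos ?_
    rw [sub_nonpos, le_div_iff₀ hρ0]; exact this
  simp [QQ, h0]

lemma QQ_symm (κ : n → ℝ) (B : Matrix n n ℝ) : (QQ κ B)ᵀ = QQ κ B := by
  simp [QQ, transpose_add, add_comm]

structure Sol (κ : n → ℝ) (a b : ℝ) (W B B' : ℝ → Matrix n n ℝ) : Prop where
  sym : ∀ x, (B x)ᵀ = B x
  der : ∀ x, HasDerivAt B (B' x) x
  cont : Continuous B'
  init : B a = 0
  ode : ∀ x ∈ Icc a b, B' x = W x - QQ κ (B x)

lemma exists_sol (κ : n → ℝ) {a b : ℝ} (hab : a ≤ b) {W : ℝ → Matrix n n ℝ} (hW : Continuous W)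
    (hs' : ∀ x, (W x)ᵀ = W x) : ∃ B B', Sol κ a b W B B' := by
  obtain ⟨L, hL⟩ := (QQ_smooth κ).lipschitzWith_of_hasCompactSupport (QQ_supp κ) one_ne_zero
  obtain ⟨M1, hM1⟩ := (QQ_smooth κ).continuous.bounded_above_of_compact_support (QQ_supp κ)
  obtain ⟨M2, hM2⟩ := (isCompact_Icc (a := a) (b := b)).exists_bound_of_continuousOn
    hW.continuousOn
  set cl : ℝ → ℝ := fun s => (projIcc a b hab s : ℝ) with hcl
  have hclc : Continuous cl := continuous_subtype_val.comp continuous_projIcc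
  have hQ := (QQ_smooth κ).continuous
  obtain ⟨y, hy, H⟩ := P072.picard (fun s u => W (cl (a + s)) - QQ κ u) (M2 + M1) L L.2
    (fun s u => (norm_sub_le _ _).trans (add_le_add (hM2 _ (projIcc a b hab _).2) (hM1 u)))
    (fun s u u' => by
      rw [sub_sub_sub_cancel_left, norm_sub_rev, ← dist_eq_norm, ← dist_eq_norm]
      exact hL.dist_le_mul u u')
    (fun y hy => Continuous.aestronglyMeasurable (by fun_prop)) 0
  set B' : ℝ → Matrix n n ℝ := fun s => W (cl s) - QQ κ (y (s - a)) with hB'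
  have hc : Continuous B' := by simp only [hB']; fun_prop
  refine ⟨fun x => ∫ s in a..x, B' s, B', fun x => ?_,
    fun x => (hc.integral_hasStrictDerivAt a x).hasDerivAt, hc, by simp, fun x hx => ?_⟩
  · let T : Matrix n n ℝ →L[ℝ] Matrix n n ℝ :=
      LinearMap.toContinuousLinearMap (transposeLinearEquiv n n ℝ ℝ).toLinearMap
    have := T.intervalIntegral_comp_comm (hc.intervalIntegrable (μ := volume) a x)
    refine this.symm.trans ?_
    congr 1; funext s
    show (B' s)ᵀ = B' s
    simp only [hB', transpose_sub, hs', QQ_symm]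
  · have e : ∫ s in a..x, B' s = y (x - a) := by
      rw [H (x - a) (sub_nonneg.mpr hx.1), zero_add]
      have := intervalIntegral.integral_comp_add_left B' a (a := 0) (b := x - a)
      simp only [add_zero, add_sub_cancel] at this
      rw [← this]
      simp [hB']
    rw [e]
    simp only [hB', hcl, projIcc_of_mem hab hx]

lemma sol_close (κ : n → ℝ) (a b : ℝ) : ∃ L : ℝ, ∀ (W1 B1 B1' W2 B2 B2' : ℝ → Matrix n n ℝ)
    (ε : ℝ), Sol κ a b W1 B1 B1' → Sol κ a b W2 B2 B2' →
    (∀ x ∈ Icc a b, dist (W2 x) (W1 x) ≤ ε) → ∀ x ∈ Icc a b,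
      dist (B1 x) (B2 x) ≤ gronwallBound 0 L ε (x - a) := by
  obtain ⟨L, hL⟩ := (QQ_smooth κ).lipschitzWith_of_hasCompactSupport (QQ_supp κ) one_ne_zero
  refine ⟨L, fun W1 B1 B1' W2 B2 B2' ε h1 h2 hε x hx => ?_⟩
  have := dist_le_of_approx_trajectories_ODE (v := fun t u => W1 t - QQ κ u) (K := L)
    (f := B1) (g := B2) (f' := B1') (g' := B2') (a := a) (b := b) (εf := 0) (εg := ε) (δ := 0)
    (fun t => LipschitzWith.of_dist_le_mul fun u v => by
      rw [dist_sub_left]; exact hL.dist_le_mul u v)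
    (fun t _ => (h1.der t).continuousAt.continuousWithinAt)
    (fun t _ => (h1.der t).hasDerivWithinAt)
    (fun t ht => by rw [h1.ode t (Ico_subset_Icc_self ht)]; simp)
    (fun t _ => (h2.der t).continuousAt.continuousWithinAt)
    (fun t _ => (h2.der t).hasDerivWithinAt)
    (fun t ht => by
      rw [h2.ode t (Ico_subset_Icc_self ht), dist_sub_right]
      exact hε t (Ico_subset_Icc_self ht))
    (by rw [h1.init, h2.init]; simp) x hx
  simpa using this

end Vale.Agent.P371
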