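import Vale.Agent.P371.Generic

/-! The equivariant parity lemma: a sign-equivariant map has a zero. -/

namespace Vale.Agent.P371

open Finset Filter Topology

variable {ι ρ : Type*} [Fintype ι] [DecidableEq ι] [Fintype ρ] [LinearOrder ρ]

open Classical in
noncomputable def om {V : Type*} (F : V → ι → ℝ) : Co V :=
  fun l => if (0 : ι → ℝ) ∈ convexHull ℝ (F '' {v | v ∈ l}) then 1 else 0

omit [DecidableEq ι] in
lemma om_dl {V : Type*} [DecidableEq V] (F : V → ι → ℝ) {l : List V}
    (hl : l.length = Fintype.card ι + 2)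
    (G : ∀ s ⊆ l.toFinset, s.card ≤ Fintype.card ι → 0 ∉ convexHull ℝ (F '' s)) :
    dl0 (om F) l = 0 := by
  classical
  have h := two_good (E := ι → ℝ) (N := l.length) (by simpa using hl) (fun k => F l[k])
    fun T hT => by
      have := G (T.image fun k : Fin l.length => l[k]) (fun v hv => by
        obtain ⟨k, -, rfl⟩ := Finset.mem_image.mp hv
        simp) (Finset.card_image_le.trans (by simpa using hT))
      rwa [Finset.coe_image, Set.image_image] at this
  rw [dl0_eq, ← Fin.sum_univ_eq_sum_range (fun i => om F (l.eraseIdx i))]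
  have e : ∀ i : Fin l.length, F '' {v | v ∈ l.eraseIdx i} =
      (fun k : Fin l.length => F l[k]) '' (Finset.univ.erase i : Finset _) := by
    intro i
    ext y
    simp only [Set.mem_image, Set.mem_setOf_eq, List.mem_eraseIdx_iff_getElem, Finset.coe_erase,
      Finset.coe_univ, Set.mem_diff, Set.mem_univ, Set.mem_singleton_iff, true_and]
    constructor
    · rintro ⟨v, ⟨k, hk, h1, rfl⟩, rfl⟩
      exact ⟨⟨k, hk⟩, fun e => h1 (congrArg Fin.val e), rfl⟩
    · rintro ⟨k, h1, rfl⟩
      exact ⟨_, ⟨k, k.2, fun e => h1 (Fin.ext e), rfl⟩, rfl⟩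
  simp only [om, e]
  rw [Finset.sum_boole]
  exact (ZMod.natCast_eq_zero_iff_even).mpr (by convert h)

omit [Fintype ρ] [LinearOrder ρ] in
lemma Inv.toF {r : ι → ρ} {dg : ρ → ι} {Mn : ℕ} {l : List (Option ι → ℤ)}
    (h : Inv (MM Mn) (SG r dg) l) : InvF r dg Mn l.toFinset := fun u hu v hv =>
  h u (List.mem_toFinset.mp hu) v (List.mem_toFinset.mp hv)

omit [Fintype ι] [DecidableEq ι] in
lemma om_zero {V : Type*} [DecidableEq V] {F : V → ι → ℝ} {l : List V}
    (h : 0 ∉ convexHull ℝ (F '' l.toFinset)) : om F l = 0 := by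
  rw [List.coe_toFinset] at h
  exact if_neg h

omit [Fintype ρ] in
lemma comb {r col : ι → ρ} {dg : ρ → ι} (ht : Tri r col dg) {Mn : ℕ}
    {F : (Option ι → ℤ) → ι → ℝ} {cs : List (Option ι)} (hnd : cs.Nodup) (hno : none ∉ cs)
    (hall : ∀ c, some c ∈ cs) (hlen : cs.length = Fintype.card ι)
    (G : ∀ s, InvF r dg Mn s → s.card ≤ Fintype.card ι → 0 ∉ convexHull ℝ (F '' s))
    (Z0 : ∀ s, InvF r dg Mn s → (∀ v ∈ s, v none = 0) → 0 ∉ convexHull ℝ (F '' s))
    (Far : ∀ s c, InvF r dg Mn s → (∀ v ∈ s, |v (some c)| = Mn) → 0 ∉ convexHull ℝ (F '' s))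
    (Row : ∀ s j, InvF r dg Mn s → (∀ v ∈ s, ∀ c, r c = j → v (some c) = 0) →
      0 ∉ convexHull ℝ (F '' s))
    (Eqv : ∀ e : ρ → ℤ, (∀ j, e j = 1 ∨ e j = -1) → ∀ v, F (flp r e v) = tau r col e (F v)) :
    TT (MM Mn) (SG r dg) cs (pb (st none 1) (om F)) [0] = 0 := by
  classical
  have hS := SG_pm r dg
  have i0 : Inv (MM Mn) (SG r dg) [(0 : Option ι → ℤ)] := by
    intro u hu v hv c
    simp only [List.mem_singleton] at hu hv
    subst hu hv
    exact ⟨by simp, by simp, 1, SG_one r dg c, 0, Nat.zero_le _, by simp⟩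
  have van : ∀ (L : List (Option ι)) (c : Option ι), ∀ s ∈ SG r dg c, ∀ k : ℕ, k ≤ MM Mn c →
      (∀ t, InvF r dg Mn t → (∀ v ∈ t, v c = s * k) → 0 ∉ convexHull ℝ (F '' t)) →
      TT (MM Mn) (SG r dg) L (pb (st c (s * k)) (om F)) [0] = 0 := by
    intro L c s hs k hk H
    refine TT_vanish hS L _ i0 fun l' h1 _ => om_zero (H _ (h1.map_st hS hs hk).toF ?_)
    intro v hv
    obtain ⟨y, -, rfl⟩ := List.mem_map.mp (List.mem_toFinset.mp hv)
    simp [st]
  obtain ⟨LL, hLL, key0⟩ := TT_dl' (MM Mn) (SG r dg) (List.nodup_cons.mpr ⟨hno, hnd⟩) (om F)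
  have key := congrFun key0 [0]
  have k1 : TT (MM Mn) (SG r dg) (none :: cs) (dl (om F)) [0] = 0 :=
    TT_vanish hS _ _ i0 fun l' h1 h2 => om_dl F (by rw [h2]; simp [hlen]; ring)
      fun s hs hc => G s (fun u hu v hv => h1.toF u (hs hu) v (hs hv)) hc
  have k2 : dl (TT (MM Mn) (SG r dg) (none :: cs) (om F)) [0] = 0 := by
    change TT (MM Mn) (SG r dg) (none :: cs) (om F) [] + 0 = 0
    simp only [TT, AddMonoidHom.comp_apply, Ic, Ih, AddMonoidHom.finset_sum_apply,
      Finset.sum_apply, add_zero]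
    exact Finset.sum_eq_zero fun _ _ => Finset.sum_eq_zero fun _ _ => rfl
  rw [k1, Pi.add_apply, k2, zero_add, Pi.add_apply, Finset.sum_apply, Finset.sum_eq_zero,
    add_zero] at key
  · have z := van cs none 1 (by simp [SG]) 0 (Nat.zero_le _) fun t h1 h2 => Z0 t h1 (by simpa using h2)
    simp only [ends, SG, MM, Finset.sum_singleton, AddMonoidHom.add_apply, map_add,
      Pi.add_apply] at key
    simp only [Nat.cast_zero, mul_zero] at z
    rw [z, zero_add] at key
    simpa using key.symm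
  rintro (_ | c) hc
  · exact absurd (List.mem_toFinset.mp hc) hno
  set L := LL (some c)
  have far : ∀ s ∈ SG r dg (some c),
      TT (MM Mn) (SG r dg) L (pb (st (some c) (s * MM Mn (some c))) (om F)) [0] = 0 :=
    fun s hs => van L _ s hs _ le_rfl fun t h1 h2 => Far t c h1 fun v hv => by
      rw [h2 v hv]; rcases hS _ s hs with rfl | rfl <;> simp [MM]
  simp only [ends, AddMonoidHom.finset_sum_apply, AddMonoidHom.add_apply, map_sum, map_add,
    Finset.sum_apply, Pi.add_apply]
  rw [Finset.sum_congr rfl fun s hs => by rw [far s hs, add_zero]]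
  by_cases hd : c = dg (r c)
  swap
  · simp only [SG, if_neg hd]
    rw [Finset.sum_pair (by norm_num), CharTwo.add_self_eq_zero]
  simp only [SG, if_pos hd, Finset.sum_singleton]
  by_cases hex : ∃ c0, r c0 = r c ∧ c0 ≠ c
  · obtain ⟨c0, h1, h2⟩ := hex
    refine TT_symm (N := fun o => ∃ c', o = some c' ∧ r c' = r c ∧ c' ≠ c) ?_ (c0 := some c0)
      ⟨c0, rfl, h1, h2⟩ ?_ ?_
    · rintro _ ⟨c', rfl, e1, e2⟩
      simp only [SG]
      rw [if_neg]; rw [e1, ← hd]; exact e2
    · exact hLL _ _ (hall c0) (by simpa using h2)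
    · funext l
      set e : ρ → ℤ := fun j => if j = r c then -1 else 1
      have he : ∀ j, e j = 1 ∨ e j = -1 := fun j => by simp only [e]; split_ifs <;> simp
      have e1 : ∀ v, st (some c) 0 (fl (fun o => ∃ c', o = some c' ∧ r c' = r c ∧ c' ≠ c) v) =
          flp r e (st (some c) 0 v) := by
        intro v
        funext o
        rcases o with _ | c'
        · simp [st, fl, flp]
        · by_cases q : c' = c
          · simp [st, flp, q]
          · by_cases q' : r c' = r c <;> simp [st, fl, flp, q, e, q']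
      change om F ((l.map _).map _) = om F (l.map _)
      have e2 : F '' {v | v ∈ (l.map (fl fun o => ∃ c', o = some c' ∧ r c' = r c ∧ c' ≠ c)).map
          (st (some c) 0)} = tau r col e '' (F '' {v | v ∈ l.map (st (some c) 0)}) := by
        ext y
        simp only [Set.mem_image, Set.mem_setOf_eq, List.mem_map]
        constructor
        · rintro ⟨_, ⟨_, ⟨v, hv, rfl⟩, rfl⟩, rfl⟩
          exact ⟨_, ⟨_, ⟨v, hv, rfl⟩, rfl⟩, by rw [e1, Eqv e he]⟩
        · rintro ⟨_, ⟨_, ⟨v, hv, rfl⟩, rfl⟩, rfl⟩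
          exact ⟨_, ⟨_, ⟨v, hv, rfl⟩, rfl⟩, by rw [e1, Eqv e he]⟩
      unfold om
      rw [e2, ← LinearMap.image_convexHull]
      congr 1
      refine propext ⟨?_, fun h => ⟨0, h, map_zero _⟩⟩
      rintro ⟨y, h1, h2⟩
      have := congrArg (tau r col e) h2
      rw [tau_tau r col he, map_zero] at this
      exact this ▸ h1
  · push Not at hex
    have := van L (some c) 1 (SG_one r dg _) 0 (Nat.zero_le _) fun t h1 h2 =>
      Row t (r c) h1 fun v hv c' hc' => by rw [hex c' hc', h2 v hv]; simp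
    simpa using this

omit [Fintype ρ] in
lemma one_end {r col : ι → ρ} {dg : ρ → ι} (ht : Tri r col dg) [Finite ρ] {Mn M1 : ℕ}
    (hM : Fintype.card ι + 2 ≤ M1) {θ : ι → ℝ} (hθ : ∀ c, 0 < θ c ∧ θ c < 1)
    {F : (Option ι → ℤ) → ι → ℝ} (hF : ∀ v, v none = 1 → F v = Gm r col dg M1 θ v)
    {S : Finset (Option ι)} (hno : none ∉ S) (hall : ∀ c, some c ∈ S) {x : Option ι → ℝ}
    (hx : ∀ c, x (some c) = (if c = dg (r c) then M1 else 0 : ℕ) + θ c)
    {l : List (Option ι → ℤ)} (hl : Inv (MM Mn) (SG r dg) l) :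
    om F (l.map (st none 1)) = eta x S l := by
  classical
  have e1 : F '' {v | v ∈ l.map (st none 1)} = Gm r col dg M1 θ '' l.toFinset := by
    have : ∀ v, F (st none 1 v) = Gm r col dg M1 θ v := fun v => by
      rw [hF _ (by simp [st])]; funext c; simp [Gm, st]
    ext y
    simp only [Set.mem_image, Set.mem_setOf_eq, List.mem_map, List.coe_toFinset]
    constructor
    · rintro ⟨_, ⟨v, hv, rfl⟩, rfl⟩
      exact ⟨v, hv, (this v).symm⟩
    · rintro ⟨v, hv, rfl⟩
      exact ⟨_, ⟨v, hv, rfl⟩, this v⟩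
  have e2 := hull_iff_cone l.toFinset
    (fun v : Option ι → ℤ => fun c => if c ∈ S then (v c : ℝ) else 0)
    (fun c => if c ∈ S then x c else 0)
  rw [List.coe_toFinset] at e2
  have e3 : (0 : ι → ℝ) ∈ convexHull ℝ (F '' {v | v ∈ l.map (st none 1)}) ↔ wS S x ∈ cn S l := by
    refine Iff.trans ?_ e2
    rw [e1, ← List.coe_toFinset, hull_iff, hull_iff]
    refine exists_congr fun w => and_congr_right fun w1 => and_congr_right fun w2 => ?_
    rw [model_iff ht hM hθ hl.toF w1 w2]
    constructor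
    · intro h
      funext o
      rcases o with _ | c
      · simp [hno]
      · simp only [Finset.sum_apply, Pi.smul_apply, smul_eq_mul, hall c, if_true, h c, hx]
    · intro h c
      have := congrFun h (some c)
      simpa only [Finset.sum_apply, Pi.smul_apply, smul_eq_mul, hall c, if_true, hx] using this
  unfold om eta
  simp only [e3]

theorem parity {r col : ι → ρ} {dg : ρ → ι} (ht : Tri r col dg) {f : (ι → ℝ) → ι → ℝ}
    (hf : Continuous f) (heq : ∀ e : ρ → ℤ, (∀ j, e j = 1 ∨ e j = -1) → ∀ x,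
      f (fun c => e (r c) * x c) = fun c => (e (r c) : ℝ) * e (col c) * f x c)
    (hz : ∀ x j, (∀ c, r c = j → x c = 0) → f x (dg j) < 0) {ρ0 : ℝ} (hρ : 0 < ρ0)
    (hfar : ∀ x, ‖x‖ = ρ0 → 0 < ∑ j, f x (dg j)) : ∃ x, f x = 0 := by
  classical
  by_contra hne
  push Not at hne
  have hQ := isCompact_closedBall (0 : ι → ℝ) ρ0
  have ev : ∀ {K : Set (ι → ℝ)}, IsCompact K → ∀ {g : (ι → ℝ) → ℝ}, Continuous g →
      (∀ x ∈ K, 0 < g x) → ∀ᶠ η in 𝓝[>] (0 : ℝ), ∀ x ∈ K, η ≤ g x := by
    intro K hK g hg h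
    obtain ⟨a, ha, H⟩ := hK.exists_forall_le' hg.continuousOn h
    filter_upwards [Ioo_mem_nhdsGT ha] with η hη x hx using hη.2.le.trans (H x hx)
  have a1 := ev hQ hf.norm fun x _ => norm_pos_iff.mpr (hne x)
  have a2 : ∀ᶠ η in 𝓝[>] (0 : ℝ), ∀ j, ∀ x ∈ Metric.closedBall (0 : ι → ℝ) ρ0 ∩
      {x | ∀ c, r c = j → x c = 0}, η ≤ -f x (dg j) := eventually_all.mpr fun j =>
    ev (hQ.inter_right (by
      simp only [Set.setOf_forall]
      exact isClosed_iInter fun c => isClosed_iInter fun _ =>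
        isClosed_eq (continuous_apply c) continuous_const)) (by fun_prop)
      fun x hx => neg_pos.mpr (hz x j hx.2)
  have a3 := ev (isCompact_sphere (0 : ι → ℝ) ρ0) (g := fun x => ∑ j, f x (dg j)) (by fun_prop)
    fun x hx => hfar x (by simpa using hx)
  obtain ⟨η, ⟨⟨a1, a2⟩, a3⟩, hη⟩ := (((a1.and a2).and a3).and self_mem_nhdsWithin).exists
  have hη : 0 < η := hη
  obtain ⟨δ, hδ, uc⟩ := Metric.uniformContinuousOn_iff.mp
    (hQ.uniformContinuousOn_of_continuous hf.continuousOn) (η / 3) (by positivity)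
  set d := Fintype.card ι with hd
  set N := Fintype.card ρ with hN
  set M1 := d + 2 with hM1
  obtain ⟨Mn, hMn⟩ := exists_nat_gt (max (ρ0 / δ) ((N + 1) * M1 + d : ℕ))
  have hMn1 : ρ0 / δ < Mn := lt_of_le_of_lt (le_max_left _ _) hMn
  have hMn2 : (N + 1) * M1 + d < Mn := by exact_mod_cast lt_of_le_of_lt (le_max_right _ _) hMn
  have hMn0 : (0 : ℝ) < Mn := lt_trans (by positivity) hMn1
  set h := ρ0 / Mn with hh
  have h0 : 0 < h := by positivity
  have hδ' : h < δ := by rw [hh, div_lt_iff₀ hMn0]; rw [div_lt_iff₀ hδ] at hMn1; linarith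
  have hM : h * Mn = ρ0 := by rw [hh]; field_simp
  obtain ⟨θ, t1, t2, t3⟩ := exists_theta (ι := ι) Mn
    fun c => ((if c = dg (r c) then M1 else 0 : ℕ) : ℝ)
  have hη' : 0 < η / (3 * (N + 1)) := by positivity
  obtain ⟨ξ, x1, x2⟩ := exists_xi r col dg Mn M1 θ f h hη' (fun s h1 h2 h3 => by
    obtain ⟨w, w1, w2, w3⟩ := (hull_iff _ _ _).mp h3
    exact t3 s h1.box h2 w w2 ((model_iff ht le_rfl t1 h1 w1 w2).mp w3))
    ((Box ι Mn).image (nrm r))
  set F := FF r col dg M1 θ f h ξ with hF
  set P : (Option ι → ℤ) → ι → ℝ := fun v c => h * v (some c) with hP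
  have inQ : ∀ s, InvF r dg Mn s → ∀ v ∈ s, P v ∈ Metric.closedBall (0 : ι → ℝ) ρ0 := by
    intro s hs v hv
    rw [mem_closedBall_zero_iff, pi_norm_le_iff_of_nonneg hρ.le]
    intro c
    obtain ⟨s', h1, k, h2, e⟩ := (hs v hv v hv (some c)).2.2
    have h3 : (k : ℝ) ≤ Mn := by exact_mod_cast h2
    rw [hP, Real.norm_eq_abs, abs_mul, abs_of_pos h0, ← hM, e]
    rcases SG_pm r dg _ s' h1 with rfl | rfl <;> simpa [h0] using h3
  have pert : ∀ v, v none = 0 → ∀ c, |F v c - f (P v) c| ≤ η / (3 * (N + 1)) := by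
    intro v hv c
    simp only [hF, FF, if_pos hv, Pi.add_apply, hP, add_sub_cancel_left, tau, LinearMap.coe_mk,
      AddHom.coe_mk, abs_mul]
    have b1 : |(sgr r v (r c) : ℝ)| ≤ 1 := by exact_mod_cast sg0_abs _
    have b2 : |(sgr r v (col c) : ℝ)| ≤ 1 := by exact_mod_cast sg0_abs _
    have b3 := (norm_le_pi_norm (ξ (nrm r v)) c).trans (x1 _)
    rw [Real.norm_eq_abs] at b3
    exact (mul_le_of_le_one_left (abs_nonneg _) (mul_le_one₀ b1 (abs_nonneg _) b2)).trans b3
  have small : η / (3 * (N + 1)) ≤ η / 3 := by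
    gcongr; linarith [show (0 : ℝ) ≤ N from Nat.cast_nonneg _]
  have near : ∀ s, InvF r dg Mn s → ∀ u ∈ s, ∀ v ∈ s, v none = 0 → ∀ c,
      |F v c - f (P u) c| < 2 * η / 3 := by
    intro s hs u hu v hv hv0 c
    have b1 : dist (P v) (P u) < δ := by
      refine lt_of_le_of_lt ((dist_pi_le_iff h0.le).mpr fun c => ?_) hδ'
      have : |(v (some c) : ℝ) - u (some c)| ≤ 1 := by exact_mod_cast (hs v hv u hu (some c)).1
      rw [hP, Real.dist_eq, ← mul_sub, abs_mul, abs_of_pos h0]
      exact mul_le_of_le_one_right h0.le this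
    have b2 := (dist_le_pi_dist _ _ c).trans_lt (uc _ (inQ s hs v hv) _ (inQ s hs u hu) b1)
    rw [Real.dist_eq] at b2
    have b3 := pert v hv0 c
    have := abs_sub_le (F v c) (f (P v) c) (f (P u) c)
    linarith
  have Row' : ∀ s j, InvF r dg Mn s → ∀ u ∈ s, (∀ c, r c = j → u (some c) = 0) →
      0 ∉ convexHull ℝ (F '' s) := by
    intro s j hs u hu hu0
    refine not_hull (-LinearMap.proj (dg j)) fun v hv => ?_
    simp only [LinearMap.neg_apply, LinearMap.proj_apply, neg_pos]
    by_cases hv0 : v none = 0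
    · have b1 := abs_lt.mp (near s hs u hu v hv hv0 (dg j))
      have b2 := a2 j (P u) ⟨inQ s hs u hu, fun c hc => by simp [hP, hu0 c hc]⟩
      linarith [b1.2]
    · simp only [hF, FF, if_neg hv0, Gm, ht.hr, if_true]
      have : ∑ c' with r c' = j, (|(v (some c') : ℝ)| - θ c') ≤ ∑ _c' : ι, (1 : ℝ) := by
        refine (Finset.sum_le_sum (g := fun _ => (1 : ℝ)) fun c' hc' => ?_).trans
          (Finset.sum_le_sum_of_subset_of_nonneg (Finset.subset_univ _) fun _ _ _ => zero_le_one)
        have b1 := (hs v hv u hu (some c')).1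
        rw [hu0 c' (Finset.mem_filter.mp hc').2, sub_zero] at b1
        have : |(v (some c') : ℝ)| ≤ 1 := by exact_mod_cast b1
        linarith [(t1 c').1]
      simp only [Finset.sum_const, Finset.card_univ, nsmul_eq_mul, mul_one] at this
      rw [hM1]; push_cast; linarith
  set e := Fintype.equivFin ι
  set cs : List (Option ι) := List.ofFn fun k => some (e.symm k) with hcs
  have hnd : cs.Nodup := List.nodup_ofFn.mpr fun a b h => e.symm.injective (Option.some.inj h)
  have hno : none ∉ cs := by simp [hcs, List.mem_ofFn]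
  have hall : ∀ c, some c ∈ cs := fun c => List.mem_ofFn.mpr ⟨e c, by simp⟩
  have key := comb (Mn := Mn) (F := F) ht hnd hno hall (by simp [hcs, hd]) ?_ ?_ ?_ ?_
    fun e he v => FF_flp ht M1 θ heq h ξ he v
  · set x : Option ι → ℝ := fun o => (o.elim 0 fun c => if c = dg (r c) then M1 else 0 : ℕ) +
      o.elim (1 / 2) θ
    have k2 := TT_eta (M := MM Mn) (SG_pm r dg) (SG_one r dg)
      (fun o => o.elim 0 fun c => if c = dg (r c) then M1 else 0) (fun o => o.elim (1 / 2) θ) x
      (fun _ => rfl) cs hnd (fun o ho => by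
        obtain ⟨k, rfl⟩ := List.mem_ofFn.mp ho
        refine ⟨(t1 _).1, (t1 _).2, ?_⟩
        simp only [Option.elim, MM]
        split_ifs <;> nlinarith)
      (List.pairwise_ofFn.mpr fun a b h => t2 _ _ (by simpa [e] using h)) ∅ (by simp) 0 [] 1
      (fun o ho => by
        obtain ⟨k, rfl⟩ := List.mem_ofFn.mp ho
        simpa using (t1 _).1)
      (fun a0 _ z hz ee => by
        have : z = 0 := by simpa [cn] using hz
        have h2 := congrArg Prod.fst ee
        rw [this] at h2
        simp only [wS, add_zero, Prod.smul_fst, smul_eq_mul, mul_one] at h2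
        exact h2.le)
    have k3 : eta x ∅ [0] = 1 := by
      unfold eta
      rw [if_pos]
      exact Submodule.subset_span ⟨0, by simp, by simp [wS]⟩
    have i0 : Inv (MM Mn) (SG r dg) [(0 : Option ι → ℤ)] := by
      intro u hu v hv c
      simp only [List.mem_singleton] at hu hv
      subst hu hv
      exact ⟨by simp, by simp, 1, SG_one r dg c, 0, Nat.zero_le _, by simp⟩
    have k4 := TT_vanish (SG_pm r dg) cs (pb (st none 1) (om F) + eta x (∅ ∪ cs.toFinset)) i0
      fun l' h1 _ => by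
        change om F (l'.map _) + _ = 0
        rw [one_end (x := x) (M1 := M1) (S := ∅ ∪ cs.toFinset) ht le_rfl t1
          (fun v hv => by simp [hF, FF, hv]) (by simpa using hno) (by simpa using hall)
          (fun c => rfl) h1, CharTwo.add_self_eq_zero]
    rw [map_add, Pi.add_apply, key, k2, k3] at k4
    simp at k4
  · intro s hs hc
    by_cases hfr : ∀ v ∈ s, Free r v
    · exact x2 s hs hc hfr fun v hv _ => Finset.mem_image_of_mem _ (hs.box hv)
    · simp only [Free, not_forall, not_exists, not_and, not_not] at hfr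
      obtain ⟨u, hu, j, H⟩ := hfr
      exact Row' s j hs u hu H
  · intro s hs H
    rcases s.eq_empty_or_nonempty with rfl | ⟨u, hu⟩
    · simp
    obtain ⟨c, hc⟩ : ∃ c, η ≤ |f (P u) c| := by
      by_contra hc
      push Not at hc
      exact (a1 _ (inQ s hs u hu)).not_gt ((pi_norm_lt_iff hη).mpr hc)
    rcases le_abs.mp hc with hc | hc
    · refine not_hull (LinearMap.proj c) fun v hv => ?_
      have := abs_lt.mp (near s hs u hu v hv (H v hv) c)
      simp only [LinearMap.proj_apply]; linarith [this.1]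
    · refine not_hull (-LinearMap.proj c) fun v hv => ?_
      have := abs_lt.mp (near s hs u hu v hv (H v hv) c)
      simp only [LinearMap.neg_apply, LinearMap.proj_apply]; linarith [this.2]
  · intro s c hs H
    refine not_hull (∑ j, LinearMap.proj (dg j)) fun v hv => ?_
    simp only [LinearMap.sum_apply, LinearMap.proj_apply]
    have hv1 : |(v (some c) : ℝ)| = Mn := by exact_mod_cast H v hv
    by_cases hv0 : v none = 0
    · have b1 := a3 (P v) (by
        rw [mem_sphere_zero_iff_norm]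
        refine le_antisymm (mem_closedBall_zero_iff.mp (inQ s hs v hv)) ?_
        refine le_of_eq_of_le ?_ (norm_le_pi_norm (P v) c)
        rw [hP, Real.norm_eq_abs, abs_mul, abs_of_pos h0, hv1, hM])
      have b2 : ∑ j, (f (P v) (dg j) - η / (3 * (N + 1))) ≤ ∑ j, F v (dg j) :=
        Finset.sum_le_sum fun j _ => by linarith [(abs_le.mp (pert v hv0 (dg j))).1]
      simp only [Finset.sum_sub_distrib, Finset.sum_const, Finset.card_univ, nsmul_eq_mul] at b2
      have b3 : (N : ℝ) * (η / (3 * (N + 1))) < η := by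
        rw [← mul_div_assoc, div_lt_iff₀ (by positivity)]
        nlinarith [show (0 : ℝ) ≤ N from Nat.cast_nonneg _]
      linarith
    · simp only [hF, FF, if_neg hv0, Gm, ht.hr, if_true, Finset.sum_sub_distrib,
        Finset.sum_fiberwise, Finset.sum_const, Finset.card_univ, nsmul_eq_mul]
      have b1 := Finset.single_le_sum (f := fun c => |(v (some c) : ℝ)|)
        (fun _ _ => abs_nonneg _) (Finset.mem_univ c)
      have b2 : ∑ c, θ c ≤ ∑ _c : ι, (1 : ℝ) := Finset.sum_le_sum fun c _ => (t1 c).2.le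
      simp only [Finset.sum_const, Finset.card_univ, nsmul_eq_mul, mul_one] at b2
      have b3 : ((N + 1) * M1 + d : ℝ) < Mn := by exact_mod_cast hMn2
      have : (0 : ℝ) ≤ M1 := Nat.cast_nonneg _
      nlinarith
  · intro s j hs H
    rcases s.eq_empty_or_nonempty with rfl | ⟨u, hu⟩
    · simp
    exact Row' s j hs u hu (H u hu)

end Vale.Agent.P371
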