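import Vale.Agent.P371.ODE
import Vale.Agent.P371.Parity

/-! Shooting for the matrix Riccati flow. -/

namespace Vale.Agent.P371

open Matrix Filter Topology MeasureTheory Set
open scoped Matrix.Norms.Elementwise

variable {n : Type*} [Fintype n] [DecidableEq n]

lemma Sol.unique {κ : n → ℝ} {a b : ℝ} {W B1 B1' B2 B2' : ℝ → Matrix n n ℝ}
    (h1 : Sol κ a b W B1 B1') (h2 : Sol κ a b W B2 B2') : ∀ x ∈ Icc a b, B1 x = B2 x := by
  obtain ⟨L, hL⟩ := sol_close κ a b
  intro x hx
  have := hL W B1 B1' W B2 B2' 0 h1 h2 (fun _ _ => by simp) x hx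
  rw [gronwallBound_ε0_δ0] at this
  exact dist_le_zero.mp this

lemma Sol.contB {κ : n → ℝ} {a b : ℝ} {W B B' : ℝ → Matrix n n ℝ} (h : Sol κ a b W B B') :
    Continuous B := continuous_iff_continuousAt.mpr fun x => (h.der x).continuousAt

lemma Sol.entry {κ : n → ℝ} {a b : ℝ} {W B B' : ℝ → Matrix n n ℝ} (h : Sol κ a b W B B')
    (x : ℝ) (i j : n) : HasDerivAt (fun y => B y i j) (B' x i j) x :=
  hasDerivAt_pi.mp (hasDerivAt_pi.mp (h.der x) i) j

lemma QQ_conj (κ : n → ℝ) {e : n → ℝ} (he : ∀ i, e i * e i = 1) (B : Matrix n n ℝ) :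
    QQ κ (diagonal e * B * diagonal e) = diagonal e * QQ κ B * diagonal e := by
  have hD : diagonal e * diagonal e = 1 := by simp [diagonal_mul_diagonal, he]
  have h1 : chi κ (diagonal e * B * diagonal e) = chi κ B := by
    have := hs_conj (O := diagonal e) (O' := diagonal e) (by simpa using hD) (by simpa using hD) B
    rw [diagonal_transpose] at this
    rw [chi, this, chi]
  have hK : diagonal κ * diagonal e = diagonal e * diagonal κ := by
    simp [diagonal_mul_diagonal, mul_comm]
  have h2 : ((2 : ℝ) • diagonal κ - diagonal e * B * diagonal e) * (diagonal e * B * diagonal e) =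
      diagonal e * (((2 : ℝ) • diagonal κ - B) * B) * diagonal e := by
    simp only [Matrix.sub_mul, Matrix.mul_sub, Matrix.smul_mul, Matrix.mul_smul, Matrix.mul_assoc]
    rw [← Matrix.mul_assoc (diagonal κ) (diagonal e), hK, Matrix.mul_assoc,
      ← Matrix.mul_assoc (diagonal e) (diagonal e), hD, Matrix.one_mul]
  rw [QQ, QQ, h1, Matrix.smul_mul, h2, Matrix.smul_mul]
  simp only [transpose_smul, transpose_mul, diagonal_transpose, Matrix.mul_smul, Matrix.smul_mul,
    Matrix.mul_add, Matrix.add_mul, Matrix.mul_assoc]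

lemma Sol.conj {κ : n → ℝ} {a b : ℝ} {W B B' : ℝ → Matrix n n ℝ} (h : Sol κ a b W B B')
    {e : n → ℝ} (he : ∀ i, e i * e i = 1) :
    Sol κ a b (fun x => diagonal e * W x * diagonal e) (fun x => diagonal e * B x * diagonal e)
      (fun x => diagonal e * B' x * diagonal e) where
  sym x := by simp [transpose_mul, h.sym, Matrix.mul_assoc]
  der x := hasDerivAt_pi.mpr fun i => hasDerivAt_pi.mpr fun j => by
    simp only [mul_diagonal, diagonal_mul]
    exact ((h.entry x i j).const_mul _).mul_const _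
  cont := by
    have : Continuous fun X : Matrix n n ℝ => diagonal e * X * diagonal e := by fun_prop
    exact this.comp h.cont
  init := by simp [h.init]
  ode x hx := by rw [h.ode x hx, QQ_conj κ he, Matrix.mul_sub, Matrix.sub_mul]

lemma Sol.contN {κ : n → ℝ} {a b : ℝ} {W B B' : ℝ → Matrix n n ℝ} (h : Sol κ a b W B B') :
    Continuous fun x => chi κ (B x) := (chi_smooth κ).continuous.comp h.contB

lemma Sol.col_zero {κ : n → ℝ} {a b : ℝ} {W B B' : ℝ → Matrix n n ℝ} (h : Sol κ a b W B B')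
    {j : n} (hW : ∀ x i, W x i j = 0) : ∀ x ∈ Icc a b, B x j j = 0 := by
  set M : ℝ → Matrix n n ℝ := fun x =>
    chi κ (B x) • ((2 : ℝ) • diagonal κ - B x + (2 * κ j) • 1 - B x) with hM
  have hMc : Continuous M := by
    have h1 := h.contN
    have h2 : Continuous B := h.contB
    simp only [hM]; fun_prop
  have key := gron (θ := fun x => ∑ i, B x i j ^ 2) (θ' := fun x => ∑ i, 2 * B x i j * B' x i j)
    (c := fun x => l1 (M x)) (a := a) (b := b)
    (fun x _ => HasDerivAt.fun_sum fun i _ => by simpa using (h.entry x i j).fun_pow 2)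
    (continuous_l1.comp hMc) (fun x => Finset.sum_nonneg fun i _ => sq_nonneg _)
    (by simp [h.init])
    (fun x hx => by
      have h1 := quad_le (M x) fun i => B x i j
      have h2 : (fun i => B x i j) ⬝ᵥ (fun i => B x i j) = ∑ i, B x i j ^ 2 := by
        simp [dotProduct, sq]
      rw [h2] at h1
      refine le_trans (le_of_eq ?_) ((neg_le_abs _).trans h1)
      rw [dotProduct, ← Finset.sum_neg_distrib]
      refine Finset.sum_congr rfl fun i _ => ?_
      have h3 : (M x *ᵥ fun i => B x i j) i = (M x * B x) i j := rfl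
      have h4 : B x j i = B x i j := by rw [← transpose_apply (B x), h.sym]
      have h5 : (B x * B x) j i = (B x * B x) i j := by
        rw [← transpose_apply (B x * B x), transpose_mul, h.sym]
      rw [h3, h.ode x hx, hM]
      simp only [QQ, Matrix.smul_mul, Matrix.sub_mul, Matrix.add_mul, Matrix.one_mul,
        Matrix.sub_apply, Matrix.add_apply, Matrix.smul_apply, transpose_apply, diagonal_mul,
        smul_eq_mul, hW, h4, h5]
      ring)
  intro x hx
  have := key x hx
  rw [Finset.sum_eq_zero_iff_of_nonneg fun i _ => sq_nonneg _] at this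
  exact pow_eq_zero_iff two_ne_zero |>.mp (this j (Finset.mem_univ j))

lemma trace_ge (κ : n → ℝ) : ∃ M : ℝ, ∀ (a b : ℝ) (W B B' : ℝ → Matrix n n ℝ), a ≤ b →
    Continuous W → Sol κ a b W B B' →
      (∫ x in a..b, trace (W x)) - M * (b - a) ≤ trace (B b) := by
  obtain ⟨M1, hM1⟩ := (QQ_smooth κ).continuous.bounded_above_of_compact_support (QQ_supp κ)
  refine ⟨Fintype.card n * M1, fun a b W B B' hab hW h => ?_⟩
  have hc : Continuous fun x => trace (B' x) := Continuous.matrix_trace h.cont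
  have hc2 : Continuous fun x => trace (W x) := Continuous.matrix_trace hW
  have h1 := intervalIntegral.integral_eq_sub_of_hasDerivAt (f := fun x => trace (B x))
    (f' := fun x => trace (B' x)) (a := a) (b := b)
    (fun x _ => HasDerivAt.fun_sum fun i _ => h.entry x i i) (hc.intervalIntegrable a b)
  rw [h.init, trace_zero, sub_zero] at h1
  rw [← h1]
  have h2 : ∫ x in a..b, (trace (W x) - Fintype.card n * M1) ≤ ∫ x in a..b, trace (B' x) := by
    refine intervalIntegral.integral_mono_on hab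
      ((hc2.sub continuous_const).intervalIntegrable a b) (hc.intervalIntegrable a b)
      fun x hx => ?_
    rw [h.ode x hx, trace_sub]
    have : trace (QQ κ (B x)) ≤ Fintype.card n * M1 := by
      have := Finset.sum_le_card_nsmul Finset.univ (fun i => QQ κ (B x) i i) M1 fun i _ =>
        (le_abs_self _).trans ((Matrix.norm_entry_le_entrywise_sup_norm _).trans (hM1 _))
      simpa [trace] using this
    linarith
  rw [intervalIntegral.integral_sub (hc2.intervalIntegrable a b) (by simp)] at h2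
  simp only [intervalIntegral.integral_const, smul_eq_mul] at h2
  linarith

omit [DecidableEq n] in
lemma PS.smul {M : Matrix n n ℝ} (h : PS M) {t : ℝ} (ht : 0 ≤ t) : PS (t • M) := fun v => by
  rw [smul_mulVec, dotProduct_smul]; exact mul_nonneg ht (h v)

lemma PS.trace_nonneg {M : Matrix n n ℝ} (h : PS M) : 0 ≤ trace M :=
  Finset.sum_nonneg fun i _ => by simpa using h (Pi.single i 1)

lemma Sol.ric {κ : n → ℝ} (hκ : ∀ i, 0 < κ i) {q a b : ℝ} (hq : 0 ≤ q)
    {Y B B' : ℝ → Matrix n n ℝ} (h : Sol κ a b (fun x => (1 + q) • Y x) B B')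
    (hY : Continuous Y) (hs' : ∀ x, (Y x)ᵀ = Y x) (hp : ∀ x, PS (Y x))
    (hb : B b = (2 : ℝ) • diagonal κ) :
    Ric κ q a b (fun x => diagonal κ - B x) (fun x => -B' x) Y := by
  have hc := h.contN
  have hB : Continuous B := h.contB
  have p1 : ∀ x ∈ Icc a b, PS (B x) :=
    ps_inv (N := fun x => chi κ (B x) • ((2 : ℝ) • diagonal κ - B x)) h.sym h.der (by fun_prop)
      (fun x => (hp x).smul (by linarith)) h.ode h.init
  have p2 : ∀ x ∈ Icc a b, PS ((2 : ℝ) • diagonal κ - B x) := by
    have := ps_inv (C := fun x => (2 : ℝ) • diagonal κ - B (-x)) (C' := fun x => B' (-x))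
      (W := fun x => (1 + q) • Y (-x)) (N := fun x => chi κ (B (-x)) • B (-x)) (a := -b) (b := -a)
      (fun x => by simp [transpose_sub, h.sym])
      (fun x => by
        have := ((h.der (-x)).scomp x (hasDerivAt_neg x)).const_sub ((2 : ℝ) • diagonal κ)
        simp only [neg_smul, one_smul, neg_neg] at this
        exact this)
      ((hc.comp continuous_neg).smul (hB.comp continuous_neg))
      (fun x => (hp _).smul (by linarith))
      (fun x hx => by
        rw [h.ode (-x) ⟨by linarith [hx.2], by linarith [hx.1]⟩, QQ]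
        simp only [Matrix.smul_mul, transpose_smul, transpose_mul, transpose_sub, h.sym,
          diagonal_transpose]
        rw [add_comm (chi κ _ • _)])
      (by simp [hb])
    intro x hx
    simpa using this (-x) ⟨by linarith [hx.2], by linarith [hx.1]⟩
  refine ⟨fun x => by simp [transpose_sub, h.sym], hs', hY, h.cont.neg, fun x i j => ?_,
    fun x hx => ?_, hp, fun x hx => ⟨hκ, by simp [transpose_sub, h.sym], ?_, ?_⟩, by simp [h.init],
    ?_⟩
  · simpa using (h.entry x i j).const_sub (diagonal κ i j)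
  · have h1 : chi κ (B x) = 1 := by
      refine Real.smoothTransition.one_of_one_le ?_
      obtain ⟨O, d, hd⟩ := exists_spec (h.sym x)
      have e : hs (B x) = ∑ i, d i ^ 2 := by
        rw [hs_eq, h.sym, (hd.mul hd).trace]; simp [sq]
      have t1 := (p2 x hx).trace_nonneg
      rw [trace_sub, trace_smul, trace_diagonal, hd.trace, smul_eq_mul] at t1
      have t2 := Finset.sum_sq_le_sq_sum_of_nonneg (s := Finset.univ) (f := d)
        fun i _ => hd.nonneg (p1 x hx) i
      have t3 : 0 ≤ ∑ i, d i := Finset.sum_nonneg fun i _ => hd.nonneg (p1 x hx) i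
      have t4 : (∑ i, d i) ^ 2 ≤ (2 * ∑ i, κ i) ^ 2 := pow_le_pow_left₀ t3 (by linarith) 2
      have : hs (B x) / ((2 * ∑ i, κ i) ^ 2 + 1) ≤ 1 := by
        rw [div_le_one (by positivity)]; linarith
      linarith
    rw [h.ode x hx, QQ, h1]
    simp only [one_smul, transpose_mul, transpose_sub, transpose_smul, h.sym, diagonal_transpose,
      Matrix.sub_mul, Matrix.mul_sub, Matrix.smul_mul, Matrix.mul_smul]
    module
  · convert p2 x hx using 1; module
  · simpa using p1 x hx
  · simp only [hb]; module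

lemma Spec.orth {M O U : Matrix n n ℝ} {d : n → ℝ} (h : Spec M O d) (hU : Uᵀ * U = 1) :
    Spec (U * M * Uᵀ) (U * O) d := by
  refine ⟨?_, ?_⟩
  · rw [transpose_mul, Matrix.mul_assoc, ← Matrix.mul_assoc Uᵀ, hU, Matrix.one_mul, h.oo]
  · rw [h.eq]; simp only [transpose_mul, Matrix.mul_assoc]

lemma fc_orth {M U : Matrix n n ℝ} (h : Mᵀ = M) (hU : Uᵀ * U = 1) (f : ℝ → ℝ) :
    fc f (U * M * Uᵀ) = U * fc f M * Uᵀ := by
  obtain ⟨O, d, hd⟩ := exists_spec h
  rw [((hd.orth hU).fc f).eq, ((hd.fc f).orth hU).eq]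

lemma fc_col_zero {M : Matrix n n ℝ} (h : Mᵀ = M) {j : n} (hj : ∀ i, M i j = 0) {f : ℝ → ℝ}
    (hf : f 0 = 0) (i : n) : fc f M i j = 0 := by
  obtain ⟨O, d, hd⟩ := exists_spec h
  rw [(hd.fc f).eq, Matrix.mul_apply]
  refine Finset.sum_eq_zero fun k _ => ?_
  have := congrFun (congrFun hd.O_mul k) j
  rw [diagonal_mul, Matrix.mul_apply] at this
  simp only [hj, mul_zero, Finset.sum_const_zero] at this
  rw [mul_diagonal]
  rcases mul_eq_zero.mp this.symm with h0 | h0
  · rw [h0, hf]; simp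
  · rw [h0]; simp

omit [DecidableEq n] in
lemma PS.conj {M : Matrix n n ℝ} (h : PS M) (A : Matrix n n ℝ) : PS (A * M * Aᵀ) := fun v => by
  rw [← mulVec_mulVec, ← mulVec_mulVec, dotProduct_mulVec, ← mulVec_transpose]
  exact h _

noncomputable def YY (q : ℝ) (Γ : ℝ → Matrix n n ℝ) (A : Matrix n n ℝ) (t : ℝ) : Matrix n n ℝ :=
  fc (fun t => t ^ q) (A * Γ t * Aᵀ)

structure Gr (Γ : ℝ → Matrix n n ℝ) : Prop where
  cont : Continuous Γ
  sym : ∀ x, (Γ x)ᵀ = Γ x
  ps : ∀ x, PS (Γ x)

section
variable {Γ : ℝ → Matrix n n ℝ} {q : ℝ}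

omit [DecidableEq n] in
lemma Gr.symV (h : Gr Γ) (A : Matrix n n ℝ) (t : ℝ) : (A * Γ t * Aᵀ)ᵀ = A * Γ t * Aᵀ := by
  simp [transpose_mul, h.sym, Matrix.mul_assoc]

lemma Gr.contY (h : Gr Γ) (hq : 0 ≤ q) :
    Continuous fun p : Matrix n n ℝ × ℝ => YY q Γ p.1 p.2 := by
  have := h.cont
  exact fc_continuous (A := fun p : Matrix n n ℝ × ℝ => p.1 * Γ p.2 * p.1ᵀ) (by fun_prop)
      (fun p => h.symV _ _) (Real.continuous_rpow_const hq)

lemma Gr.contY1 (h : Gr Γ) (hq : 0 ≤ q) (A : Matrix n n ℝ) : Continuous (YY q Γ A) :=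
  (h.contY hq).comp (Continuous.prodMk_right A)

lemma Gr.symY (h : Gr Γ) (A : Matrix n n ℝ) (t : ℝ) : (YY q Γ A t)ᵀ = YY q Γ A t := by
  obtain ⟨O, d, hd⟩ := exists_spec (h.symV A t)
  exact (hd.fc _).symm

lemma Gr.psY (h : Gr Γ) (A : Matrix n n ℝ) (t : ℝ) : PS (YY q Γ A t) := by
  obtain ⟨O, d, hd⟩ := exists_spec (h.symV A t)
  exact (hd.fc _).ps fun i => Real.rpow_nonneg (hd.nonneg ((h.ps t).conj _) i) _

variable {κ : n → ℝ} {a b : ℝ} {B B' : Matrix n n ℝ → ℝ → Matrix n n ℝ}

lemma Gr.contB (h : Gr Γ) (hq : 0 ≤ q) (hab : a ≤ b)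
    (hB : ∀ A, Sol κ a b (fun t => (1 + q) • YY q Γ A t) (B A) (B' A)) :
    Continuous fun A => B A b := by
  obtain ⟨L, hL⟩ := sol_close κ a b
  have key : ∀ A0, ∀ ε > 0, ∀ᶠ A in 𝓝 A0, dist (B A b) (B A0 b) < ε := by
    intro x0 ε hε
    have h1 : ∀ᶠ η in 𝓝 (0 : ℝ), gronwallBound 0 L η (b - a) < ε := by
      refine (gronwallBound_continuous_ε 0 L (b - a)).continuousAt.eventually (gt_mem_nhds ?_)
      simpa [gronwallBound_ε0_δ0] using hε
    obtain ⟨η, hη, hη0⟩ := ((h1.filter_mono nhdsWithin_le_nhds).and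
      (self_mem_nhdsWithin (s := Ioi (0 : ℝ)))).exists
    have h2 : ∀ᶠ x in 𝓝 x0, ∀ t ∈ Icc a b,
        dist ((1 + q) • YY q Γ x0 t) ((1 + q) • YY q Γ x t) ≤ η := by
      refine isCompact_Icc.eventually_forall_of_forall_eventually fun t _ => ?_
      have c1 : Continuous fun z : Matrix n n ℝ × ℝ => (1 + q) • YY q Γ x0 z.2 :=
        ((h.contY1 hq x0).comp continuous_snd).const_smul (1 + q)
      have c2 : Continuous fun z : Matrix n n ℝ × ℝ => (1 + q) • YY q Γ z.1 z.2 :=
        (h.contY hq).const_smul (1 + q)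
      have c3 : Continuous fun z : Matrix n n ℝ × ℝ =>
          dist ((1 + q) • YY q Γ x0 z.2) ((1 + q) • YY q Γ z.1 z.2) := Continuous.dist c1 c2
      have : ∀ᶠ z in 𝓝 (x0, t),
          dist ((1 + q) • YY q Γ x0 z.2) ((1 + q) • YY q Γ z.1 z.2) < η :=
        c3.continuousAt.eventually (gt_mem_nhds (by simpa using hη0))
      exact this.mono fun z hz => hz.le
    filter_upwards [h2] with x hx
    exact (hL _ _ _ _ _ _ η (hB x) (hB x0) hx b ⟨hab, le_rfl⟩).trans_lt hη
  exact continuous_iff_continuousAt.mpr fun x0 => Metric.tendsto_nhds.mpr (key x0)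

lemma Gr.equiv (h : Gr Γ) (hab : a ≤ b)
    (hB : ∀ A, Sol κ a b (fun t => (1 + q) • YY q Γ A t) (B A) (B' A)) {e : n → ℝ}
    (he : ∀ i, e i * e i = 1) (A : Matrix n n ℝ) (i j : n) :
    (B (diagonal e * A) b - (2 : ℝ) • diagonal κ) i j =
      e i * e j * (B A b - (2 : ℝ) • diagonal κ) i j := by
  have hD : (diagonal e)ᵀ * diagonal e = 1 := by simp [diagonal_mul_diagonal, he]
  have h2 : (fun t => (1 + q) • YY q Γ (diagonal e * A) t) = fun t =>
      diagonal e * ((1 + q) • YY q Γ A t) * diagonal e := by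
    funext t
    have := fc_orth (h.symV A t) hD fun t => t ^ q
    rw [diagonal_transpose] at this
    simp only [YY, transpose_mul, diagonal_transpose, Matrix.mul_smul, Matrix.smul_mul]
    rw [← this]
    simp only [Matrix.mul_assoc]
  have h3 := hB (diagonal e * A)
  rw [h2] at h3
  have h4 := h3.unique ((hB A).conj he) b ⟨hab, le_rfl⟩
  simp only [h4, Matrix.sub_apply, mul_diagonal, diagonal_mul, Matrix.smul_apply, smul_eq_mul,
    diagonal_apply]
  split_ifs with h
  · rw [← h]; linear_combination (2 * κ i) * he i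
  · ring

lemma Gr.zero (h : Gr Γ) (hq : 0 < q) (hab : a ≤ b)
    (hB : ∀ A, Sol κ a b (fun t => (1 + q) • YY q Γ A t) (B A) (B' A)) {A : Matrix n n ℝ} {j : n}
    (h1 : ∀ k, A j k = 0) : B A b j j = 0 :=
  (hB A).col_zero (j := j) (fun t i => by
    rw [Matrix.smul_apply, YY, fc_col_zero (f := fun t => t ^ q) (h.symV A t) (fun i => ?_)
      (Real.zero_rpow hq.ne'), smul_zero]
    rw [Matrix.mul_apply]
    simp [h1]) b ⟨hab, le_rfl⟩

lemma Gr.far (h : Gr Γ) (hq : 1 ≤ q) (hab : a ≤ b)
    (hB : ∀ A, Sol κ a b (fun t => (1 + q) • YY q Γ A t) (B A) (B' A))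
    (hG : ∀ A, hs A / 2 ≤ ∫ x in a..b, trace (A * Γ x * Aᵀ)) :
    ∃ C, ∀ A, hs A / 2 - C ≤ trace (B A b) := by
  obtain ⟨M, hM⟩ := trace_ge κ
  refine ⟨(b - a) * Fintype.card n + M * (b - a), fun A => ?_⟩
  have cY := h.contY1 (q := q) (by linarith) A
  have h2 := hM a b (fun t => (1 + q) • YY q Γ A t) _ _ hab (cY.const_smul (1 + q)) (hB A)
  have h3 := hG A
  have hc := h.cont
  have c1 : Continuous fun t => trace (A * Γ t * Aᵀ) := by fun_prop
  have c2 : Continuous fun t => trace ((1 + q) • YY q Γ A t) := by fun_prop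
  have h4 : ∫ t in a..b, (trace (A * Γ t * Aᵀ) - Fintype.card n) ≤
      ∫ t in a..b, trace ((1 + q) • YY q Γ A t) := by
    refine intervalIntegral.integral_mono_on hab
      ((c1.sub continuous_const).intervalIntegrable a b) (c2.intervalIntegrable a b) fun t _ => ?_
    obtain ⟨O, d, hd⟩ := exists_spec (h.symV A t)
    rw [trace_smul, YY, (hd.fc _).trace, hd.trace, smul_eq_mul, Finset.mul_sum]
    have : ∑ i, d i - Fintype.card n = ∑ i, (d i - 1) := by simp [Finset.sum_sub_distrib]
    rw [this]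
    refine Finset.sum_le_sum fun i _ => ?_
    have d0 := hd.nonneg ((h.ps t).conj _) i
    have d1 := Real.rpow_nonneg d0 q
    rcases le_total (d i) 1 with h | h
    · nlinarith
    · have := Real.self_le_rpow_of_one_le h hq
      nlinarith
  rw [intervalIntegral.integral_sub (c1.intervalIntegrable a b) (by simp)] at h4
  simp only [intervalIntegral.integral_const, smul_eq_mul] at h4
  linarith

end

def mat [LinearOrder n] (x : {p : n × n // p.2 ≤ p.1} → ℝ) : Matrix n n ℝ :=
  Matrix.of fun i j => if h : j ≤ i then x ⟨(i, j), h⟩ else 0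

omit [Fintype n] [DecidableEq n] in
lemma mat_cont [LinearOrder n] : Continuous (mat (n := n)) := by
  refine continuous_pi fun i => continuous_pi fun j => ?_
  by_cases h : j ≤ i
  · simp only [mat, of_apply, dif_pos h]; fun_prop
  · simp only [mat, of_apply, dif_neg h]; fun_prop

theorem shoot [LinearOrder n] {κ : n → ℝ} (hκ : ∀ i, 0 < κ i) {q a b : ℝ} (hq : 1 ≤ q)
    (hab : a ≤ b) {Γ : ℝ → Matrix n n ℝ} (h : Gr Γ)
    (hG : ∀ A, hs A / 2 ≤ ∫ x in a..b, trace (A * Γ x * Aᵀ)) :
    ∃ A S S', (∀ i j, i < j → A i j = 0) ∧ Ric κ q a b S S' (YY q Γ A) := by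
  have ex : ∀ A, ∃ B B', Sol κ a b (fun t => (1 + q) • YY q Γ A t) B B' := fun A =>
    exists_sol κ hab ((h.contY1 (q := q) (by linarith) A).const_smul (1 + q)) fun t => by
      rw [transpose_smul, h.symY]
  choose B B' hB using ex
  have hBc := h.contB (by linarith) hab hB
  obtain ⟨C, hC⟩ := h.far hq hab hB hG
  obtain ⟨x, hx⟩ := parity (ι := {p : n × n // p.2 ≤ p.1}) (r := fun c => c.1.1)
    (col := fun c => c.1.2) (dg := fun j => ⟨(j, j), le_rfl⟩)
    ⟨fun _ => rfl, fun _ => rfl, fun c hc => lt_of_le_of_ne c.2 fun e => hc (by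
      obtain ⟨⟨i, j⟩, h⟩ := c
      simp only at e
      subst e; rfl)⟩
    (f := fun x c => (B (mat x) b - (2 : ℝ) • diagonal κ) c.1.1 c.1.2)
    (continuous_pi fun c => by
      have : Continuous fun X : Matrix n n ℝ => (X - (2 : ℝ) • diagonal κ) c.1.1 c.1.2 := by
        fun_prop
      exact this.comp (hBc.comp mat_cont))
    (fun e he x => by
      have he' : ∀ i, (e i : ℝ) * e i = 1 := fun i => by
        rcases he i with h | h <;> simp [h]
      have h1 : mat (fun c => e c.1.1 * x c) = diagonal (fun i => (e i : ℝ)) * mat x := by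
        ext i j
        simp only [mat, diagonal_mul, of_apply]
        split_ifs <;> simp
      funext c
      rw [h1]
      exact h.equiv hab hB he' _ _ _)
    (fun x j hj => by
      have h1 : ∀ k, mat x j k = 0 := fun k => by
        simp only [mat, of_apply]
        split_ifs with h
        · exact hj _ rfl
        · rfl
      have h2 := h.zero (by linarith) hab hB h1
      simp only [Matrix.sub_apply, h2, Matrix.smul_apply, diagonal_apply_eq, smul_eq_mul]
      linarith [hκ j])
    (ρ0 := √(2 * (|C + 2 * ∑ i, κ i| + 1))) (Real.sqrt_pos.mpr (by positivity))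
    (fun x hx => by
      have h1 : √(2 * (|C + 2 * ∑ i, κ i| + 1)) ≤ √(hs (mat x)) := by
        rw [← hx, pi_norm_le_iff_of_nonneg (Real.sqrt_nonneg _)]
        intro c
        have := Real.abs_le_sqrt (sq_le_hs (mat x) c.1.1 c.1.2)
        simpa [mat, c.2] using this
      rw [Real.sqrt_le_sqrt_iff (hs_nonneg _)] at h1
      have h5 : ∑ j, (B (mat x) b - (2 : ℝ) • diagonal κ) j j =
          trace (B (mat x) b) - 2 * ∑ i, κ i := by
        simp [trace, Finset.sum_sub_distrib, Finset.mul_sum]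
      show 0 < ∑ j, (B (mat x) b - (2 : ℝ) • diagonal κ) j j
      rw [h5]
      have h7 := le_abs_self (C + 2 * ∑ i, κ i)
      linarith [hC (mat x)])
  refine ⟨mat x, _, _, fun i j hij => by simp [mat, hij], (hB _).ric hκ (by linarith)
    (h.contY1 (by linarith) _) (h.symY _) (h.psY _) ?_⟩
  have h1 : ∀ i j, j ≤ i → B (mat x) b i j = ((2 : ℝ) • diagonal κ) i j := fun i j h =>
    sub_eq_zero.mp (congrFun hx ⟨(i, j), h⟩)
  ext i j
  rcases le_total j i with h | h
  · exact h1 i j h
  · have h2 : B (mat x) b i j = B (mat x) b j i := by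
      rw [← transpose_apply (B (mat x) b), (hB _).sym]
    rw [h2, h1 j i h]
    by_cases e : i = j
    · rw [e]
    · simp [diagonal_apply_ne _ e, diagonal_apply_ne _ (Ne.symm e)]

end Vale.Agent.P371
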