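import Vale.Agent.P371.FC

/-! Two trace inequalities: Gibbs + Golden-Thompson, and a Fiedler type bound. -/

namespace Vale.Agent.P371

open Matrix Filter Topology Finset

variable {n : Type*} [Fintype n] [DecidableEq n]

noncomputable def ee (u x y : ℝ) : ℝ :=
  if x = y then Real.log (x + u) + x / (x + u)
  else (x * Real.log (x + u) - y * Real.log (y + u)) / (x - y)

noncomputable def xl (x : ℝ) : ℝ := x * Real.log x

lemma continuous_xl : Continuous xl := Real.continuous_mul_log

lemma xl_deriv {x : ℝ} (hx : 0 < x) : HasDerivAt xl (Real.log x + 1) x :=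
  Real.hasDerivAt_mul_log hx.ne'

lemma log_add_deriv {x u : ℝ} (h : 0 < x + u) :
    HasDerivAt (fun u => Real.log (x + u)) (1 / (x + u)) u := by
  simpa using ((hasDerivAt_id u).const_add x).log h.ne'

lemma div_add_deriv (c : ℝ) {x u : ℝ} (h : 0 < x + u) :
    HasDerivAt (fun u => c / (x + u)) (-c / (x + u) ^ 2) u := by
  have := (hasDerivAt_const u c).fun_div ((hasDerivAt_id u).const_add x) h.ne'
  simpa using this

lemma ee_deriv {x y u : ℝ} (hx : 0 < x) (hy : 0 < y) (hu : 0 ≤ u) :
    HasDerivAt (fun u => ee u x y) (u / ((x + u) * (y + u))) u := by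
  have h1 : 0 < x + u := by linarith
  have h2 : 0 < y + u := by linarith
  unfold ee
  split_ifs with h
  · subst h
    refine ((log_add_deriv h1).fun_add (div_add_deriv x h1)).congr_deriv ?_
    field_simp; ring
  · have h3 : x - y ≠ 0 := sub_ne_zero.mpr h
    refine ((((log_add_deriv h1).const_mul x).fun_sub
      ((log_add_deriv h2).const_mul y)).div_const (x - y)).congr_deriv ?_
    field_simp; ring

lemma log_lim (x : ℝ) : Tendsto (fun u => Real.log (x + u) - Real.log u) atTop (𝓝 0) := by
  simpa only [add_comm] using Real.tendsto_log_comp_add_sub_log x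

lemma div_lim (c x : ℝ) : Tendsto (fun u => c / (x + u)) atTop (𝓝 0) :=
  tendsto_const_nhds.div_atTop (tendsto_atTop_add_const_left _ _ tendsto_id)

lemma ee_lim (x y : ℝ) : Tendsto (fun u => ee u x y - Real.log u) atTop (𝓝 0) := by
  unfold ee
  split_ifs with h
  · have := (log_lim x).add (div_lim x x)
    rw [add_zero] at this
    exact this.congr fun u => by ring
  · have h3 : x - y ≠ 0 := sub_ne_zero.mpr h
    have := (((log_lim x).const_mul x).sub ((log_lim y).const_mul y)).div_const (x - y)
    simp only [mul_zero, sub_zero, zero_div] at this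
    refine this.congr fun u => ?_
    field_simp; ring

lemma ee_zero {x y : ℝ} (hy : 0 < y) : dslope xl y x = ee 0 x y := by
  unfold ee
  split_ifs with h
  · subst h
    rw [dslope_same, (xl_deriv hy).deriv, add_zero, div_self hy.ne']
  · rw [dslope_of_ne _ h, slope_def_field]; simp [xl]

lemma ee_same {x : ℝ} (hx : 0 < x) : ee 0 x x = Real.log x + 1 := by
  simp [ee, hx.ne']

lemma ee_scale {a c b : ℝ} (ha : 0 < a) (hc : 0 < c) (hb : 0 < b) :
    ee 0 (a * b) (c * b) = Real.log b + ee 0 a c := by
  by_cases h : a = c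
  · subst h
    rw [ee_same (mul_pos ha hb), ee_same ha, Real.log_mul ha.ne' hb.ne']; ring
  · have h' : a * b ≠ c * b := fun e => h (mul_right_cancel₀ hb.ne' e)
    have h3 : a - c ≠ 0 := sub_ne_zero.mpr h
    have h4 : a * b - c * b ≠ 0 := sub_ne_zero.mpr h'
    simp only [ee, if_neg h, if_neg h', add_zero]
    rw [Real.log_mul ha.ne' hb.ne', Real.log_mul hc.ne' hb.ne']
    field_simp; ring

lemma nonneg_of_antitone {F F' : ℝ → ℝ} (hd : ∀ u, 0 ≤ u → HasDerivAt F (F' u) u)
    (hn : ∀ u, 0 < u → F' u ≤ 0) (hl : Tendsto F atTop (𝓝 0)) : 0 ≤ F 0 := by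
  have ha : AntitoneOn F (Set.Ici 0) := by
    refine antitoneOn_of_deriv_nonpos (convex_Ici 0)
      (fun u hu => (hd u hu).continuousAt.continuousWithinAt) ?_ ?_
    · intro u hu
      rw [interior_Ici] at hu
      exact (hd u (le_of_lt hu)).differentiableAt.differentiableWithinAt
    · intro u hu
      rw [interior_Ici] at hu
      rw [(hd u (le_of_lt hu)).deriv]; exact hn u hu
  refine le_of_tendsto hl ?_
  filter_upwards [eventually_ge_atTop (0 : ℝ)] with u hu
  exact ha (Set.mem_Ici.mpr le_rfl) hu hu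

lemma fiedler_quad {O : Matrix n n ℝ} (hO : Oᵀ * O = 1) {p : n → ℝ} (hp : ∀ i, 0 < p i)
    (r : n → ℝ) : ∑ l, r l ^ 2 ≤ ∑ l, ∑ k, (Oᵀ * diagonal (fun i => (p i)⁻¹) * O) l k *
      (Oᵀ * diagonal p * O) k l * (r k * r l) := by
  set R := O * diagonal r * Oᵀ with hR
  have hs1 : Spec R O r := ⟨hO, rfl⟩
  have e1 : ∑ l, ∑ k, (Oᵀ * diagonal (fun i => (p i)⁻¹) * O) l k *
      (Oᵀ * diagonal p * O) k l * (r k * r l) =
      trace (R * (diagonal (fun i => (p i)⁻¹) * R * diagonal p)) := by
    rw [hs1.trace_mul]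
    refine Finset.sum_congr rfl fun l _ => ?_
    have : Oᵀ * (diagonal (fun i => (p i)⁻¹) * R * diagonal p) * O =
        (Oᵀ * diagonal (fun i => (p i)⁻¹) * O) * (diagonal r * (Oᵀ * diagonal p * O)) := by
      rw [hR]; simp only [Matrix.mul_assoc]
    rw [this, Matrix.mul_apply, Finset.mul_sum]
    refine Finset.sum_congr rfl fun k _ => ?_
    rw [diagonal_mul]; ring
  have hsym : ∀ i j, R j i = R i j := fun i j => by
    have := congrFun (congrFun hs1.symm i) j
    simpa using this
  have e2 : trace (R * (diagonal (fun i => (p i)⁻¹) * R * diagonal p)) =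
      ∑ i, ∑ j, R i j ^ 2 * (p i / p j) := by
    simp only [trace, diag_apply, Matrix.mul_apply (M := R), mul_diagonal, diagonal_mul]
    refine Finset.sum_congr rfl fun i _ => Finset.sum_congr rfl fun j _ => ?_
    rw [hsym i j]; field_simp
  have e3 : ∑ l, r l ^ 2 = ∑ i, ∑ j, R i j ^ 2 := by
    have := hs_conj hO hO R
    rw [hs1.conj] at this
    unfold hs at this
    rw [← this]
    refine Finset.sum_congr rfl fun l _ => ?_
    rw [Finset.sum_eq_single l]
    · simp
    · intro k _ hk; simp [diagonal_apply_ne _ (Ne.symm hk)]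
    · simp
  rw [e1, e2, e3]
  have e4 : ∑ i, ∑ j, R i j ^ 2 * (p i / p j) = ∑ i, ∑ j, R i j ^ 2 * (p j / p i) := by
    rw [Finset.sum_comm]
    exact Finset.sum_congr rfl fun i _ => Finset.sum_congr rfl fun j _ => by rw [hsym i j]
  have e5 : ∑ i, ∑ j, 2 * R i j ^ 2 ≤
      ∑ i, ∑ j, (R i j ^ 2 * (p i / p j) + R i j ^ 2 * (p j / p i)) := by
    refine Finset.sum_le_sum fun i _ => Finset.sum_le_sum fun j _ => ?_
    have h1 := hp i
    have h2 := hp j
    have : 2 ≤ p i / p j + p j / p i := by
      rw [div_add_div _ _ h2.ne' h1.ne', le_div_iff₀ (by positivity)]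
      nlinarith [sq_nonneg (p i - p j)]
    nlinarith [sq_nonneg (R i j)]
  simp only [Finset.sum_add_distrib, ← Finset.mul_sum] at e5
  linarith

theorem fiedler {O : Matrix n n ℝ} (hO : Oᵀ * O = 1) {p a : n → ℝ} (hp : ∀ i, 0 < p i)
    (ha : ∀ i, 0 < a i) :
    ∑ l, ∑ k, dslope xl (a l) (a k) * ((Oᵀ * diagonal (fun i => (p i)⁻¹) * O) l k *
      (Oᵀ * diagonal p * O) k l) ≤ ∑ l, (Real.log (a l) + 1) := by
  set L : n → n → ℝ := fun l k => (Oᵀ * diagonal (fun i => (p i)⁻¹) * O) l k *
      (Oᵀ * diagonal p * O) k l with hL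
  have hrow : ∀ l, ∑ k, L l k = 1 := by
    intro l
    have : (Oᵀ * diagonal (fun i => (p i)⁻¹) * O) * (Oᵀ * diagonal p * O) = 1 := by
      simp only [Matrix.mul_assoc]
      rw [← Matrix.mul_assoc O, mul_eq_one_comm.mp hO, Matrix.one_mul,
        ← Matrix.mul_assoc (diagonal _), diagonal_mul_diagonal]
      have : (fun i => (p i)⁻¹ * p i) = fun _ => (1 : ℝ) :=
        funext fun i => inv_mul_cancel₀ (hp i).ne'
      rw [this, diagonal_one, Matrix.one_mul, hO]
    have h2 := congrFun (congrFun this l) l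
    rw [Matrix.mul_apply] at h2
    simpa using h2
  have key := nonneg_of_antitone
    (F := fun u => ∑ l, ee u (a l) (a l) - ∑ l, ∑ k, ee u (a k) (a l) * L l k)
    (F' := fun u => ∑ l, u / ((a l + u) * (a l + u)) -
      ∑ l, ∑ k, u / ((a k + u) * (a l + u)) * L l k) ?_ ?_ ?_
  · simp only [ee_same (ha _)] at key
    simp only [ee_zero (ha _)]
    linarith
  · intro u hu
    exact (HasDerivAt.fun_sum fun l _ => ee_deriv (ha l) (ha l) hu).fun_sub
      (HasDerivAt.fun_sum fun l _ => HasDerivAt.fun_sum fun k _ =>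
        (ee_deriv (ha k) (ha l) hu).mul_const _)
  · intro u hu
    have := mul_le_mul_of_nonneg_left (fiedler_quad hO hp fun l => (a l + u)⁻¹) hu.le
    simp only [Finset.mul_sum] at this
    rw [sub_nonpos]
    refine le_of_eq_of_le ?_ (le_of_le_of_eq this ?_)
    · refine Finset.sum_congr rfl fun l _ => ?_
      have := ha l; field_simp
    · refine Finset.sum_congr rfl fun l _ => Finset.sum_congr rfl fun k _ => ?_
      have := ha l; have := ha k; simp only [hL]; field_simp
  · have h1 := (tendsto_finset_sum Finset.univ fun l _ => ee_lim (a l) (a l)).sub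
      (tendsto_finset_sum Finset.univ fun l _ => tendsto_finset_sum Finset.univ fun k _ =>
        (ee_lim (a k) (a l)).mul_const (L l k))
    simp only [zero_mul, Finset.sum_const_zero, sub_zero] at h1
    refine h1.congr fun u => ?_
    simp only [sub_mul, Finset.sum_sub_distrib]
    have : ∀ l, ∑ k, Real.log u * L l k = Real.log u := fun l => by
      rw [← Finset.mul_sum, hrow, mul_one]
    simp only [this]
    ring

lemma gg_coord {D U : Matrix n n ℝ} (hD : Dᵀ * D = 1) (hU : U * Uᵀ = 1) {a b z : n → ℝ}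
    (ha : ∀ i, 0 < a i) (hb : ∀ i, 0 < b i) (hz : ∀ i, 0 < z i) :
    ∑ l, ∑ i, z l * Real.log (a i) * D l i ^ 2 + ∑ l, ∑ j, z l * Real.log (b j) * (D * U) l j ^ 2
      ≤ ∑ l, xl (z l) - ∑ l, z l + ∑ i, ∑ j, a i * b j * U i j ^ 2 := by
  have hD' : D * Dᵀ = 1 := mul_eq_one_comm.mp hD
  have hDU : (D * U) * (D * U)ᵀ = 1 := by
    rw [transpose_mul, Matrix.mul_assoc, ← Matrix.mul_assoc U, hU, Matrix.one_mul, hD']
  have hm : ∀ i j, 0 < a i * b j := fun i j => mul_pos (ha i) (hb j)
  have hsq : ∀ l j (w : n → ℝ), ∑ i, ∑ k, D l i * D l k * U i j * U k j * (w i * w k) =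
      (∑ i, D l i * U i j * w i) ^ 2 := by
    intro l j w
    rw [sq, Finset.sum_mul_sum]
    exact Finset.sum_congr rfl fun i _ => Finset.sum_congr rfl fun k _ => by ring
  have hsq1 : ∀ l j, ∑ i, ∑ k, D l i * D l k * U i j * U k j = (D * U) l j ^ 2 := by
    intro l j
    have := hsq l j fun _ => 1
    simpa [Matrix.mul_apply] using this
  have key := nonneg_of_antitone
    (F := fun t => ∑ l, z l * Real.log (z l + t) -
      ∑ l, z l * ∑ j, ∑ i, ∑ k, D l i * D l k * U i j * U k j * ee t (a i * b j) (a k * b j) +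
      ∑ i, ∑ j, U i j ^ 2 * ((a i * b j) ^ 2 / (a i * b j + t)))
    (F' := fun t => ∑ l, z l * (1 / (z l + t)) -
      ∑ l, z l * ∑ j, ∑ i, ∑ k, D l i * D l k * U i j * U k j *
        (t / ((a i * b j + t) * (a k * b j + t))) +
      ∑ i, ∑ j, U i j ^ 2 * (-(a i * b j) ^ 2 / (a i * b j + t) ^ 2)) ?_ ?_ ?_
  · simp only [ee_scale (ha _) (ha _) (hb _), add_zero] at key
    have e1 : ∀ l, ∑ j, ∑ i, ∑ k, D l i * D l k * U i j * U k j *
        (Real.log (b j) + ee 0 (a i) (a k)) =
        ∑ j, Real.log (b j) * (D * U) l j ^ 2 + ∑ i, (Real.log (a i) + 1) * D l i ^ 2 := by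
      intro l
      simp only [mul_add, Finset.sum_add_distrib]
      congr 1
      · refine Finset.sum_congr rfl fun j _ => ?_
        simp only [← Finset.sum_mul, hsq1]; ring
      · rw [Finset.sum_comm]
        refine Finset.sum_congr rfl fun i _ => ?_
        rw [Finset.sum_comm]
        have : ∀ k, ∑ j, D l i * D l k * U i j * U k j * ee 0 (a i) (a k) =
            D l i * D l k * ee 0 (a i) (a k) * (U * Uᵀ) i k := by
          intro k
          rw [Matrix.mul_apply, Finset.mul_sum]
          exact Finset.sum_congr rfl fun j _ => by rw [transpose_apply]; ring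
        simp only [this, hU]
        rw [Finset.sum_eq_single i]
        · rw [ee_same (ha i)]; simp; ring
        · intro k _ hk; simp [Matrix.one_apply, Ne.symm hk]
        · simp
    have e2 : ∀ i j, U i j ^ 2 * ((a i * b j) ^ 2 / (a i * b j)) = a i * b j * U i j ^ 2 := by
      intro i j; have := hm i j; field_simp
    simp only [e1, e2] at key
    simp only [add_mul, Finset.sum_add_distrib, one_mul, row_sq hD', mul_add, mul_one,
      Finset.mul_sum, ← mul_assoc] at key
    unfold xl
    linarith
  · intro t ht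
    refine ((HasDerivAt.fun_sum fun l _ => (log_add_deriv ?_).const_mul _).fun_sub
      (HasDerivAt.fun_sum fun l _ => (HasDerivAt.fun_sum fun j _ => HasDerivAt.fun_sum fun i _ =>
        HasDerivAt.fun_sum fun k _ => (ee_deriv (hm i j) (hm k j) ht).const_mul _).const_mul
          _)).fun_add
      (HasDerivAt.fun_sum fun i _ => HasDerivAt.fun_sum fun j _ =>
        (div_add_deriv _ ?_).const_mul _)
    · linarith [hz l]
    · linarith [hm i j]
  · intro t ht
    set y : n → n → ℝ := fun l j => ∑ i, D l i * U i j * (a i * b j + t)⁻¹ with hy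
    have e1 : ∀ l j, ∑ i, ∑ k, D l i * D l k * U i j * U k j *
        (t / ((a i * b j + t) * (a k * b j + t))) = t * y l j ^ 2 := by
      intro l j
      simp only [hy]
      rw [← hsq l j fun i => (a i * b j + t)⁻¹, Finset.mul_sum]
      refine Finset.sum_congr rfl fun i _ => ?_
      rw [Finset.mul_sum]
      refine Finset.sum_congr rfl fun k _ => ?_
      have := hm i j; have := hm k j; field_simp
    have e2 : ∑ i, ∑ j, U i j ^ 2 * (-(a i * b j) ^ 2 / (a i * b j + t) ^ 2) =
        -∑ l, ∑ j, ((D * U) l j - t * y l j) ^ 2 := by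
      set X : Matrix n n ℝ := Matrix.of fun i j => U i j * (a i * b j / (a i * b j + t)) with hX
      have h1 : hs (D * X) = hs X := by
        have := hs_conj (O := Dᵀ) (O' := 1) (by simpa using hD') (by simp) X
        simpa using this
      have h2 : ∀ l j, (D * X) l j = (D * U) l j - t * y l j := by
        intro l j
        simp only [hy, Matrix.mul_apply, Finset.mul_sum, ← Finset.sum_sub_distrib, hX, of_apply]
        refine Finset.sum_congr rfl fun i _ => ?_
        have := hm i j; field_simp; ring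
      unfold hs at h1
      simp only [h2] at h1
      rw [h1, ← Finset.sum_neg_distrib]
      refine Finset.sum_congr rfl fun i _ => ?_
      rw [← Finset.sum_neg_distrib]
      refine Finset.sum_congr rfl fun j _ => ?_
      simp only [hX, of_apply, mul_pow, div_pow]; ring
    simp only [e1, e2]
    have e3 : ∀ l, z l * (1 / (z l + t)) ≤
        z l * ∑ j, t * y l j ^ 2 + ∑ j, ((D * U) l j - t * y l j) ^ 2 := by
      intro l
      have h1 := hz l
      calc z l * (1 / (z l + t)) = ∑ j, z l * (1 / (z l + t)) * (D * U) l j ^ 2 := by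
            rw [← Finset.mul_sum, row_sq hDU, mul_one]
        _ ≤ ∑ j, (z l * (t * y l j ^ 2) + ((D * U) l j - t * y l j) ^ 2) := by
            refine Finset.sum_le_sum fun j _ => ?_
            set o := (D * U) l j
            set w := y l j
            have : z l * (t * w ^ 2) + (o - t * w) ^ 2 - z l * (1 / (z l + t)) * o ^ 2 =
                t * ((z l + t) * w - o) ^ 2 / (z l + t) := by field_simp; ring
            have h2 : 0 ≤ t * ((z l + t) * w - o) ^ 2 / (z l + t) := by positivity
            linarith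
        _ = _ := by rw [Finset.sum_add_distrib, Finset.mul_sum]
    have := Finset.sum_le_sum fun l (_ : l ∈ Finset.univ) => e3 l
    rw [Finset.sum_add_distrib] at this
    linarith
  · have h1 := ((tendsto_finset_sum Finset.univ fun l _ => (log_lim (z l)).const_mul (z l)).sub
      (tendsto_finset_sum Finset.univ fun l _ => (tendsto_finset_sum Finset.univ fun j _ =>
        tendsto_finset_sum Finset.univ fun i _ => tendsto_finset_sum Finset.univ fun k _ =>
          (ee_lim (a i * b j) (a k * b j)).const_mul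
            (D l i * D l k * U i j * U k j)).const_mul (z l))).add
      (tendsto_finset_sum Finset.univ fun i _ => tendsto_finset_sum Finset.univ fun j _ =>
        (div_lim ((a i * b j) ^ 2) (a i * b j)).const_mul (U i j ^ 2))
    simp only [mul_zero, Finset.sum_const_zero, sub_zero, add_zero] at h1
    refine h1.congr fun u => ?_
    simp only [mul_sub, Finset.sum_sub_distrib, ← Finset.sum_mul, hsq1, row_sq hDU]
    ring

theorem gg {A B Z OA OB OZ : Matrix n n ℝ} {a b z : n → ℝ} (hA : Spec A OA a) (hB : Spec B OB b)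
    (hZ : Spec Z OZ z) (ha : ∀ i, 0 < a i) (hb : ∀ i, 0 < b i) (hz : ∀ i, 0 < z i) :
    trace (Z * fc Real.log A) + trace (Z * fc Real.log B) ≤
      ∑ l, xl (z l) - ∑ l, z l + trace (A * B) := by
  have hD := orth_two hZ.oo hA.oo
  have := gg_coord (D := OZᵀ * OA) (U := OAᵀ * OB) (mul_eq_one_comm.mp hD)
    (orth_two hA.oo hB.oo) ha hb hz
  rw [hZ.trace_two (hA.fc _), hZ.trace_two (hB.fc _), hA.trace_two hB]
  have e : OZᵀ * OA * (OAᵀ * OB) = OZᵀ * OB := by
    rw [Matrix.mul_assoc, ← Matrix.mul_assoc OA, hA.oo', Matrix.one_mul]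
  rwa [e] at this

end Vale.Agent.P371
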