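import Vale.Agent.P371.Young

/-! The upper bound. -/

namespace Vale.Agent.P371

open Matrix Filter Topology MeasureTheory Set
open scoped ComplexOrder

variable {m : ℕ}

lemma IsH1.ii {ψ ψ' : ℝ → Fin m → ℂ} (h : IsH1 ψ ψ') (a b : ℝ) :
    IntervalIntegrable ψ' volume a b :=
  ((h.memLp_deriv.locallyIntegrable one_le_two).integrableOn_isCompact
    isCompact_uIcc).intervalIntegrable

lemma IsH1.rh {ψ ψ' : ℝ → Fin m → ℂ} (h : IsH1 ψ ψ') (L : (Fin m → ℂ) →L[ℝ] ℝ) :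
    RH (fun x => L (ψ x)) fun x => L (ψ' x) := by
  refine ⟨ACD.of_ftc ((L.comp_memLp' h.memLp_deriv).locallyIntegrable one_le_two) fun x y => ?_,
    L.comp_memLp' h.memLp, L.comp_memLp' h.memLp_deriv⟩
  rw [← map_sub, h.ftc, L.intervalIntegral_comp_comm (h.ii x y)]

lemma IsH1.re {ψ ψ' : ℝ → Fin m → ℂ} (h : IsH1 ψ ψ') (a : Fin m) :
    RH (fun x => (ψ x a).re) fun x => (ψ' x a).re :=
  h.rh (Complex.reCLM.comp (ContinuousLinearMap.proj a))

lemma IsH1.im {ψ ψ' : ℝ → Fin m → ℂ} (h : IsH1 ψ ψ') (a : Fin m) :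
    RH (fun x => (ψ x a).im) fun x => (ψ' x a).im :=
  h.rh (Complex.imCLM.comp (ContinuousLinearMap.proj a))

lemma IsH1.smul {ψ ψ' : ℝ → Fin m → ℂ} (h : IsH1 ψ ψ') (c : ℂ) :
    IsH1 (fun x => c • ψ x) fun x => c • ψ' x :=
  ⟨h.memLp.const_smul c, h.memLp_deriv.const_smul c, fun x y => by
    rw [← smul_sub, h.ftc, intervalIntegral.integral_smul]⟩

lemma RH.bdd {f f' : ℝ → ℝ} (h : RH f f') : ∃ M, ∀ x, |f x| ≤ M := by
  refine ⟨√(∫ x, (f' x ^ 2 + 1 ^ 2 * f x ^ 2)), fun x => Real.abs_le_sqrt ?_⟩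
  have := h.tail zero_le_one (le_refl x)
  rw [intervalIntegral.integral_same] at this
  nlinarith [sq_nonneg (f x)]

lemma IsH1.bdd {ψ ψ' : ℝ → Fin m → ℂ} (h : IsH1 ψ ψ') (a : Fin m) : ∃ M, ∀ x, ‖ψ x a‖ ≤ M := by
  obtain ⟨M1, h1⟩ := (h.re a).bdd
  obtain ⟨M2, h2⟩ := (h.im a).bdd
  exact ⟨M1 + M2, fun x => (Complex.norm_le_abs_re_add_abs_im _).trans (add_le_add (h1 x) (h2 x))⟩

lemma int_inner {φ ψ : ℝ → Fin m → ℂ} (h1 : MemLp φ 2 volume) (h2 : MemLp ψ 2 volume) :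
    Integrable fun x => star (φ x) ⬝ᵥ ψ x :=
  integrable_finsetSum _ fun a _ => (h1.eval a).star.integrable_mul (h2.eval a)

lemma int_W {γ : ℝ} (hγ : 1 / 2 ≤ γ) {W : ℝ → Matrix (Fin m) (Fin m) ℂ} (hW : IsPotential γ W)
    {φ φ' ψ ψ' : ℝ → Fin m → ℂ} (h1 : IsH1 φ φ') (h2 : IsH1 ψ ψ') :
    Integrable fun x => star (φ x) ⬝ᵥ (W x *ᵥ ψ x) := by
  simp only [dotProduct, mulVec, Finset.mul_sum]
  refine integrable_finsetSum _ fun a _ => integrable_finsetSum _ fun b _ => ?_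
  obtain ⟨M1, b1⟩ := h1.bdd a
  obtain ⟨M2, b2⟩ := h2.bdd b
  have i1 : Integrable fun x => ‖φ x a‖ * ‖ψ x b‖ :=
    (h1.memLp.eval a).norm.integrable_mul (h2.memLp.eval b).norm
  refine Integrable.mono' ((i1.const_mul m).add (hW.integrable.const_mul (M1 * M2)))
    ((h1.memLp.eval a).star.1.mul ((hW.meas a b).aestronglyMeasurable.mul (h2.memLp.eval b).1))
    (Eventually.of_forall fun x => ?_)
  have e1 := entry_le (hW.posSemidef x) (p := γ + 1 / 2) (by linarith) a b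
  have e2 := trPow_nonneg (hW.posSemidef x) (γ + 1 / 2)
  have e3 : ‖φ x a‖ * ‖ψ x b‖ ≤ M1 * M2 :=
    mul_le_mul (b1 x) (b2 x) (norm_nonneg _) ((norm_nonneg _).trans (b1 x))
  have e4 : 0 ≤ ‖φ x a‖ * ‖ψ x b‖ := by positivity
  simp only [norm_mul, Pi.star_apply, norm_star, Pi.add_apply]
  nlinarith [mul_le_mul_of_nonneg_left e1 e4, mul_le_mul_of_nonneg_left e3 e2]

variable {n : Type*} [Fintype n] [DecidableEq n]

def ri (φ : n → ℝ → Fin m → ℂ) (k : n) : Fin m ⊕ Fin m → ℝ → ℝ :=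
  Sum.elim (fun a x => (φ k x a).re) fun a x => (φ k x a).im

omit [Fintype n] [DecidableEq n] in
lemma gram_ri (φ : n → ℝ → Fin m → ℂ) (x : ℝ) :
    gram (ri φ) x = RG (fun k => φ k x) fun k => φ k x := by
  ext k l
  simp [gram, RG, ri, dotProduct, Finset.sum_add_distrib]

lemma upper_real {α : ℝ} (h0 : 0 < α) (h1 : α < 1) {W : ℝ → Matrix (Fin m) (Fin m) ℂ}
    (hW : IsPotential (α + 1 / 2) W) {φ φ' : n → ℝ → Fin m → ℂ} (hφ : ∀ k, IsH1 (φ k) (φ' k))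
    {κ : n → ℝ} (hκ : ∀ k, 0 < κ k)
    (hΓ : ∀ k l, (∫ x, star (φ k x) ⬝ᵥ φ l x).re = if k = l then 1 else 0)
    (hE : ∀ k l, ((∫ x, star (φ' k x) ⬝ᵥ φ' l x) - ∫ x, star (φ k x) ⬝ᵥ (W x *ᵥ φ l x)).re =
      if k = l then -κ k ^ 2 else 0) :
    JJ α * ∑ i, κ i ^ (2 * α + 1) ≤ 2 * cp α * ∫ x, trPow (α + 1) (W x) := by
  letI : LinearOrder n := LinearOrder.lift' (fun k => toLex (-κ k, Fintype.equivFin n k))
    fun k l h => (Fintype.equivFin n).injective (congrArg (fun p => (ofLex p).2) h)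
  have e : α + 1 / 2 + 1 / 2 = α + 1 := by ring
  have hi := hW.integrable
  rw [e] at hi
  have iW := fun k l => int_W (by linarith) hW (hφ k) (hφ l)
  rw [← integral_const_mul]
  refine core (ι := Fin m ⊕ Fin m) h0 h1 hκ (fun k l h => ?_) (u := ri φ) (u' := ri φ')
    (fun k => by rintro (a | a); exacts [(hφ k).re a, (hφ k).im a])
    (Q := fun x => RG (fun k => φ k x) fun k => W x *ᵥ φ k x) (fun k l => (iW k l).re)
    (hi.const_mul _) (fun x => mul_nonneg (by linarith [cp_pos h0])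
      (trPow_nonneg (hW.posSemidef x) _)) (fun x A => ?_) ?_ ?_
  · exact neg_le_neg_iff.mp (Prod.Lex.monotone_fst _ _ h)
  · rw [gram_ri, RG_conj, RG_conj]
    have := young_c h0 (hW.posSemidef x) fun j => ∑ k, (A j k : ℂ) • φ k x
    simpa only [mulVec_sum, mulVec_smul] using this
  · ext k l
    simp only [MI, of_apply, gram_ri, RG, one_apply]
    rw [← hΓ]
    exact integral_re (int_inner (hφ k).memLp (hφ l).memLp)
  · ext k l
    simp only [MI, of_apply, gram_ri, RG, Matrix.sub_apply, diagonal_apply]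
    have a1 := integral_re (int_inner (hφ k).memLp_deriv (hφ l).memLp_deriv)
    have a2 := integral_re (iW k l)
    have a3 := hE k l
    simp only [RCLike.re_to_complex] at a1 a2
    rw [a1, a2]
    rw [Complex.sub_re] at a3
    split_ifs at a3 ⊢ <;> linarith

theorem upper {α : ℝ} (h0 : 0 < α) (h1 : α < 1) {W : ℝ → Matrix (Fin m) (Fin m) ℂ}
    (hW : IsPotential (α + 1 / 2) W) {N : ℕ} {E : Fin N → ℝ} {ψ : Fin N → ℝ → Fin m → ℂ}
    (hψ : ∀ j, E j < 0 ∧ IsEigen W (E j) (ψ j))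
    (ho : ∀ j k, ∫ x, star (ψ j x) ⬝ᵥ ψ k x = if j = k then 1 else 0) :
    JJ α * ∑ j, |E j| ^ (α + 1 / 2) ≤ cp α * ∫ x, trPow (α + 1) (W x) := by
  choose ψ' hψ' using fun j => (hψ j).2
  let c : Bool → ℂ := fun b => if b then Complex.I else 1
  have hφ : ∀ k : Fin N × Bool, IsH1 (fun x => c k.2 • ψ k.1 x) fun x => c k.2 • ψ' k.1 x :=
    fun k => (hψ' k.1).1.smul _
  have hΓ : ∀ k l : Fin N × Bool, (∫ x, star (c k.2 • ψ k.1 x) ⬝ᵥ (c l.2 • ψ l.1 x)).re =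
      if k = l then 1 else 0 := by
    rintro ⟨j, b⟩ ⟨k, b'⟩
    simp only [star_smul, smul_dotProduct, dotProduct_smul, integral_smul, ho]
    by_cases h : j = k
    · cases b <;> cases b' <;> simp [c, h]
    · simp [h]
  have key := upper_real h0 h1 hW hφ (κ := fun k => √(-E k.1))
    (fun k => Real.sqrt_pos.mpr (neg_pos.mpr (hψ k.1).1)) hΓ fun k l => by
      have := (hψ' l.1).2 _ _ (hφ k)
      have h2 := hΓ k l
      simp only [mulVec_smul, dotProduct_smul, integral_smul] at h2 ⊢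
      rw [← smul_sub, this, ← smul_eq_mul, smul_comm, smul_eq_mul, Complex.re_ofReal_mul, h2]
      split_ifs with h
      · rw [Real.sq_sqrt (neg_pos.mpr (hψ k.1).1).le, h]; simp
      · simp
  have e : ∀ j, √(-E j) ^ (2 * α + 1) = |E j| ^ (α + 1 / 2) := fun j => by
    rw [abs_of_neg (hψ j).1, Real.sqrt_eq_rpow, ← Real.rpow_mul (neg_pos.mpr (hψ j).1).le]
    congr 1; ring
  simp only [e, Fintype.sum_prod_type, Finset.sum_const, Finset.card_univ, Fintype.card_bool,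
    nsmul_eq_mul, ← Finset.mul_sum] at key
  push_cast at key
  linarith

end Vale.Agent.P371
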