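import Vale.Agent.P371.Core
import Vale.Agent.P371.Defs

/-! The pointwise Young inequality and spectral facts on the potential. -/

namespace Vale.Agent.P371

open Matrix Filter Topology MeasureTheory Set
open scoped ComplexOrder

noncomputable def cp (α : ℝ) : ℝ := (α / (α + 1)) ^ α / (α + 1)

lemma cp_pos {α : ℝ} (h0 : 0 < α) : 0 < cp α := by unfold cp; positivity

lemma young_scalar {α μ s : ℝ} (h0 : 0 < α) (hμ : 0 ≤ μ) (hs : 0 ≤ s) :
    μ * s ≤ cp α * μ ^ (α + 1) + s ^ (α⁻¹ + 1) := by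
  have hc : (α + 1).HolderConjugate (α⁻¹ + 1) := by
    rw [Real.holderConjugate_iff]
    refine ⟨by linarith, ?_⟩
    field_simp; ring
  set r : ℝ := α⁻¹ + 1 with hr
  have hr0 : 0 < r := by positivity
  set t : ℝ := r ^ r⁻¹ with ht
  have ht0 : 0 < t := by positivity
  have := Real.young_inequality_of_nonneg (a := μ / t) (b := s * t) (by positivity)
    (by positivity) hc
  have e1 : μ / t * (s * t) = μ * s := by field_simp
  have e2 : (s * t) ^ r / r = s ^ r := by
    rw [Real.mul_rpow hs ht0.le, ht, Real.rpow_inv_rpow hr0.le hr0.ne']; field_simp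
  have e3 : (μ / t) ^ (α + 1) / (α + 1) = cp α * μ ^ (α + 1) := by
    rw [Real.div_rpow hμ ht0.le, ht, ← Real.rpow_mul hr0.le, cp]
    have a1 : r⁻¹ * (α + 1) = α := by rw [hr]; field_simp; ring
    have a2 : α / (α + 1) = r⁻¹ := by rw [hr]; field_simp; ring
    rw [a1, a2, Real.inv_rpow hr0.le]
    field_simp
  rwa [e1, e2, e3] at this

variable {n : Type*} [Fintype n] [DecidableEq n] {ι : Type*} [Fintype ι]

lemma young_real {α : ℝ} (h0 : 0 < α) (C : Matrix n ι ℝ) {μ : ι → ℝ} (hμ : ∀ b, 0 ≤ μ b) :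
    ∑ b, μ b * ∑ j, C j b ^ 2 ≤
      cp α * ∑ b, μ b ^ (α + 1) + trace (fc (fun t => t ^ (α⁻¹ + 1)) (C * Cᵀ)) := by
  obtain ⟨O, d, h⟩ := exists_spec (M := C * Cᵀ) (by simp [transpose_mul])
  set D := Oᵀ * C with hD
  have hDD : D * Dᵀ = diagonal d := by
    rw [← h.conj, hD, transpose_mul, transpose_transpose]; simp only [Matrix.mul_assoc]
  have hd : ∀ i, ∑ b, D i b ^ 2 = d i := fun i => by
    have := congrFun (congrFun hDD i) i
    simpa [Matrix.mul_apply, sq] using this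
  have hd0 : ∀ i, 0 ≤ d i := fun i => hd i ▸ Finset.sum_nonneg fun _ _ => sq_nonneg _
  have hcol : ∀ b, ∑ j, C j b ^ 2 = ∑ i, D i b ^ 2 := fun b => by
    have e : Dᵀ * D = Cᵀ * C := by
      rw [hD, transpose_mul, transpose_transpose, Matrix.mul_assoc, ← Matrix.mul_assoc O, h.oo',
        Matrix.one_mul]
    have := congrFun (congrFun e b) b
    simpa [Matrix.mul_apply, sq] using this.symm
  have hz : ∀ i b, D i b ^ 2 = d i * (D i b ^ 2 / d i) := fun i b => by
    rcases (hd0 i).eq_or_lt with h1 | h1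
    · have h2 := hd i
      rw [← h1, Finset.sum_eq_zero_iff_of_nonneg fun _ _ => sq_nonneg _] at h2
      rw [h2 b (Finset.mem_univ _)]; simp
    · field_simp
  have ht0 : ∀ i b, 0 ≤ D i b ^ 2 / d i := fun i b => div_nonneg (sq_nonneg _) (hd0 i)
  have hrow : ∀ i, ∑ b, D i b ^ 2 / d i ≤ 1 := fun i => by
    rw [← Finset.sum_div, hd]; exact div_self_le_one _
  have hbes : ∀ b, ∑ i, D i b ^ 2 / d i ≤ 1 := fun b => by
    set z : n → ℝ := fun i => D i b / d i with hz'
    have e1 : (z ᵥ* D) b = ∑ i, D i b ^ 2 / d i := by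
      simp only [vecMul, dotProduct, hz']
      exact Finset.sum_congr rfl fun i _ => by ring
    have e2 : (z ᵥ* D) ⬝ᵥ (z ᵥ* D) = ∑ i, D i b ^ 2 / d i := by
      rw [← dotProduct_mulVec, ← mulVec_transpose, mulVec_mulVec, hDD]
      simp only [dotProduct, mulVec_diagonal, hz']
      refine Finset.sum_congr rfl fun i _ => ?_
      rcases eq_or_ne (d i) 0 with h1 | h1
      · simp [h1]
      · field_simp
    have e3 : (z ᵥ* D) b * (z ᵥ* D) b ≤ (z ᵥ* D) ⬝ᵥ (z ᵥ* D) :=
      Finset.single_le_sum (f := fun c => (z ᵥ* D) c * (z ᵥ* D) c)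
        (fun _ _ => mul_self_nonneg _) (Finset.mem_univ b)
    rw [e1, e2] at e3
    nlinarith
  rw [(h.fc _).trace]
  calc ∑ b, μ b * ∑ j, C j b ^ 2 = ∑ b, ∑ i, μ b * d i * (D i b ^ 2 / d i) := by
        refine Finset.sum_congr rfl fun b _ => ?_
        rw [hcol, Finset.mul_sum]
        exact Finset.sum_congr rfl fun i _ => by rw [mul_assoc, ← hz]
    _ ≤ ∑ b, ∑ i, (cp α * μ b ^ (α + 1) + d i ^ (α⁻¹ + 1)) * (D i b ^ 2 / d i) :=
        Finset.sum_le_sum fun b _ => Finset.sum_le_sum fun i _ =>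
          mul_le_mul_of_nonneg_right (young_scalar h0 (hμ b) (hd0 i)) (ht0 i b)
    _ = ∑ b, cp α * μ b ^ (α + 1) * ∑ i, D i b ^ 2 / d i +
          ∑ i, d i ^ (α⁻¹ + 1) * ∑ b, D i b ^ 2 / d i := by
        simp only [add_mul, Finset.sum_add_distrib, Finset.mul_sum]
        congr 1
        exact Finset.sum_comm
    _ ≤ _ := by
        rw [Finset.mul_sum]
        refine add_le_add (Finset.sum_le_sum fun b _ => ?_) (Finset.sum_le_sum fun i _ => ?_)
        · exact mul_le_of_le_one_right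
            (mul_nonneg (cp_pos h0).le (Real.rpow_nonneg (hμ b) _)) (hbes b)
        · exact mul_le_of_le_one_right (Real.rpow_nonneg (hd0 i) _) (hrow i)

variable {m : ℕ}

lemma spec_c {W : Matrix (Fin m) (Fin m) ℂ} (hW : W.PosSemidef) :
    ∃ (U : Matrix (Fin m) (Fin m) ℂ) (μ : Fin m → ℝ), U ∈ Matrix.unitaryGroup (Fin m) ℂ ∧
      (∀ i, 0 ≤ μ i) ∧ W = U * diagonal (fun i => (μ i : ℂ)) * star U ∧
      ∀ p, trPow p W = ∑ i, μ i ^ p := by
  have hH := hW.isHermitian
  refine ⟨hH.eigenvectorUnitary, hH.eigenvalues, hH.eigenvectorUnitary.2, hW.eigenvalues_nonneg,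
    ?_, fun p => ?_⟩
  · have := hH.spectral_theorem
    rwa [Unitary.conjStarAlgAut_apply] at this
  · rw [trPow, hH.cfc_eq, IsHermitian.cfc, Unitary.conjStarAlgAut_apply, trace_mul_comm,
      ← Matrix.mul_assoc]
    simp

lemma trPow_nonneg {W : Matrix (Fin m) (Fin m) ℂ} (hW : W.PosSemidef) (p : ℝ) : 0 ≤ trPow p W := by
  obtain ⟨U, μ, -, h1, -, h2⟩ := spec_c hW
  rw [h2]; exact Finset.sum_nonneg fun i _ => Real.rpow_nonneg (h1 i) _

lemma entry_le {W : Matrix (Fin m) (Fin m) ℂ} (hW : W.PosSemidef) {p : ℝ} (hp : 1 ≤ p)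
    (a b : Fin m) : ‖W a b‖ ≤ m + trPow p W := by
  obtain ⟨U, μ, hU, h1, h3, h2⟩ := spec_c hW
  rw [h2]
  conv_lhs => rw [h3, Matrix.mul_apply]
  have : (m : ℝ) + ∑ i, μ i ^ p = ∑ i, (1 + μ i ^ p) := by simp [Finset.sum_add_distrib]
  rw [this]
  refine (norm_sum_le _ _).trans (Finset.sum_le_sum fun i _ => ?_)
  rw [mul_diagonal, norm_mul, norm_mul, star_apply, norm_star, Complex.norm_real,
    Real.norm_of_nonneg (h1 i)]
  have a1 := entry_norm_bound_of_unitary hU a i
  have a2 := entry_norm_bound_of_unitary hU b i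
  have a3 : μ i ≤ 1 + μ i ^ p := by
    rcases le_total (μ i) 1 with h | h
    · linarith [Real.rpow_nonneg (h1 i) p]
    · linarith [Real.self_le_rpow_of_one_le h hp]
  calc _ ≤ 1 * μ i * 1 := by have := h1 i; gcongr
    _ ≤ _ := by linarith

def RG (v w : n → Fin m → ℂ) : Matrix n n ℝ := Matrix.of fun k l => (star (v k) ⬝ᵥ w l).re

omit [DecidableEq n] in
lemma RG_conj (A : Matrix n n ℝ) (v w : n → Fin m → ℂ) :
    A * RG v w * Aᵀ = RG (fun j => ∑ k, (A j k : ℂ) • v k) fun j => ∑ k, (A j k : ℂ) • w k := by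
  ext j l
  simp only [RG, Matrix.mul_apply, of_apply, transpose_apply, star_sum, star_smul, sum_dotProduct,
    dotProduct_sum, smul_dotProduct, dotProduct_smul, Complex.re_sum, Finset.sum_mul,
    smul_eq_mul, Complex.star_def, Complex.conj_ofReal, Complex.re_ofReal_mul,
    Finset.mul_sum]
  exact Finset.sum_congr rfl fun _ _ => Finset.sum_congr rfl fun _ _ => by ring

lemma young_c {α : ℝ} (h0 : 0 < α) {W : Matrix (Fin m) (Fin m) ℂ} (hW : W.PosSemidef)
    (v : n → Fin m → ℂ) : trace (RG v fun k => W *ᵥ v k) ≤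
      2 * cp α * trPow (α + 1) W + trace (fc (fun t => t ^ (α⁻¹ + 1)) (RG v v)) := by
  obtain ⟨U, μ, hU, h1, h3, h2⟩ := spec_c hW
  set y : n → Fin m → ℂ := fun k => star U *ᵥ v k with hy
  have hs : ∀ k, star (y k) = star (v k) ᵥ* U := fun k => by
    rw [hy]; simp [star_mulVec, star_eq_conjTranspose]
  set C : Matrix n (Fin m ⊕ Fin m) ℝ :=
    Matrix.of fun k => Sum.elim (fun i => (y k i).re) fun i => (y k i).im with hC
  have e1 : RG v v = C * Cᵀ := by
    ext k l
    have : star (v k) ⬝ᵥ v l = star (y k) ⬝ᵥ y l := by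
      rw [hs, hy, ← dotProduct_mulVec, mulVec_mulVec, Matrix.mem_unitaryGroup_iff.mp hU, one_mulVec]
    simp only [RG, of_apply, this]
    simp [Matrix.mul_apply, hC, dotProduct, Finset.sum_add_distrib]
  have := young_real h0 C (μ := Sum.elim μ μ) (by rintro (i | i) <;> exact h1 i)
  rw [e1, h2]
  simp only [Fintype.sum_sum_type, Sum.elim_inl, Sum.elim_inr, hC, of_apply] at this
  refine le_trans (le_of_eq ?_) (this.trans (le_of_eq (by ring)))
  simp only [Finset.mul_sum]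
  rw [Finset.sum_comm, Finset.sum_comm (s := Finset.univ (α := Fin m)), ← Finset.sum_add_distrib]
  refine Finset.sum_congr rfl fun k _ => ?_
  have : star (v k) ⬝ᵥ W *ᵥ v k = star (y k) ⬝ᵥ (diagonal fun i => (μ i : ℂ)) *ᵥ y k := by
    rw [hs, hy, ← dotProduct_mulVec, mulVec_mulVec, mulVec_mulVec, ← h3]
  simp only [diag_apply, RG, of_apply, this]
  simp only [dotProduct, mulVec_diagonal, Complex.re_sum, ← Finset.sum_add_distrib]
  refine Finset.sum_congr rfl fun i _ => ?_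
  simp; ring

end Vale.Agent.P371
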